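import Vale.Agent.P207.N3.H738.Dens
import Vale.Agent.P207.N3.H854.Chi

/-!
# P207, line N3, package P14 (4.3): the field `good2` of `Outs`, given regular homoclinics
-/

open Set Filter Topology Metric
open scoped ContDiff

set_option linter.unusedSectionVars false

noncomputable section

namespace Vale.Agent.P207.N3.H738

open Vale.Agent.P207.N3

variable {Γ X B : Type} [Group Γ] [MetricSpace X] [ProperSpace X] [MulAction Γ X]
  [IsIsometricSMul Γ X] [TopologicalSpace B] [CompactSpace B] [T2Space B] [MulAction Γ B]
  [ContinuousConstSMul Γ B] [MeasurableSpace B] [BorelSpace B]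

variable {L : Leaf Γ X B} (A : Area L) (T : Tens L)

/-- all homoclinic points of the special typed orbits are regular -/
def RegSpecial : Prop := ∀ k₀, Rough T k₀ → ∀ p : Typed A T k₀, p.Special →
  ∀ k : Γ, k • p.o.pos ≠ p.o.neg → Reg p.t k

/-- the field `good2` of `Outs` -/
theorem out_good2 (hreg : RegSpecial A T) : ∀ k₀, Rough T k₀ → Types A T k₀ →
    ∀ p : Typed A T k₀, p.Special → p.DenseGood :=
  fun k₀ hR _ p hp => denseGood_of_reg hR p (H854.chi_pos p) (H854.chi_le p) (hreg k₀ hR p hp)

end Vale.Agent.P207.N3.H738
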