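import Vale.Agent.P207.N3.H738.Tools

/-!
# One variable: inverse functions with bounds, Taylor polynomials (helper738, line N3 of P207)
-/

open Set Filter Topology Metric

noncomputable section

namespace Vale.Agent.P207.N3.H738

/-- inverse functions with uniform bounds -/
theorem exists_inverse (k : ℕ) {c C r : ℝ} (hc : 0 < c) (hr : 0 < r) : ∃ K : ℝ, 1 ≤ K ∧
    ∀ F : ℝ → ℝ, Bk (k + 1) C (Ioo (-r) r) F → F 0 = 0 →
      (∀ t ∈ Ioo (-r) r, c ≤ deriv F t) →
      ∃ T : ℝ → ℝ, Bk (k + 1) K (Ioo (-(c * r)) (c * r)) T ∧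
        (∀ s ∈ Ioo (-(c * r)) (c * r), T s ∈ Ioo (-r) r ∧ F (T s) = s ∧ |T s| ≤ |s| / c) ∧
        (∀ t ∈ Ioo (-r) r, F t ∈ Ioo (-(c * r)) (c * r) → T (F t) = t) := by
  obtain ⟨C₁, hC₁, hinv⟩ := exists_bk_inv_comp (D := ℝ) k hc C
  -- the constants
  have hK : ∀ j ≤ k + 1, ∃ K : ℝ, 1 ≤ K ∧ ∀ F : ℝ → ℝ, Bk (k + 1) C (Ioo (-r) r) F →
      (∀ t ∈ Ioo (-r) r, c ≤ deriv F t) → ∀ T : ℝ → ℝ,
      (∀ s ∈ Ioo (-(c * r)) (c * r), T s ∈ Ioo (-r) r) →
      (∀ s ∈ Ioo (-(c * r)) (c * r), HasDerivAt T (deriv F (T s))⁻¹ s) →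
      Bk j K (Ioo (-(c * r)) (c * r)) T := by
    intro j
    induction j with
    | zero =>
      intro _
      refine ⟨max 1 r, le_max_left _ _, fun F _ _ T hT hT' => ⟨?_, fun i hi u hu => ?_⟩⟩
      · have : ContinuousOn T (Ioo (-(c * r)) (c * r)) := fun s hs =>
          (hT' s hs).continuousAt.continuousWithinAt
        exact_mod_cast contDiffOn_zero.2 this
      · obtain rfl : i = 0 := by omega
        rw [norm_iteratedFDeriv_zero, Real.norm_eq_abs]
        exact (abs_lt.2 (hT u hu)).le.trans (le_max_right _ _)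
    | succ j ih =>
      intro hj
      obtain ⟨K, hK1, hK⟩ := ih (by omega)
      refine ⟨max (max (j.factorial * C₁ * K ^ j) r) 1, le_max_right _ _,
        fun F hF hFc T hT hT' => ?_⟩
      have hTb := hK F hF hFc T hT hT'
      have h1 : Bk k C₁ (Ioo (-r) r) fun t => (deriv F t)⁻¹ :=
        hinv isOpen_Ioo (hF.deriv isOpen_Ioo) hFc
      have h2 : Bk j (j.factorial * C₁ * K ^ j) (Ioo (-(c * r)) (c * r))
          fun s => (deriv F (T s))⁻¹ := by
        have h1' : Bk j C₁ (Ioo (-r) r) fun t => (deriv F t)⁻¹ :=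
          h1.mono (by omega) le_rfl subset_rfl
        exact h1'.comp isOpen_Ioo isOpen_Ioo hTb.1 (fun i _ hi u hu => hTb.2 i hi u hu) hK1 hT
      have h3 : Bk j (j.factorial * C₁ * K ^ j) (Ioo (-(c * r)) (c * r)) (deriv T) :=
        h2.congr isOpen_Ioo fun s hs => (hT' s hs).deriv
      exact (h3.of_deriv isOpen_Ioo (fun s hs => (hT' s hs).differentiableAt.differentiableWithinAt)
        (C' := r) fun u hu => by
          rw [Real.norm_eq_abs]; exact (abs_lt.2 (hT u hu)).le).mono le_rfl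
        (le_max_left _ _) subset_rfl
  obtain ⟨K, hK1, hK⟩ := hK (k + 1) le_rfl
  refine ⟨K, hK1, fun F hF hF0 hFc => ?_⟩
  have hFd : ∀ t ∈ Ioo (-r) r, HasDerivAt F (deriv F t) t := fun t ht =>
    ((hF.contDiffAt isOpen_Ioo ht).differentiableAt (by norm_cast)).hasDerivAt
  have hFcont : ContinuousOn F (Ioo (-r) r) := fun t ht =>
    (hFd t ht).continuousAt.continuousWithinAt
  have hconv : Convex ℝ (Ioo (-r) r) := convex_Ioo _ _
  have hgrow : ∀ x ∈ Ioo (-r) r, ∀ y ∈ Ioo (-r) r, x ≤ y → c * (y - x) ≤ F y - F x := by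
    refine hconv.mul_sub_le_image_sub_of_le_deriv hFcont ?_ ?_
    · rw [interior_Ioo]
      exact fun t ht => (hFd t ht).differentiableAt.differentiableWithinAt
    · rw [interior_Ioo]
      exact hFc
  have hlip : ∀ x ∈ Ioo (-r) r, ∀ y ∈ Ioo (-r) r, c * |y - x| ≤ |F y - F x| := by
    intro x hx y hy
    rcases le_total x y with h | h
    · have h1 := hgrow x hx y hy h
      rw [abs_of_nonneg (by linarith : 0 ≤ y - x)]
      exact h1.trans (le_abs_self _)
    · have h1 := hgrow y hy x hx h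
      rw [abs_sub_comm, abs_sub_comm (F y), abs_of_nonneg (by linarith : 0 ≤ x - y)]
      exact h1.trans (le_abs_self _)
  have h0 : (0 : ℝ) ∈ Ioo (-r) r := ⟨by linarith, hr⟩
  -- surjectivity
  have hsurj : ∀ s ∈ Ioo (-(c * r)) (c * r), ∃ t ∈ Ioo (-r) r, F t = s := by
    intro s hs
    have hsc : |s| / c < r := by
      rw [div_lt_iff₀ hc, mul_comm]
      exact abs_lt.2 hs
    have hsc0 : 0 ≤ |s| / c := by positivity
    have ha : -(|s| / c) ∈ Ioo (-r) r := ⟨by linarith, by linarith⟩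
    have hb : |s| / c ∈ Ioo (-r) r := ⟨by linarith, by linarith⟩
    have h1 := hgrow 0 h0 _ hb hsc0
    have h2 := hgrow _ ha 0 h0 (by linarith)
    rw [hF0, sub_zero, sub_zero, mul_div_cancel₀ _ hc.ne'] at h1
    rw [hF0, zero_sub, zero_sub, neg_neg, mul_div_cancel₀ _ hc.ne'] at h2
    have hmem : s ∈ Icc (F (-(|s| / c))) (F (|s| / c)) :=
      ⟨by have := neg_abs_le s; linarith, (le_abs_self s).trans h1⟩
    have hsub : Icc (-(|s| / c)) (|s| / c) ⊆ Ioo (-r) r := fun x hx =>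
      ⟨by have := hx.1; linarith, by have := hx.2; linarith⟩
    obtain ⟨t, ht, hts⟩ := intermediate_value_Icc (by linarith) (hFcont.mono hsub) hmem
    exact ⟨t, hsub ht, hts⟩
  choose! T hT hTF using hsurj
  have hTlip : ∀ s ∈ Ioo (-(c * r)) (c * r), ∀ s' ∈ Ioo (-(c * r)) (c * r),
      c * |T s' - T s| ≤ |s' - s| := by
    intro s hs s' hs'
    have := hlip _ (hT s hs) _ (hT s' hs')
    rwa [hTF s hs, hTF s' hs'] at this
  have hTinj : ∀ t ∈ Ioo (-r) r, F t ∈ Ioo (-(c * r)) (c * r) → T (F t) = t := by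
    intro t ht hFt
    have h1 := hlip t ht _ (hT _ hFt)
    rw [hTF _ hFt, sub_self, abs_zero] at h1
    have h2 : |T (F t) - t| ≤ 0 := by
      by_contra h
      have := mul_pos hc (not_le.1 h)
      linarith
    have := abs_nonpos_iff.1 h2
    linarith
  have hTcont : ∀ s ∈ Ioo (-(c * r)) (c * r), ContinuousAt T s := by
    intro s hs
    rw [Metric.continuousAt_iff]
    intro ε hε
    obtain ⟨δ, hδ, hδs⟩ := Metric.isOpen_iff.1 isOpen_Ioo s hs
    refine ⟨min δ (c * ε), by positivity, fun {s'} hs' => ?_⟩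
    have h1 : s' ∈ Ioo (-(c * r)) (c * r) :=
      hδs (mem_ball.2 (lt_of_lt_of_le hs' (min_le_left _ _)))
    have h2 := hTlip s hs s' h1
    have h3 : |s' - s| < c * ε := by
      have := lt_of_lt_of_le hs' (min_le_right _ _)
      rwa [Real.dist_eq] at this
    rw [Real.dist_eq]
    exact lt_of_mul_lt_mul_left (lt_of_le_of_lt h2 h3) hc.le
  have hTd : ∀ s ∈ Ioo (-(c * r)) (c * r), HasDerivAt T (deriv F (T s))⁻¹ s := by
    intro s hs
    refine HasDerivAt.of_local_left_inverse (hTcont s hs) (hFd _ (hT s hs)) ?_ ?_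
    · exact (lt_of_lt_of_le hc (hFc _ (hT s hs))).ne'
    · exact Filter.eventually_of_mem (isOpen_Ioo.mem_nhds hs) fun s' hs' => hTF s' hs'
  have hcr : 0 < c * r := mul_pos hc hr
  have hT0 : T 0 = 0 := by
    have := hTinj 0 h0 (by rw [hF0]; exact ⟨by linarith, hcr⟩)
    rwa [hF0] at this
  refine ⟨T, hK F hF hFc T hT hTd, fun s hs => ⟨hT s hs, hTF s hs, ?_⟩, hTinj⟩
  have h1 := hTlip 0 ⟨by linarith, hcr⟩ s hs
  rw [hT0, sub_zero, sub_zero] at h1
  rw [le_div_iff₀ hc, mul_comm]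
  exact h1

/-- antiderivative of a polynomial -/
theorem exists_antideriv (n : ℕ) (p : Polynomial ℝ) (hp : p.degree < n) (a : ℝ) :
    ∃ q : Polynomial ℝ, q.degree < (n + 1 : ℕ) ∧ Polynomial.derivative q = p ∧ q.eval 0 = a := by
  have hmono : ∀ (i : ℕ) (c : ℝ), Polynomial.derivative
      (Polynomial.C (c / (i + 1)) * Polynomial.X ^ (i + 1)) =
      Polynomial.C c * Polynomial.X ^ i := by
    intro i c
    rw [Polynomial.derivative_C_mul, Polynomial.derivative_X_pow, ← mul_assoc]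
    have h1 : Polynomial.C (c / (i + 1)) * Polynomial.C (((i + 1 : ℕ) : ℝ)) =
        Polynomial.C c := by
      rw [← Polynomial.C_mul]
      congr 1
      have : ((i : ℝ) + 1) ≠ 0 := by positivity
      push_cast
      field_simp
    rw [h1, Nat.add_sub_cancel]
  refine ⟨Polynomial.C a + ∑ i ∈ Finset.range n,
    Polynomial.C (p.coeff i / (i + 1)) * Polynomial.X ^ (i + 1), ?_, ?_, ?_⟩
  · refine lt_of_le_of_lt (Polynomial.degree_add_le _ _) (max_lt ?_ ?_)
    · refine lt_of_le_of_lt Polynomial.degree_C_le ?_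
      exact_mod_cast Nat.succ_pos n
    · refine lt_of_le_of_lt (Polynomial.degree_sum_le _ _) ?_
      refine (Finset.sup_lt_iff ?_).2 fun i hi => ?_
      · exact WithBot.bot_lt_coe _
      · refine lt_of_le_of_lt (Polynomial.degree_C_mul_X_pow_le _ _) ?_
        have := Finset.mem_range.1 hi
        exact_mod_cast (by omega : i + 1 < n + 1)
  · rw [Polynomial.derivative_add, Polynomial.derivative_C, zero_add,
      Polynomial.derivative_sum]
    by_cases h0 : p = 0
    · subst h0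
      simp
    · conv_rhs => rw [Polynomial.as_sum_range' p n
        ((Polynomial.natDegree_lt_iff_degree_lt h0).2 hp)]
      refine Finset.sum_congr rfl fun i _ => ?_
      rw [hmono, Polynomial.C_mul_X_pow_eq_monomial]
  · simp [Polynomial.eval_finsetSum]

/-- two sided Taylor polynomials, with an unspecified polynomial -/
theorem exists_taylor (n : ℕ) : ∀ {G : ℝ → ℝ} {K ε : ℝ}, 0 < ε →
    ContDiffOn ℝ n G (Ioo (-ε) ε) → (∀ s ∈ Ioo (-ε) ε, |iteratedDeriv n G s| ≤ K) →
    ∃ p : Polynomial ℝ, p.degree < n ∧ ∀ s ∈ Ioo (-ε) ε, |G s - p.eval s| ≤ K * |s| ^ n := by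
  induction n with
  | zero =>
    intro G K ε hε _ hK
    refine ⟨0, by simp, fun s hs => ?_⟩
    have := hK s hs
    rw [iteratedDeriv_zero] at this
    simpa using this
  | succ n ih =>
    intro G K ε hε hG hK
    have hG' := (contDiffOn_succ_iff_deriv_of_isOpen (n := (n : WithTop ℕ∞))
      (isOpen_Ioo : IsOpen (Ioo (-ε) ε))).1 (by exact_mod_cast hG)
    obtain ⟨p, hp, hpb⟩ := ih hε hG'.2.2 (fun s hs => by
      rw [← iteratedDeriv_succ']
      exact hK s hs)
    obtain ⟨q, hq, hqd, hq0⟩ := exists_antideriv n p hp (G 0)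
    refine ⟨q, hq, fun s hs => ?_⟩
    have hKn : 0 ≤ K := (abs_nonneg _).trans (hK 0 ⟨by linarith, hε⟩)
    have hsub : uIcc 0 s ⊆ Ioo (-ε) ε := by
      intro x hx
      have h1 : |x| ≤ |s| := by
        have := abs_sub_left_of_mem_uIcc hx
        simpa using this
      exact abs_lt.1 (lt_of_le_of_lt h1 (abs_lt.2 hs))
    have hder : ∀ x ∈ uIcc 0 s, HasDerivWithinAt (fun x => G x - q.eval x)
        (deriv G x - p.eval x) (uIcc 0 s) x := by
      intro x hx
      have h1 : HasDerivAt G (deriv G x) x :=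
        ((hG'.1 x (hsub hx)).differentiableAt (isOpen_Ioo.mem_nhds (hsub hx))).hasDerivAt
      have h2 := q.hasDerivAt x
      rw [hqd] at h2
      exact (h1.sub h2).hasDerivWithinAt
    have hbd : ∀ x ∈ uIcc 0 s, ‖deriv G x - p.eval x‖ ≤ K * |s| ^ n := by
      intro x hx
      have h1 : |x| ≤ |s| := by
        have := abs_sub_left_of_mem_uIcc hx
        simpa using this
      calc _ ≤ K * |x| ^ n := hpb x (hsub hx)
        _ ≤ K * |s| ^ n := by gcongr
    have h2 := (convex_uIcc (0 : ℝ) s).norm_image_sub_le_of_norm_hasDerivWithin_le hder hbd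
      left_mem_uIcc right_mem_uIcc
    rw [hq0, sub_self, sub_zero, sub_zero, Real.norm_eq_abs, Real.norm_eq_abs] at h2
    rw [pow_succ, ← mul_assoc]
    exact h2

end Vale.Agent.P207.N3.H738
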