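import Vale.Agent.P207.N3.H738.LeafB
import Vale.Agent.P207.N3.H147.Axis
import Vale.Agent.P207.N3.H545.Lim

/-!
# The frames at a homoclinic point (helper738, line N3 of P207, row P14 (G2))

`zf o k m = hol β⁻ (k β^m x₀)`: the frames at `κ = k β⁺` on the leaf of `β⁻`.
-/

set_option maxSynthPendingDepth 3

open Set Filter Topology Metric
open scoped ContDiff

noncomputable section

namespace Vale.Agent.P207.N3.H738

open Vale.Agent.P207.N3 Vale.Agent.P207.N3.H545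

variable {Γ X B : Type} [Group Γ] [MetricSpace X] [ProperSpace X] [MulAction Γ X]
  [IsIsometricSMul Γ X] [TopologicalSpace B] [CompactSpace B] [T2Space B] [MulAction Γ B]
  [ContinuousConstSMul Γ B] {L : Leaf Γ X B}

/-- the frames at the homoclinic point `k β⁺` -/
def zf (o : Orb L) (k : Γ) (m : ℕ) : X := L.hol o.neg (k • (o.β ^ m • o.x))

section frames

variable {o : Orb L} {k : Γ} (hk : k • o.pos ≠ o.neg)
include hk

theorem zf_ne (m : ℕ) : o.neg ≠ L.ep (k • (o.β ^ m • o.x)) := by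
  rw [H147.ep_smul, H147.ep_smul, H147.Ax.pow_smul_ep o.ax]
  exact fun h => hk h.symm

theorem em_zf (m : ℕ) : L.em (zf o k m) = o.neg := L.hol_em _ _ (zf_ne hk m)

theorem ep_zf (m : ℕ) : L.ep (zf o k m) = k • o.pos := by
  rw [zf, L.hol_ep _ _ (zf_ne hk m), H147.ep_smul, H147.ep_smul, H147.Ax.pow_smul_ep o.ax]
  rfl

theorem zf_eq (m : ℕ) : zf o k m = L.φ (m * o.l) (L.rot (o.a ^ m) (zf o k 0)) := by
  have h0 : o.neg ≠ L.ep (k • o.x) := by
    have := zf_ne hk 0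
    rwa [pow_zero, one_smul] at this
  unfold zf
  rw [H147.Ax.pow_smul o.ax, ← L.φ_smul, ← L.rot_smul, pow_zero, one_smul]
  rw [← L.hol_rot _ _ _ h0, ← L.hol_φ]
  rw [H147.ep_rot]
  exact h0

/-- the step of `n` periods -/
theorem zf_step (n m : ℕ) :
    zf o k (n * (m + 1)) = nx L (o.a ^ n) (n * o.l) (zf o k (n * m)) := by
  rw [zf_eq hk (n * (m + 1)), zf_eq hk (n * m), nx, L.rot_φ, ← L.φ_add, ← L.rot_mul,
    ← pow_add]
  have e1 : n * m + n = n * (m + 1) := by ring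
  rw [e1]
  congr 1
  push_cast
  ring

theorem lv_zf (m : ℕ) : L.lv (zf o k m) = L.lv (zf o k 0) + m * o.l := by
  rw [zf_eq hk m, L.lv_φ, L.lv_rot]

/-- the element which moves `zf m` close to the axis frame -/
theorem smul_zf (m : ℕ) : (k * o.β ^ m)⁻¹ • zf o k m =
    L.hol ((o.β ^ m)⁻¹ • (k⁻¹ • o.neg)) o.x := by
  have h1 : o.neg ≠ L.ep (k • (o.β ^ m • o.x)) := zf_ne hk m
  have e1 : (k * o.β ^ m)⁻¹ • o.neg = (o.β ^ m)⁻¹ • (k⁻¹ • o.neg) := by
    rw [mul_inv_rev, mul_smul]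
  have e2 : (k * o.β ^ m)⁻¹ • (k • (o.β ^ m • o.x)) = o.x := by
    rw [← mul_smul k, inv_smul_smul]
  rw [zf, ← L.hol_smul _ _ _ h1, e1, e2]

theorem tendsto_zf : Tendsto (fun m => (k * o.β ^ m)⁻¹ • zf o k m) atTop (𝓝 o.x) := by
  have hK : L.ep o.x ∉ ({k⁻¹ • o.neg} : Set B) := by
    intro h
    rw [mem_singleton_iff] at h
    refine hk ?_
    rw [Orb.pos, h, smul_inv_smul]
  obtain ⟨C, hC⟩ := H147.Ax.hol_asym_axis o.ax isCompact_singleton hK
  rw [tendsto_iff_dist_tendsto_zero]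
  refine squeeze_zero (fun _ => dist_nonneg) (fun m => ?_) (H147.Ax.tendsto_exp_aux o.ax C)
  have hpos := o.ax.pos
  obtain ⟨-, h3⟩ := hC m (k⁻¹ • o.neg) rfl 1 0 (by
    have : 0 ≤ (m : ℝ) * o.l := by positivity
    linarith)
  rw [L.rot_one, L.φ_zero, L.φ_zero] at h3
  rw [smul_zf hk, dist_comm]
  exact h3

end frames

/-! ### `E^s` along the sequence -/

/-- `N` at the frames `zf m` converges uniformly -/
theorem tendstoUniformlyOn_N (T : Tens L) {o : Orb L} {k : Γ} (hk : k • o.pos ≠ o.neg)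
    {φ : ℕ → ℕ} (hφ : Tendsto φ atTop atTop) :
    TendstoUniformlyOn (fun n => T.N (zf o k (φ n))) (T.N o.x) atTop (closedBall 0 1) := by
  have hKc : IsCompact (closedBall (0 : E2) 1) := isCompact_closedBall _ _
  have h13 : closedBall (0 : E2) 1 ⊆ ball 0 3 := closedBall_subset_ball (by norm_num)
  rw [Metric.tendstoUniformlyOn_iff]
  intro ε hε
  -- uniform continuity near `{o.x} × closedBall`
  have hopen : IsOpen ((univ : Set X) ×ˢ ball (0 : E2) 3) := isOpen_univ.prod isOpen_ball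
  have hnear : ∀ᶠ x in 𝓝 o.x, ∀ u ∈ closedBall (0 : E2) 1, dist (T.N o.x u) (T.N x u) < ε := by
    refine hKc.eventually_forall_of_forall_eventually (x₀ := o.x) fun u hu => ?_
    have hc : ContinuousAt (fun p : X × E2 => T.N p.1 p.2) (o.x, u) :=
      T.N_cont.continuousAt (hopen.mem_nhds ⟨mem_univ _, h13 hu⟩)
    have hc2 : ContinuousAt (fun p : X × E2 => T.N o.x p.2) (o.x, u) := by
      have h1 : ContinuousAt (fun p : X × E2 => ((o.x, p.2) : X × E2)) (o.x, u) := by fun_prop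
      exact ContinuousAt.comp (f := fun p : X × E2 => ((o.x, p.2) : X × E2)) hc h1
    have hd : ContinuousAt (fun p : X × E2 => dist (T.N o.x p.2) (T.N p.1 p.2)) (o.x, u) :=
      hc2.dist hc
    have h0 : dist (T.N o.x u) (T.N o.x u) < ε := by rw [dist_self]; exact hε
    exact hd.eventually (gt_mem_nhds h0)
  have htz : Tendsto (fun n => (k * o.β ^ (φ n))⁻¹ • zf o k (φ n)) atTop (𝓝 o.x) :=
    (tendsto_zf hk).comp hφ
  filter_upwards [htz.eventually hnear] with n hn u hu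
  have h1 := hn u hu
  rwa [T.N_smul _ _ u (h13 hu)] at h1

theorem N_contOn (T : Tens L) (x : X) : ContinuousOn (T.N x) (ball (0 : E2) 3) := by
  have h1 : ContinuousOn (fun u : E2 => ((x, u) : X × E2)) (ball (0 : E2) 3) := by fun_prop
  exact T.N_cont.comp h1 fun u hu => ⟨mem_univ _, hu⟩

section area

variable [MeasurableSpace B] [BorelSpace B]

theorem s_contOn (A : Area L) : ContinuousOn (fun p : X × E2 => A.s p.1 p.2)
    (univ ×ˢ ball (0 : E2) 3) := by
  have h1 := A.s_cont 0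
  have h2 : ContinuousOn (fun p : X × E2 => (iteratedFDeriv ℝ 0 (A.s p.1) p.2) 0)
      (univ ×ˢ ball (0 : E2) 3) :=
    (ContinuousMultilinearMap.apply ℝ (fun _ : Fin 0 => E2) ℝ 0).continuous.comp_continuousOn h1
  refine h2.congr fun p _ => ?_
  simp

/-- lower bound of the density -/
theorem exists_s_lower (A : Area L) : ∃ c : ℝ, 0 < c ∧ ∀ x, ∀ u ∈ closedBall (0 : E2) 2,
    c ≤ A.s x u := by
  obtain ⟨K, hK, hKΓ⟩ := L.cocompact
  have h23 : closedBall (0 : E2) 2 ⊆ ball 0 3 := closedBall_subset_ball (by norm_num)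
  have hcomp : IsCompact (K ×ˢ closedBall (0 : E2) 2) := hK.prod (isCompact_closedBall _ _)
  have hne : (K ×ˢ closedBall (0 : E2) 2).Nonempty := by
    obtain ⟨x⟩ := L.nonempty
    obtain ⟨g, hg⟩ := hKΓ x
    exact ⟨(g • x, 0), hg, by simp⟩
  obtain ⟨p, hp, hmin⟩ := hcomp.exists_isMinOn hne
    ((s_contOn A).mono fun q hq => ⟨mem_univ _, h23 hq.2⟩)
  refine ⟨A.s p.1 p.2, A.s_pos _ _ (h23 hp.2), fun x u hu => ?_⟩
  obtain ⟨g, hg⟩ := hKΓ x
  have h1 : A.s p.1 p.2 ≤ A.s (g • x) u := hmin (show (g • x, u) ∈ _ from ⟨hg, hu⟩)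
  rwa [A.s_smul g x u (h23 hu)] at h1

/-- upper bound of the density -/
theorem exists_s_upper (A : Area L) : ∃ c : ℝ, 0 < c ∧ ∀ x, ∀ u ∈ closedBall (0 : E2) 2,
    A.s x u ≤ c := by
  obtain ⟨K, hK, hKΓ⟩ := L.cocompact
  have h23 : closedBall (0 : E2) 2 ⊆ ball 0 3 := closedBall_subset_ball (by norm_num)
  have hcomp : IsCompact (K ×ˢ closedBall (0 : E2) 2) := hK.prod (isCompact_closedBall _ _)
  obtain ⟨C, hC⟩ := hcomp.exists_bound_of_continuousOn
    ((s_contOn A).mono fun q hq => ⟨mem_univ _, h23 hq.2⟩)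
  refine ⟨max C 1, lt_of_lt_of_le one_pos (le_max_right _ _), fun x u hu => ?_⟩
  obtain ⟨g, hg⟩ := hKΓ x
  have h1 := hC (g • x, u) ⟨hg, hu⟩
  simp only at h1
  rw [A.s_smul g x u (h23 hu)] at h1
  exact ((le_abs_self _).trans h1).trans (le_max_left _ _)

theorem tendsto_s (A : Area L) {o : Orb L} {k : Γ} (hk : k • o.pos ≠ o.neg)
    {φ : ℕ → ℕ} (hφ : Tendsto φ atTop atTop) {u : E2} (hu : u ∈ ball (0 : E2) 3) :
    Tendsto (fun n => A.s (zf o k (φ n)) u) atTop (𝓝 (A.s o.x u)) := by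
  have hopen : IsOpen ((univ : Set X) ×ˢ ball (0 : E2) 3) := isOpen_univ.prod isOpen_ball
  have hc : ContinuousAt (fun p : X × E2 => A.s p.1 p.2) (o.x, u) :=
    (s_contOn A).continuousAt (hopen.mem_nhds ⟨mem_univ _, hu⟩)
  have htz : Tendsto (fun n => (k * o.β ^ (φ n))⁻¹ • zf o k (φ n)) atTop (𝓝 o.x) :=
    (tendsto_zf hk).comp hφ
  have h1 := hc.tendsto.comp (htz.prodMk_nhds (tendsto_const_nhds (x := u)))
  refine h1.congr fun n => ?_
  exact A.s_smul _ _ u hu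

/-- the tensor `(∇^⊥ f)²` is smooth -/
theorem Q_perp_smooth (A : Area L) {f : B → ℝ} {y : X}
    (hf : ContDiffOn ℝ ∞ (fun u => f (L.e y u)) (ball 0 3)) :
    ContDiffOn ℝ ∞ (fun u => Q (perp A y f u)) (ball (0 : E2) 3) := by
  have h1 : ContDiffOn ℝ ∞ (fun u => gradient (fun u => f (L.e y u)) u) (ball (0 : E2) 3) := by
    have h2 : ContDiffOn ℝ ∞ (fderiv ℝ fun u => f (L.e y u)) (ball (0 : E2) 3) :=
      hf.fderiv_of_isOpen isOpen_ball (by simp)
    exact riesz.toContinuousLinearEquiv.contDiff.comp_contDiffOn h2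
  have h3 : ContDiffOn ℝ ∞ (fun u => perp A y f u) (ball (0 : E2) 3) := by
    unfold perp
    refine (contDiffOn_const.div (A.s_smooth y) fun u hu => (A.s_pos y u hu).ne').smul ?_
    exact JL.contDiff.comp_contDiffOn h1
  have h4 : ContDiffOn ℝ ∞ (fun u => Qb (perp A y f u) (perp A y f u)) (ball (0 : E2) 3) :=
    (Qb.contDiff.comp_contDiffOn h3).clm_apply h3
  exact h4

end area

end Vale.Agent.P207.N3.H738
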