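import Vale.Agent.P207.N3.H738.Good
import Vale.Agent.P207.N3.H476.OneVar

/-!
# Good levels: conversion to the form of helper476 (helper738, line N3 of P207)
-/

open Set Filter Topology Metric

noncomputable section

namespace Vale.Agent.P207.N3.H738

theorem raw_eq_raw {κ χ : ℝ} (hχ : 0 < χ) (b : ℝ → ℝ) (s₀ : ℝ) {ρ : ℝ} (hρ : 0 < ρ) (s : ℝ) :
    H476.raw b s₀ (κ / χ) ρ s = raw κ χ b s₀ (-Real.log ρ / χ) s := by
  unfold H476.raw raw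
  have h1 : Real.exp (-χ * (-Real.log ρ / χ)) = ρ := by
    have : -χ * (-Real.log ρ / χ) = Real.log ρ := by field_simp
    rw [this, Real.exp_log hρ]
  have h2 : ρ ^ (-(κ / χ)) = Real.exp (κ * (-Real.log ρ / χ)) := by
    rw [Real.rpow_def_of_pos hρ]
    congr 1
    field_simp
  rw [h1, h2]

theorem Nowhere.not_contDiffAt {k : ℕ} {S : Set ℝ} (hS : IsOpen S) {b : ℝ → ℝ}
    (h : Nowhere k S b) : ∀ s ∈ S, ¬ ContDiffAt ℝ k b s := by
  intro s hs hc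
  obtain ⟨u, hu, hsu, hcu⟩ := (hc.contDiffWithinAt (s := univ)).contDiffOn' le_rfl (by simp)
  exact h (u ∩ S) (hu.inter hS) inter_subset_right ⟨s, hsu, hs⟩
    (hcu.mono fun x hx => ⟨mem_insert_of_mem _ (mem_univ x), hx.1⟩)

/-- conversion -/
theorem Good.conv {κ χ : ℝ} {k₀ : ℕ} {b : ℝ → ℝ} {s₀ : ℝ} (hχ : 0 < χ)
    (h : Good κ χ k₀ b s₀) : ∃ N, H476.Good b s₀ (κ / χ) N k₀ := by
  obtain ⟨N, P, M, hP, hlim⟩ := h
  set T : ℝ → ℝ := fun ρ => -Real.log ρ / χ with hT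
  have hT0 : ∀ ρ ∈ Ioc (0 : ℝ) 1, 0 ≤ T ρ := fun ρ hρ =>
    div_nonneg (neg_nonneg.2 (Real.log_nonpos hρ.1.le hρ.2)) hχ.le
  have hev : ∀ ρ ∈ Ioc (0 : ℝ) 1, ∀ s,
      H476.ev (fun i : Fin N => (P (T ρ)).coeff i) s = (P (T ρ)).eval s := by
    intro ρ hρ s
    rw [Polynomial.eval_eq_sum_range' (hP _ (hT0 ρ hρ)).1, Finset.sum_range]
    rfl
  refine ⟨N, fun ρ i => (P (T ρ)).coeff i, ⟨M, fun ρ hρ s hs => ?_⟩, fun ρ hρ hρ0 => ?_⟩
  · rw [raw_eq_raw hχ b s₀ hρ.1, hev ρ hρ]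
    exact (hP _ (hT0 ρ hρ)).2 s hs
  · have hTn : Tendsto (fun n => T (ρ n)) atTop atTop := by
      have h1 : Tendsto (fun n => Real.log (ρ n)) atTop atBot :=
        Real.tendsto_log_nhdsGT_zero.comp (tendsto_nhdsWithin_iff.2
          ⟨hρ0, Eventually.of_forall fun n => (hρ n).1⟩)
      exact (tendsto_neg_atBot_atTop.comp h1).atTop_div_const hχ
    obtain ⟨ψ, hψ, b', hb', hnw⟩ := hlim _ hTn
    refine ⟨ψ, hψ, b', ?_, hnw.not_contDiffAt isOpen_Ioo⟩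
    refine hb'.congr (Eventually.of_forall fun n s _ => ?_)
    simp only
    rw [raw_eq_raw hχ b s₀ (hρ _).1, hev _ (hρ _)]

end Vale.Agent.P207.N3.H738
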