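import Vale.Agent.P207.N3.H738.Boot
import Vale.Agent.P207.N3.H545.LemR

/-!
# (G2), abstract form (helper738, line N3 of P207, row P14)

A sequence of discs, `N m = V m + raw m (F m) • W m`, `V m` smooth, with the recursions of the
rescaled tensors. `abs_bound`: after subtraction of a polynomial of degree `< n` from `raw m`
everything is bounded (and the smooth part is `C^k` bounded).
-/

open Set Filter Topology Metric

noncomputable section

namespace Vale.Agent.P207.N3.H738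

theorem Bk.toH545 {E F : Type*} [NormedAddCommGroup E] [NormedSpace ℝ E]
    [NormedAddCommGroup F] [NormedSpace ℝ F] {k : ℕ} {C r : ℝ} {f : E → F}
    (h : Bk k C (ball 0 r) f) : H545.CkB k r C f := h

/-- the interpolation polynomial of the rescaled function -/
theorem Pi_rescale (N : ℕ) (g g' : ℝ → ℝ) {a ρ : ℝ} (h : ∀ s, g' s = a * g (ρ * s)) (s : ℝ) :
    (Pi N g').eval s = (Pi N fun s => a * rem N g (ρ * s)).eval s +
      a * (Pi N g).eval (ρ * s) := by
  have h1 : g' = fun s => (fun s => a * rem N g (ρ * s)) s +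
      (scale' a ρ (Pi N g)).eval s := by
    funext s
    rw [h, scale'_eval]
    unfold rem
    ring
  have hdeg : (scale' a ρ (Pi N g)).degree < N := degree_scale_lt (Pi_degree N g) a ρ
  have h2 : (Pi N fun s => (scale' a ρ (Pi N g)).eval s).eval s =
      (scale' a ρ (Pi N g)).eval s := by rw [Pi_poly N hdeg]
  rw [← scale'_eval, ← h2, h1, Pi_eval, Pi_eval, Pi_eval, ← Finset.sum_add_distrib]
  exact Finset.sum_congr rfl fun i _ => by ring

/-- **(G2), abstract form.** -/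
theorem abs_bound {E G : Type} [NormedAddCommGroup E] [NormedSpace ℝ E]
    [NormedAddCommGroup G] [NormedSpace ℝ G] {κ χ l : ℝ} (hχ : 0 < χ) (hl : 0 < l)
    {N k : ℕ} (hN : κ < N * χ) (hNk : N + 1 ≤ k) {c c' r a θ R : ℝ} (hc' : 0 < c') (hr : 0 < r)
    (hr2 : r ≤ 2) (ha : 0 ≤ a) (hθ : 0 ≤ θ) (haθ : a * θ ^ k ≤ 1 / 4) (hR : 1 ≤ R) (hcR : c ≤ R)
    {e₀ : E} (he₀ : ‖e₀‖ ≤ 1) (lam : G →L[ℝ] ℝ)
    (τ : ℕ → E → E) (A : ℕ → E → G →L[ℝ] G) (Er Nn V W : ℕ → E → G) (F : ℕ → E → ℝ)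
    (rw_ : ℕ → ℝ → ℝ) (hcont : ∀ m, Continuous (rw_ m))
    (hraw : ∀ (m q : ℕ) s, rw_ (m + q) s =
      Real.exp (κ * (l * q)) * rw_ m (Real.exp (-χ * (l * q)) * s))
    (hNV : ∀ m, ∀ u ∈ ball (0 : E) 2, Nn m u = V m u + rw_ m (F m u) • W m u)
    (hNb : ∀ m, ∀ u ∈ ball (0 : E) 2, ‖Nn m u‖ ≤ c)
    (hVrel : ∀ m, ∀ u ∈ ball (0 : E) 2, V (m + 1) u = A m u (V m (τ m u)) + Er m u)
    (hFrel : ∀ m, ∀ u ∈ ball (0 : E) 2, F (m + 1) u = Real.exp (χ * l) * F m (τ m u))
    (hWrel : ∀ m, ∀ u ∈ ball (0 : E) 2, A m u (W m (τ m u)) = Real.exp (κ * l) • W (m + 1) u)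
    (hVk : ∀ m, ContDiffOn ℝ k (V m) (ball 0 2)) (hV0 : Bk k c (ball 0 2) (V 0))
    (hFk : ∀ m, Bk k c (ball 0 2) (F m)) (hWk : ∀ m, Bk k c (ball 0 2) (W m))
    (hτk : ∀ m, ContDiffOn ℝ k (τ m) (ball 0 2)) (hτm : ∀ m, MapsTo (τ m) (ball 0 2) (ball 0 1))
    (hτθ : ∀ m, ∀ u ∈ ball (0 : E) 2, ‖fderiv ℝ (τ m) u‖ ≤ θ)
    (hτi : ∀ m i, 1 ≤ i → i ≤ k → ∀ u ∈ ball (0 : E) 2, ‖iteratedFDeriv ℝ i (τ m) u‖ ≤ c)
    (hAa : ∀ m, ∀ u ∈ ball (0 : E) 2, ‖A m u‖ ≤ a) (hAk : ∀ m, Bk k c (ball 0 2) (A m))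
    (hEk : ∀ m, Bk k c (ball 0 2) (Er m)) (hF0 : ∀ m, F m 0 = 0)
    (hFl : ∀ m, ∀ t ∈ Ioo (-r) r, c' ≤ deriv (fun t : ℝ => F m (t • e₀)) t)
    (hWl : ∀ m, ∀ t ∈ Ioo (-r) r, c' ≤ lam (W m (t • e₀))) :
    ∃ M : ℝ, (∀ m, ∀ s ∈ Icc (-R) R, |rem N (rw_ m) s| ≤ M) ∧
      ∀ m, Bk k M (ball 0 2) fun u => V m u + (Pi N (rw_ m)).eval (F m u) • W m u := by
  classical
  have hc0 : 0 ≤ c := (norm_nonneg _).trans (hNb 0 0 (mem_ball_self (by norm_num)))
  have hR0 : 0 < R := by linarith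
  have hFmem : ∀ m, ∀ u ∈ ball (0 : E) 2, F m u ∈ Icc (-R) R := fun m u hu =>
    abs_le.1 (((hFk m).norm_le hu).trans hcR)
  -- Lemma R
  obtain ⟨CR, hCR1, hLR⟩ := H545.exists_lemma_R.{0} k E (show (1 : ℝ) < 2 by norm_num) c 0
  obtain ⟨Λ, hΛ, hPi⟩ := exists_Pi_bd N k (R + 1)
  -- composition with `F m`
  have hcomp : ∀ (g : ℝ → ℝ) (M : ℝ), 0 ≤ M → (∀ s ∈ Icc (-1 : ℝ) 1, |g s| ≤ M) → ∀ m,
      Bk k (2 ^ k * (k.factorial * (Λ * M) * (max c 1) ^ k * c)) (ball 0 2)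
        fun u => (Pi N g).eval (F m u) • W m u := by
    intro g M hM hg m
    refine Bk.smul isOpen_ball ?_ (hWk m)
    refine (hPi g M hg).comp isOpen_ball isOpen_Ioo (hFk m).1 (fun i _ hi u hu =>
      ((hFk m).2 i hi u hu).trans (le_max_left _ _)) (le_max_right _ _) fun u hu => ?_
    have := hFmem m u hu
    exact ⟨by linarith [this.1], by linarith [this.2]⟩
  set Vh : ℕ → E → G := fun m u => V m u + (Pi N (rw_ m)).eval (F m u) • W m u with hVh
  have hVhN : ∀ m, ∀ u ∈ ball (0 : E) 2, Vh m u = Nn m u - rem N (rw_ m) (F m u) • W m u := by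
    intro m u hu
    rw [hVh, hNV m u hu]
    simp only [rem, sub_smul]
    abel
  -- the step relation
  set ErA : ℕ → E → G := fun m u => Er m u +
    (Pi N fun s => Real.exp (κ * l) * rem N (rw_ m) (Real.exp (-χ * l) * s)).eval (F (m + 1) u) •
      W (m + 1) u with hErA
  have hstep : ∀ m, ∀ u ∈ ball (0 : E) 2, Vh (m + 1) u = A m u (Vh m (τ m u)) + ErA m u := by
    intro m u hu
    have h1 := Pi_rescale N (rw_ m) (rw_ (m + 1)) (a := Real.exp (κ * l))
      (ρ := Real.exp (-χ * l)) (fun s => by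
        have := hraw m 1 s
        simpa using this) (F (m + 1) u)
    have h2 : Real.exp (-χ * l) * F (m + 1) u = F m (τ m u) := by
      rw [hFrel m u hu, ← mul_assoc, ← Real.exp_add]
      simp
    rw [h2] at h1
    simp only [hVh, hErA]
    rw [h1, hVrel m u hu, map_add, map_smul, hWrel m u hu, add_smul, smul_smul]
    rw [mul_comm (Real.exp (κ * l)) ((Pi N (rw_ m)).eval (F m (τ m u)))]
    abel
  -- smoothness
  have hVhk : ∀ m, ContDiffOn ℝ k (Vh m) (ball 0 2) := by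
    intro m
    obtain ⟨B, hB⟩ := isCompact_Icc.exists_bound_of_continuousOn (hcont m).continuousOn
      (s := Icc (-1 : ℝ) 1)
    exact (hVk m).add (hcomp (rw_ m) |B| (abs_nonneg _)
      (fun s hs => (hB s hs).trans (le_abs_self _)) m).1
  -- the initial bound
  obtain ⟨C₀, hC₀0, hC₀⟩ : ∃ C : ℝ, 0 ≤ C ∧ Bk k C (ball 0 2) (Vh 0) := by
    obtain ⟨B, hB⟩ := isCompact_Icc.exists_bound_of_continuousOn (hcont 0).continuousOn
      (s := Icc (-1 : ℝ) 1)
    exact ⟨_, by positivity, hV0.add isOpen_ball (hcomp (rw_ 0) |B| (abs_nonneg _)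
      (fun s hs => (hB s hs).trans (le_abs_self _)) 0)⟩
  -- the errors
  set CE : ℝ := 2 ^ k * (k.factorial * (Λ * Real.exp (κ * l)) * (max c 1) ^ k * c) with hCE
  have hCE0 : 0 ≤ CE := by positivity
  have herr : ∀ m (α : ℝ), 0 ≤ α → (∀ s ∈ Icc (-R) R, |rem N (rw_ m) s| ≤ α) →
      Bk k (c + CE * α) (ball 0 2) (ErA m) := by
    intro m α hα hm
    have h1 : ∀ s ∈ Icc (-1 : ℝ) 1,
        |Real.exp (κ * l) * rem N (rw_ m) (Real.exp (-χ * l) * s)| ≤ Real.exp (κ * l) * α := by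
      intro s hs
      rw [abs_mul, abs_of_pos (Real.exp_pos _)]
      refine mul_le_mul_of_nonneg_left (hm _ ?_) (Real.exp_pos _).le
      refine abs_le.1 ?_
      rw [abs_mul, abs_of_pos (Real.exp_pos _)]
      have h2 : Real.exp (-χ * l) ≤ 1 := Real.exp_le_one_iff.2 (by nlinarith [mul_pos hχ hl])
      calc Real.exp (-χ * l) * |s| ≤ 1 * 1 :=
            mul_le_mul h2 (abs_le.2 hs) (abs_nonneg _) zero_le_one
        _ ≤ R := by rw [one_mul]; exact hR
    have h3 := (hEk m).add isOpen_ball (hcomp _ (Real.exp (κ * l) * α) (by positivity) h1 (m + 1))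
    refine h3.mono le_rfl (le_of_eq ?_) subset_rfl
    rw [hCE]
    ring
  -- application of Lemma R
  set C₁ : ℝ := max (max c CE) C₀ with hC₁
  have hC₁c : c ≤ C₁ := (le_max_left _ _).trans (le_max_left _ _)
  have hC₁E : CE ≤ C₁ := (le_max_right _ _).trans (le_max_left _ _)
  have hC₁0 : C₀ ≤ C₁ := le_max_right _ _
  have hC₁n : 0 ≤ C₁ := hc0.trans hC₁c
  have hLemR : ∀ (m : ℕ) (α : ℝ), 0 ≤ α → (∀ j ≤ m, ∀ s ∈ Icc (-R) R, |rem N (rw_ j) s| ≤ α) →
      Bk k (CR * (C₁ * (1 + α))) (ball 0 2) (Vh m) := by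
    intro m α hα hm
    have h1 := hLR G m (C₁ * (1 + α)) a θ (fun s => Vh (m - s)) (fun s => ErA (m - s - 1))
      (fun s => A (m - s - 1)) (fun s => τ (m - s - 1)) (by positivity) ha hθ
      (by rw [Real.exp_zero, mul_one]; exact haθ)
      (fun s _ => hVhk _) (fun s _ => hτk _) (fun s _ => hτm _)
      (fun s _ u hu => ⟨hAa _ u hu, hτθ _ u hu⟩) (fun s _ => hAk _)
      (fun s _ i hi1 hik u hu => hτi _ i hi1 hik u hu)
      (fun s hs u hu => by
        have e1 : m - s = (m - s - 1) + 1 := by omega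
        have e2 : m - (s + 1) = m - s - 1 := by omega
        rw [e2]
        conv_lhs => rw [e1]
        exact hstep _ u hu)
      (fun s hs u hu => by
        rw [zero_mul, Real.exp_zero, mul_one, hVhN _ u hu]
        refine (norm_sub_le _ _).trans ?_
        rw [norm_smul, Real.norm_eq_abs]
        have h2 := hNb (m - s) u hu
        have h3 := hm (m - s) (Nat.sub_le _ _) _ (hFmem (m - s) u hu)
        have h4 := (hWk (m - s)).norm_le hu
        calc _ ≤ c + α * c := add_le_add h2 (mul_le_mul h3 h4 (norm_nonneg _) hα)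
          _ = c * (1 + α) := by ring
          _ ≤ C₁ * (1 + α) := by gcongr)
      (fun s hs => by
        rw [zero_mul, Real.exp_zero, mul_one]
        refine (herr (m - s - 1) α hα (hm _ (by omega))).mono le_rfl ?_ subset_rfl
        calc c + CE * α ≤ C₁ + C₁ * α := by gcongr
          _ = C₁ * (1 + α) := by ring)
      (by
        rw [zero_mul, Real.exp_zero, mul_one]
        simp only [Nat.sub_self]
        refine hC₀.mono le_rfl ?_ subset_rfl
        calc C₀ ≤ C₁ := hC₁0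
          _ ≤ C₁ * (1 + α) := le_mul_of_one_le_right hC₁n (by linarith)) 0 (Nat.zero_le _)
    rw [Nat.cast_zero, mul_zero, Real.exp_zero, mul_one] at h1
    exact h1
  -- the inverse functions and the final bounds
  obtain ⟨K, hK1, hinv⟩ := exists_inverse (k - 1) (C := c) hc' hr
  obtain ⟨CW, hCW0, hWinv⟩ := exists_bk_inv_comp (D := ℝ) k hc' (‖lam‖ * c)
  have hk1 : k - 1 + 1 = k := by omega
  set C₂ : ℝ := k.factorial * (2 ^ k * (‖lam‖ * (CR * C₁) * CW)) * K ^ k + ‖lam‖ * c / c'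
    with hC₂
  have hC₂0 : 0 ≤ C₂ := by positivity
  obtain ⟨M, hM⟩ := boot hχ hl hN hR (mul_pos hc' hr) hC₂0 rw_ hraw hcont
    (fun m α hα hm => by
      have hVm := hLemR m α hα hm
      have hFline : Bk (k - 1 + 1) c (Ioo (-r) r) fun t : ℝ => F m (t • e₀) := by
        rw [hk1]; exact (hFk m).line he₀ hr2
      obtain ⟨T, hT, hTm, -⟩ := hinv (fun t : ℝ => F m (t • e₀)) hFline
        (by simp only [zero_smul]; exact hF0 m) (hFl m)
      rw [hk1] at hT
      have hVl : Bk k (‖lam‖ * (CR * (C₁ * (1 + α)))) (Ioo (-r) r)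
          fun t : ℝ => lam (Vh m (t • e₀)) := (hVm.clm isOpen_ball lam).line he₀ hr2
      have hWl' : Bk k (‖lam‖ * c) (Ioo (-r) r) fun t : ℝ => lam (W m (t • e₀)) :=
        ((hWk m).clm isOpen_ball lam).line he₀ hr2
      have hq := (hVl.mul isOpen_Ioo (hWinv isOpen_Ioo hWl' (hWl m))).neg
      have hG := hq.comp isOpen_Ioo isOpen_Ioo hT.1 (fun i _ hi u hu => hT.2 i hi u hu) hK1
        (fun s hs => (hTm s hs).1)
      refine ⟨_, hG.mono (by omega) ?_ subset_rfl, fun s hs => ?_⟩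
      · have e1 : (k.factorial : ℝ) * (2 ^ k * (‖lam‖ * (CR * (C₁ * (1 + α))) * CW)) * K ^ k =
            k.factorial * (2 ^ k * (‖lam‖ * (CR * C₁) * CW)) * K ^ k * (1 + α) := by ring
        rw [e1]
        refine mul_le_mul_of_nonneg_right ?_ (by linarith)
        rw [hC₂]
        have : 0 ≤ ‖lam‖ * c / c' := by positivity
        linarith
      · obtain ⟨hTs, hFT, -⟩ := hTm s hs
        have hball : T s • e₀ ∈ ball (0 : E) 2 := by
          rw [mem_ball_zero_iff, norm_smul, Real.norm_eq_abs]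
          calc |T s| * ‖e₀‖ ≤ |T s| * 1 := mul_le_mul_of_nonneg_left he₀ (abs_nonneg _)
            _ < 2 := by rw [mul_one]; exact lt_of_lt_of_le (abs_lt.2 hTs) hr2
        have hWp := hWl m _ hTs
        have hWp0 : 0 < lam (W m (T s • e₀)) := lt_of_lt_of_le hc' hWp
        have h5 := hVhN m _ hball
        rw [hFT] at h5
        have h6 : rem N (rw_ m) s - -(lam (Vh m (T s • e₀)) * (lam (W m (T s • e₀)))⁻¹) =
            lam (Nn m (T s • e₀)) / lam (W m (T s • e₀)) := by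
          rw [h5, map_sub, map_smul, smul_eq_mul]
          field_simp
          ring
        rw [h6, abs_div, abs_of_pos hWp0]
        have h7 : |lam (Nn m (T s • e₀))| ≤ ‖lam‖ * c := by
          rw [← Real.norm_eq_abs]
          exact (lam.le_opNorm _).trans
            (mul_le_mul_of_nonneg_left (hNb m _ hball) (norm_nonneg _))
        have h8 : |lam (Nn m (T s • e₀))| / lam (W m (T s • e₀)) ≤ ‖lam‖ * c / c' :=
          div_le_div₀ (by positivity) h7 hc' hWp
        refine h8.trans ?_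
        rw [hC₂]
        have : 0 ≤ (k.factorial : ℝ) * (2 ^ k * (‖lam‖ * (CR * C₁) * CW)) * K ^ k := by
          positivity
        linarith)
  have hM0 : 0 ≤ M := (abs_nonneg _).trans (hM 0 0 ⟨by linarith, by linarith⟩)
  refine ⟨max M (CR * (C₁ * (1 + M))), fun m s hs => (hM m s hs).trans (le_max_left _ _),
    fun m => ?_⟩
  exact (hLemR m M hM0 fun j _ => hM j).mono le_rfl (le_max_right _ _) subset_rfl

end Vale.Agent.P207.N3.H738
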