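import Vale.Agent.P207.N3.H738.Inv

/-!
# The bootstrap in one variable (helper738, line N3 of P207, row P14 (G2))

`Pi N g` = Lagrange interpolation polynomial of `g` at `N` nodes of `[0, 1)`;
`rem N g = g - Pi N g`. `boot`: the remainders of the rescaled functions `raw m` are bounded.
-/

open Set Filter Topology Metric

noncomputable section

namespace Vale.Agent.P207.N3.H738

/-- the nodes -/
def node (N : ℕ) (i : Fin N) : ℝ := (i : ℝ) / N

theorem node_inj (N : ℕ) : Function.Injective (node N) := by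
  intro i j h
  have hN : (0 : ℝ) < N := by
    have := i.2
    exact_mod_cast Nat.lt_of_le_of_lt (Nat.zero_le _) this
  unfold node at h
  rw [div_left_inj' hN.ne'] at h
  exact Fin.ext (by exact_mod_cast h)

theorem node_mem (N : ℕ) (i : Fin N) : node N i ∈ Icc (-1 : ℝ) 1 := by
  have hN : (0 : ℝ) < N := by
    have := i.2
    exact_mod_cast Nat.lt_of_le_of_lt (Nat.zero_le _) this
  unfold node
  have h1 : (i : ℝ) ≤ N := by exact_mod_cast i.2.le
  have h2 : 0 ≤ (i : ℝ) / N := by positivity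
  exact ⟨by linarith, (div_le_one hN).2 h1⟩

/-- the interpolation polynomial -/
def Pi (N : ℕ) (g : ℝ → ℝ) : Polynomial ℝ :=
  Lagrange.interpolate Finset.univ (node N) fun i => g (node N i)

theorem Pi_degree (N : ℕ) (g : ℝ → ℝ) : (Pi N g).degree < N := by
  have := Lagrange.degree_interpolate_lt (s := (Finset.univ : Finset (Fin N))) (v := node N)
    (fun i => g (node N i)) (node_inj N).injOn
  simpa [Pi] using this

theorem Pi_eval (N : ℕ) (g : ℝ → ℝ) (s : ℝ) :
    (Pi N g).eval s =
      ∑ i, g (node N i) * (Lagrange.basis Finset.univ (node N) i).eval s := by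
  unfold Pi
  rw [Lagrange.interpolate_apply, Polynomial.eval_finsetSum]
  exact Finset.sum_congr rfl fun i _ => by rw [Polynomial.eval_mul, Polynomial.eval_C]

theorem Pi_poly (N : ℕ) {p : Polynomial ℝ} (hp : p.degree < N) :
    Pi N (fun s => p.eval s) = p := by
  refine (Lagrange.eq_interpolate (s := (Finset.univ : Finset (Fin N))) (v := node N)
    (f := p) (node_inj N).injOn ?_).symm
  simpa using hp

/-- the remainder -/
def rem (N : ℕ) (g : ℝ → ℝ) (s : ℝ) : ℝ := g s - (Pi N g).eval s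

theorem rem_sub_poly (N : ℕ) (g : ℝ → ℝ) {p : Polynomial ℝ} (hp : p.degree < N) (s : ℝ) :
    rem N (fun s => g s - p.eval s) s = rem N g s := by
  have h1 : (Pi N fun s => g s - p.eval s).eval s = (Pi N g).eval s - p.eval s := by
    have h2 : (Pi N fun s => p.eval s).eval s = p.eval s := by rw [Pi_poly N hp]
    rw [← h2, Pi_eval, Pi_eval, Pi_eval, ← Finset.sum_sub_distrib]
    exact Finset.sum_congr rfl fun i _ => by ring
  unfold rem
  rw [h1]
  ring

theorem rem_cont (N : ℕ) {g : ℝ → ℝ} (hg : Continuous g) : Continuous (rem N g) :=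
  hg.sub (Pi N g).continuous

/-- bounds of the interpolation polynomial -/
theorem exists_Pi_bd (N k : ℕ) (R : ℝ) : ∃ Λ : ℝ, 0 ≤ Λ ∧ ∀ (g : ℝ → ℝ) (M : ℝ),
    (∀ s ∈ Icc (-1 : ℝ) 1, |g s| ≤ M) → Bk k (Λ * M) (Ioo (-R) R) fun s => (Pi N g).eval s := by
  -- each basis polynomial is bounded with its derivatives
  have hb : ∀ i : Fin N, ∃ C : ℝ, 0 ≤ C ∧
      Bk k C (Ioo (-R) R) fun s => (Lagrange.basis Finset.univ (node N) i).eval s := by
    intro i
    set p := Lagrange.basis Finset.univ (node N) i with hp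
    have hsm : ContDiff ℝ k fun s => p.eval s := by
      exact_mod_cast (Polynomial.contDiff_aeval p k : ContDiff ℝ k fun s => Polynomial.aeval s p)
    have h1 : ∀ j ≤ k, ∃ C, ∀ s ∈ Icc (-R) R, ‖iteratedFDeriv ℝ j (fun s => p.eval s) s‖ ≤ C :=
      fun j hj => isCompact_Icc.exists_bound_of_continuousOn
        (hsm.continuous_iteratedFDeriv (by exact_mod_cast hj)).continuousOn
    choose! C hC using h1
    refine ⟨∑ j ∈ Finset.range (k + 1), |C j|, Finset.sum_nonneg fun _ _ => abs_nonneg _,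
      hsm.contDiffOn, fun j hj s hs => ?_⟩
    calc _ ≤ C j := hC j hj s (Ioo_subset_Icc_self hs)
      _ ≤ |C j| := le_abs_self _
      _ ≤ _ := Finset.single_le_sum (f := fun j => |C j|) (fun _ _ => abs_nonneg _)
          (Finset.mem_range.2 (by omega))
  choose C hC0 hC using hb
  refine ⟨∑ i, C i, Finset.sum_nonneg fun i _ => hC0 i, fun g M hM => ?_⟩
  have hfun : (fun s => (Pi N g).eval s) = fun s => ∑ i, g (node N i) *
      (Lagrange.basis Finset.univ (node N) i).eval s := funext fun s => Pi_eval N g s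
  rw [hfun]
  -- induction over finite sets
  have hM0 : 0 ≤ M := (abs_nonneg _).trans (hM 0 ⟨by norm_num, by norm_num⟩)
  have key : ∀ t : Finset (Fin N), Bk k (∑ i ∈ t, C i * M) (Ioo (-R) R)
      fun s => ∑ i ∈ t, g (node N i) * (Lagrange.basis Finset.univ (node N) i).eval s := by
    intro t
    induction t using Finset.induction_on with
    | empty =>
      simp only [Finset.sum_empty]
      exact Bk.const (by simp)
    | insert a t ha ih =>
      simp only [Finset.sum_insert ha]
      refine Bk.add isOpen_Ioo ?_ ih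
      have h1 : Bk k (‖(ContinuousLinearMap.id ℝ ℝ).smulRight (g (node N a))‖ * C a) (Ioo (-R) R)
          fun s => ((ContinuousLinearMap.id ℝ ℝ).smulRight (g (node N a)))
            ((Lagrange.basis Finset.univ (node N) a).eval s) :=
        (hC a).clm isOpen_Ioo _
      have h2 : ‖(ContinuousLinearMap.id ℝ ℝ).smulRight (g (node N a))‖ ≤ M := by
        refine ContinuousLinearMap.opNorm_le_bound _ hM0 fun x => ?_
        rw [ContinuousLinearMap.smulRight_apply, ContinuousLinearMap.id_apply, smul_eq_mul,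
          norm_mul, mul_comm]
        exact mul_le_mul_of_nonneg_right (hM _ (node_mem N a)) (norm_nonneg _)
      refine (h1.mono le_rfl ?_ subset_rfl).congr isOpen_Ioo fun s _ => ?_
      · calc _ ≤ M * C a := mul_le_mul_of_nonneg_right h2 (hC0 a)
          _ = C a * M := mul_comm _ _
      · simp [mul_comm]
  have := key Finset.univ
  rwa [← Finset.sum_mul] at this

/-- the rescaled polynomial `a * p (ρ s)` -/
def scale' (a ρ : ℝ) (p : Polynomial ℝ) : Polynomial ℝ :=
  Polynomial.C a * p.comp (Polynomial.C ρ * Polynomial.X)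

theorem scale'_eval (a ρ : ℝ) (p : Polynomial ℝ) (s : ℝ) :
    (scale' a ρ p).eval s = a * p.eval (ρ * s) := by
  simp [scale']

theorem degree_scale_lt {N : ℕ} {p : Polynomial ℝ} (hp : p.degree < N) (a ρ : ℝ) :
    (scale' a ρ p).degree < N := by
  by_cases h0 : p = 0
  · subst h0
    unfold scale'
    rw [Polynomial.zero_comp, mul_zero]
    exact hp
  · by_cases h1 : scale' a ρ p = 0
    · rw [h1, Polynomial.degree_zero]
      exact WithBot.bot_lt_coe _
    · rw [← Polynomial.natDegree_lt_iff_degree_lt h1]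
      rw [← Polynomial.natDegree_lt_iff_degree_lt h0] at hp
      refine lt_of_le_of_lt ?_ hp
      unfold scale'
      refine (Polynomial.natDegree_C_mul_le _ _).trans ?_
      refine Polynomial.natDegree_comp_le.trans ?_
      have h : (Polynomial.C ρ * Polynomial.X : Polynomial ℝ).natDegree ≤ 1 :=
        (Polynomial.natDegree_C_mul_le _ _).trans Polynomial.natDegree_X_le
      calc p.natDegree * (Polynomial.C ρ * Polynomial.X : Polynomial ℝ).natDegree
          ≤ p.natDegree * 1 := Nat.mul_le_mul_left _ h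
        _ = p.natDegree := mul_one _

/-- the value bound on a closed interval -/
theorem exists_Pi_bd' (N : ℕ) {R : ℝ} (hR : 0 < R) : ∃ Λ : ℝ, 0 ≤ Λ ∧ ∀ (g : ℝ → ℝ) (M : ℝ),
    (∀ s ∈ Icc (-1 : ℝ) 1, |g s| ≤ M) → ∀ s ∈ Icc (-R) R, |(Pi N g).eval s| ≤ Λ * M := by
  obtain ⟨Λ, hΛ, h⟩ := exists_Pi_bd N 0 (2 * R)
  refine ⟨Λ, hΛ, fun g M hM s hs => ?_⟩
  have := (h g M hM).norm_le (u := s) ⟨by linarith [hs.1], by linarith [hs.2]⟩
  simpa using this

/-- **The bootstrap.** -/
theorem boot {κ χ l R ε C₀ : ℝ} (hχ : 0 < χ) (hl : 0 < l) {N : ℕ} (hN : κ < N * χ)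
    (hR : 1 ≤ R) (hε : 0 < ε) (hC₀ : 0 ≤ C₀) (rw_ : ℕ → ℝ → ℝ)
    (hraw : ∀ (m q : ℕ) s, rw_ (m + q) s =
      Real.exp (κ * (l * q)) * rw_ m (Real.exp (-χ * (l * q)) * s))
    (hcont : ∀ m, Continuous (rw_ m))
    (H : ∀ (m : ℕ) (α : ℝ), 0 ≤ α → (∀ j ≤ m, ∀ s ∈ Icc (-R) R, |rem N (rw_ j) s| ≤ α) →
      ∃ G : ℝ → ℝ, Bk N (C₀ * (1 + α)) (Ioo (-ε) ε) G ∧
        ∀ s ∈ Ioo (-ε) ε, |rem N (rw_ m) s - G s| ≤ C₀) :
    ∃ M : ℝ, ∀ m, ∀ s ∈ Icc (-R) R, |rem N (rw_ m) s| ≤ M := by
  have hR0 : 0 < R := by linarith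
  obtain ⟨Λ, hΛ, hPi⟩ := exists_Pi_bd' N hR0
  have hrem : ∀ (g : ℝ → ℝ) (M : ℝ), (∀ s ∈ Icc (-R) R, |g s| ≤ M) →
      ∀ s ∈ Icc (-R) R, |rem N g s| ≤ (1 + Λ) * M := by
    intro g M hM s hs
    have h1 := hPi g M (fun s hs => hM s ⟨by linarith [hs.1], by linarith [hs.2]⟩) s hs
    unfold rem
    calc _ ≤ |g s| + |(Pi N g).eval s| := abs_sub _ _
      _ ≤ M + Λ * M := add_le_add (hM s hs) h1
      _ = (1 + Λ) * M := by ring
  -- bounds of the individual remainders
  have hbd : ∀ m, ∃ a : ℝ, 0 ≤ a ∧ ∀ s ∈ Icc (-R) R, |rem N (rw_ m) s| ≤ a := by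
    intro m
    obtain ⟨a, ha⟩ := isCompact_Icc.exists_bound_of_continuousOn
      (rem_cont N (hcont m)).continuousOn (s := Icc (-R) R)
    exact ⟨|a|, abs_nonneg _, fun s hs => (ha s hs).trans (le_abs_self _)⟩
  choose a ha0 ha using hbd
  -- the choice of `q`
  obtain ⟨q, hq1, hq2⟩ : ∃ q : ℕ, Real.exp (-χ * (l * q)) * R < ε ∧
      (1 + Λ) * (Real.exp (κ * (l * q)) * (C₀ * (Real.exp (-χ * (l * q)) * R) ^ N)) ≤ 1 / 2 := by
    have hlin : Tendsto (fun q : ℕ => l * (q : ℝ)) atTop atTop :=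
      tendsto_natCast_atTop_atTop.const_mul_atTop hl
    have h1 : Tendsto (fun q : ℕ => Real.exp (-χ * (l * q)) * R) atTop (𝓝 (0 * R)) := by
      refine Tendsto.mul_const R (Real.tendsto_exp_atBot.comp ?_)
      refine (tendsto_neg_atTop_atBot.comp (hlin.const_mul_atTop hχ)).congr fun q => ?_
      simp only [Function.comp_apply]
      ring
    rw [zero_mul] at h1
    have h2 : Tendsto (fun q : ℕ => (1 + Λ) * (Real.exp (κ * (l * q)) *
        (C₀ * (Real.exp (-χ * (l * q)) * R) ^ N))) atTop (𝓝 ((1 + Λ) * (C₀ * R ^ N) * 0)) := by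
      have h3 : Tendsto (fun q : ℕ => Real.exp (-(N * χ - κ) * (l * q))) atTop (𝓝 0) := by
        refine Real.tendsto_exp_atBot.comp ?_
        refine (tendsto_neg_atTop_atBot.comp (hlin.const_mul_atTop
          (by linarith : 0 < N * χ - κ))).congr fun q => ?_
        simp only [Function.comp_apply]
        ring
      refine (h3.const_mul ((1 + Λ) * (C₀ * R ^ N))).congr fun q => ?_
      have h4 : (Real.exp (-χ * (l * q))) ^ N = Real.exp (N * (-χ * (l * q))) := by
        rw [← Real.exp_nat_mul]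
      rw [mul_pow, h4]
      have h5 : Real.exp (-(N * χ - κ) * (l * q)) =
          Real.exp (κ * (l * q)) * Real.exp (N * (-χ * (l * q))) := by
        rw [← Real.exp_add]
        ring_nf
      rw [h5]
      ring
    rw [mul_zero] at h2
    have h6 := (h1.eventually (gt_mem_nhds hε)).and
      (h2.eventually (gt_mem_nhds (by norm_num : (0 : ℝ) < 1 / 2)))
    obtain ⟨q, hq⟩ := h6.exists
    exact ⟨q, hq.1, hq.2.le⟩
  set E₀ : ℝ := Real.exp (κ * (l * q)) with hE₀
  set ρ : ℝ := Real.exp (-χ * (l * q)) with hρ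
  have hE0 : 0 < E₀ := Real.exp_pos _
  have hρ0 : 0 < ρ := Real.exp_pos _
  -- the recursive estimate
  have step : ∀ (m : ℕ) (α : ℝ), 0 ≤ α → (∀ j ≤ m, ∀ s ∈ Icc (-R) R, |rem N (rw_ j) s| ≤ α) →
      ∀ s ∈ Icc (-R) R, |rem N (rw_ (m + q)) s| ≤
        ((1 + Λ) * (E₀ * C₀) + 1 / 2) + α / 2 := by
    intro m α hα hm
    obtain ⟨G, hG, hGr⟩ := H m α hα hm
    obtain ⟨p, hp, hpG⟩ := exists_taylor N hε hG.1 (K := C₀ * (1 + α)) (fun s hs => by
      have := hG.2 N le_rfl s hs
      rwa [norm_iteratedFDeriv_eq_norm_iteratedDeriv, Real.norm_eq_abs] at this)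
    set p' : Polynomial ℝ := scale' E₀ ρ (Pi N (rw_ m) + p) with hp'
    have hdeg : p'.degree < N := by
      refine degree_scale_lt ?_ _ _
      exact lt_of_le_of_lt (Polynomial.degree_add_le _ _) (max_lt (Pi_degree _ _) hp)
    intro s hs
    have h1 : ∀ s, rw_ (m + q) s - p'.eval s =
        E₀ * (rem N (rw_ m) (ρ * s) - p.eval (ρ * s)) := by
      intro s
      rw [hraw, hp', scale'_eval, Polynomial.eval_add]
      unfold rem
      ring
    rw [← rem_sub_poly N _ hdeg]
    have h2 := hrem (fun s => rw_ (m + q) s - p'.eval s)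
      (E₀ * (C₀ + C₀ * (1 + α) * (ρ * R) ^ N)) (fun s hs => by
        rw [h1, abs_mul, abs_of_pos hE0]
        refine mul_le_mul_of_nonneg_left ?_ hE0.le
        have h3 : |ρ * s| ≤ ρ * R := by
          rw [abs_mul, abs_of_pos hρ0]
          exact mul_le_mul_of_nonneg_left (abs_le.2 hs) hρ0.le
        have h4 : ρ * s ∈ Ioo (-ε) ε := abs_lt.1 (lt_of_le_of_lt h3 hq1)
        calc |rem N (rw_ m) (ρ * s) - p.eval (ρ * s)|
            = |(rem N (rw_ m) (ρ * s) - G (ρ * s)) + (G (ρ * s) - p.eval (ρ * s))| := by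
              congr 1; ring
          _ ≤ |rem N (rw_ m) (ρ * s) - G (ρ * s)| + |G (ρ * s) - p.eval (ρ * s)| :=
              abs_add_le _ _
          _ ≤ C₀ + C₀ * (1 + α) * |ρ * s| ^ N := add_le_add (hGr _ h4) (hpG _ h4)
          _ ≤ C₀ + C₀ * (1 + α) * (ρ * R) ^ N := by
              have : 0 ≤ C₀ * (1 + α) := by positivity
              gcongr) s hs
    refine h2.trans (le_of_eq_of_le ?_ (add_le_add_left
      (a := (1 + Λ) * (E₀ * C₀))
      (mul_le_mul_of_nonneg_right hq2 (by linarith : 0 ≤ 1 + α)) |>.trans (le_of_eq ?_)))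
    · ring
    · ring
  -- conclusion
  set A : ℝ := (1 + Λ) * (E₀ * C₀) + 1 / 2 with hA
  have hA0 : 0 ≤ A := by positivity
  set Bd : ℝ := 2 * A + ∑ j ∈ Finset.range (q + 1), a j with hBd
  have hsum0 : 0 ≤ ∑ j ∈ Finset.range (q + 1), a j := Finset.sum_nonneg fun j _ => ha0 j
  have hBd0 : 0 ≤ Bd := by positivity
  refine ⟨Bd, fun m => ?_⟩
  induction m using Nat.strong_induction_on with
  | _ m ih =>
    rcases Nat.lt_or_ge m (q + 1) with hm | hm
    · intro s hs
      refine (ha m s hs).trans ?_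
      have := Finset.single_le_sum (f := a) (fun j _ => ha0 j) (Finset.mem_range.2 hm)
      rw [hBd]
      linarith
    · rcases Nat.eq_zero_or_pos q with hq0 | hq0
      · -- `q = 0` : impossible estimate, use the recursion at `m` itself
        subst hq0
        intro s hs
        -- `Bd ≥ a 0`; the recursion gives `a m ≤ A + (max a)/2` with `j ≤ m`
        have hmax : ∀ j ≤ m, ∀ s ∈ Icc (-R) R, |rem N (rw_ j) s| ≤ max Bd (sSup
            ((fun s => |rem N (rw_ m) s|) '' Icc (-R) R)) := by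
          intro j hj s hs
          rcases Nat.lt_or_ge j m with h | h
          · exact (ih j h s hs).trans (le_max_left _ _)
          · obtain rfl : j = m := le_antisymm hj h
            refine le_trans ?_ (le_max_right _ _)
            exact le_csSup (isCompact_Icc.image_of_continuousOn
              (rem_cont N (hcont j)).abs.continuousOn).bddAbove ⟨s, hs, rfl⟩
        have h3 := step m _ (hBd0.trans (le_max_left _ _)) hmax
        simp only [add_zero] at h3
        set S := sSup ((fun s => |rem N (rw_ m) s|) '' Icc (-R) R) with hS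
        have hSle : S ≤ A + max Bd S / 2 := by
          refine csSup_le ⟨_, 0, ⟨by linarith, by linarith⟩, rfl⟩ ?_
          rintro _ ⟨s, hs, rfl⟩
          exact h3 s hs
        have hSB : S ≤ Bd := by
          by_contra h
          rw [max_eq_right (not_le.1 h).le] at hSle
          have : 2 * A ≤ Bd := by rw [hBd]; linarith
          linarith
        refine le_trans ?_ hSB
        exact le_csSup (isCompact_Icc.image_of_continuousOn
          (rem_cont N (hcont m)).abs.continuousOn).bddAbove ⟨s, hs, rfl⟩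
      · intro s hs
        obtain ⟨m', rfl⟩ : ∃ m', m = m' + q := ⟨m - q, by omega⟩
        have h3 := step m' Bd hBd0 (fun j hj => ih j (by omega)) s hs
        have : 2 * A ≤ Bd := by rw [hBd]; linarith
        linarith

end Vale.Agent.P207.N3.H738
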