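import Vale.Agent.P207.N3.H738.G2
import Vale.Agent.P207.N3.H476.Good1
import Vale.Agent.P207.N3.H828.JRatio
import Vale.Agent.P207.N3.Top.Logic

/-!
# P207, line N3, package P14 (4.3): good levels are dense, given regular homoclinics
-/

open Set Filter Topology Metric
open scoped ContDiff

set_option linter.unusedSectionVars false

noncomputable section

namespace Vale.Agent.P207.N3.H738

open Vale.Agent.P207.N3

variable {Γ X B : Type} [Group Γ] [MetricSpace X] [ProperSpace X] [MulAction Γ X]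
  [IsIsometricSMul Γ X] [TopologicalSpace B] [CompactSpace B] [T2Space B] [MulAction Γ B]
  [ContinuousConstSMul Γ B] [MeasurableSpace B] [BorelSpace B]

variable {L : Leaf Γ X B} {A : Area L} {T : Tens L} {k₀ : ℕ} {o : Orb L}

/-- the values of the level function at the homoclinic points are dense -/
theorem dense_hom (t : LevForm A T k₀ o) :
    Dense {s : ℝ | ∃ k : Γ, k • o.pos ≠ o.neg ∧ t.f (k • o.pos) = s} := by
  rw [dense_iff_inter_open]
  intro U hU ⟨s, hs⟩
  have hcont : ContinuousOn t.f {o.neg}ᶜ := by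
    have h1 := H828.continuousOn_of_smoothOn t.n.smooth
    have h2 : Continuous fun z : E2 => z t.i := by fun_prop
    exact h2.comp_continuousOn h1
  have hW : IsOpen ({o.neg}ᶜ ∩ t.f ⁻¹' U) :=
    hcont.isOpen_inter_preimage isClosed_singleton.isOpen_compl hU
  have hne : ({o.neg}ᶜ ∩ t.f ⁻¹' U).Nonempty := by
    refine ⟨t.n.inv (EuclideanSpace.single t.i s), t.n.inv_ne _, ?_⟩
    show t.n.x (t.n.inv (EuclideanSpace.single t.i s)) t.i ∈ U
    rw [t.n.inv_right]
    simpa using hs
  obtain ⟨η, hη, g, hg⟩ := (L.dense_orbit o.pos).inter_open_nonempty _ hW hne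
  simp only at hg
  subst hg
  exact ⟨t.f (g • o.pos), hη.2, g, hη.1, rfl⟩

/-- the level lemma at a regular homoclinic point -/
theorem goodLev_of_reg (t : LevForm A T k₀ o) (h0 : 0 < t.χ) (hh : t.χ ≤ A.h) (hR : Rough T k₀)
    {k : Γ} (hk : k • o.pos ≠ o.neg) (hreg : Reg t k) :
    GoodLev L o.neg t.f t.χ (t.f (k • o.pos)) := by
  obtain ⟨N, hN⟩ := good2' t h0 hk hreg
  exact H476.level_of_levForm t h0 hh hR hN

/-- good levels are dense if all homoclinic points are regular -/
theorem denseGood_of_reg (hR : Rough T k₀) (p : Typed A T k₀) (h0 : 0 < p.t.χ) (hh : p.t.χ ≤ A.h)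
    (hreg : ∀ k : Γ, k • p.o.pos ≠ p.o.neg → Reg p.t k) : p.DenseGood := by
  refine (dense_hom p.t).mono ?_
  rintro s ⟨k, hk, rfl⟩
  exact goodLev_of_reg p.t h0 hh hR hk (hreg k hk)

end Vale.Agent.P207.N3.H738
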