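import Vale.Agent.P207.N3.H738.Tools

/-!
# Calculus of `C^k` bounds, continued (helper738, line N3 of P207)
-/

set_option maxSynthPendingDepth 3

open Set Filter Topology Metric

noncomputable section

namespace Vale.Agent.P207.N3.H738

variable {D E F G : Type*} [NormedAddCommGroup D] [NormedSpace ℝ D]
  [NormedAddCommGroup E] [NormedSpace ℝ E] [NormedAddCommGroup F] [NormedSpace ℝ F]
  [NormedAddCommGroup G] [NormedSpace ℝ G]

/-- `A u (f u)` -/
theorem Bk.clm_apply {k : ℕ} {C C' : ℝ} {S : Set D} (hS : IsOpen S) {A : D → E →L[ℝ] F}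
    {f : D → E} (hA : Bk k C S A) (hf : Bk k C' S f) :
    Bk k (2 ^ k * (C * C')) S fun u => A u (f u) := by
  by_cases hne : S.Nonempty
  · obtain ⟨u, hu⟩ := hne
    have h0 : 0 ≤ C := (norm_nonneg _).trans (hA.2 0 (Nat.zero_le _) u hu)
    have h0' : 0 ≤ C' := (norm_nonneg _).trans (hf.2 0 (Nat.zero_le _) u hu)
    have h := hA.bilin hS (ContinuousLinearMap.id ℝ (E →L[ℝ] F)) hf
    refine h.mono le_rfl ?_ subset_rfl
    have h1 : ‖ContinuousLinearMap.id ℝ (E →L[ℝ] F)‖ ≤ 1 := ContinuousLinearMap.norm_id_le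
    calc _ ≤ 1 * (2 ^ k * (C * C')) := by gcongr
      _ = _ := one_mul _
  · rw [not_nonempty_iff_eq_empty] at hne
    subst hne
    exact ⟨contDiffOn_empty, fun i _ u hu => absurd hu (notMem_empty u)⟩

/-- `A u ∘ P` -/
theorem Bk.comp_const {k : ℕ} {C : ℝ} {S : Set D} (hS : IsOpen S) {A : D → E →L[ℝ] F}
    (hA : Bk k C S A) (P : G →L[ℝ] E) (hP : ‖P‖ ≤ 1) (hC : 0 ≤ C) :
    Bk k C S fun u => (A u).comp P := by
  set Φ : (E →L[ℝ] F) →L[ℝ] (G →L[ℝ] F) := (ContinuousLinearMap.compL ℝ G E F).flip P with hΦ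
  have hΦn : ‖Φ‖ ≤ 1 := by
    refine ContinuousLinearMap.opNorm_le_bound _ zero_le_one fun Z => ?_
    rw [hΦ, ContinuousLinearMap.flip_apply, ContinuousLinearMap.compL_apply]
    calc ‖Z.comp P‖ ≤ ‖Z‖ * ‖P‖ := ContinuousLinearMap.opNorm_comp_le _ _
      _ ≤ ‖Z‖ * 1 := mul_le_mul_of_nonneg_left hP (norm_nonneg _)
      _ = 1 * ‖Z‖ := by ring
  have h3 := hA.clm hS Φ
  refine (h3.mono le_rfl ?_ subset_rfl).congr hS fun u _ => rfl
  calc ‖Φ‖ * C ≤ 1 * C := mul_le_mul_of_nonneg_right hΦn hC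
    _ = C := one_mul C

/-- multiplication by a constant -/
theorem Bk.const_smul {k : ℕ} {C : ℝ} {S : Set D} (hS : IsOpen S) {f : D → E}
    (hf : Bk k C S f) (c : ℝ) : Bk k (|c| * C) S fun u => c • f u := by
  refine ⟨contDiffOn_const.smul hf.1, fun i hi u hu => ?_⟩
  have h1 : iteratedFDeriv ℝ i (fun u => c • f u) u = c • iteratedFDeriv ℝ i f u :=
    iteratedFDeriv_const_smul_apply ((hf.contDiffAt hS hu).of_le (by exact_mod_cast hi))
  rw [h1, norm_smul, Real.norm_eq_abs]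
  exact mul_le_mul_of_nonneg_left (hf.2 i hi u hu) (abs_nonneg _)

/-- the first derivative -/
theorem Bk.fderiv {k : ℕ} {C : ℝ} {S : Set D} (hS : IsOpen S) {f : D → E}
    (hf : Bk (k + 1) C S f) : Bk k C S (_root_.fderiv ℝ f) := by
  refine ⟨hf.1.fderiv_of_isOpen hS (by exact_mod_cast le_rfl), fun i hi u hu => ?_⟩
  rw [norm_iteratedFDeriv_fderiv]
  exact hf.2 (i + 1) (by omega) u hu

/-- smooth functions on a neighbourhood of a compact set -/
theorem exists_bk_of_contDiffOn {k : ℕ} {S K U : Set D} (hU : IsOpen U) (hK : IsCompact K)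
    (hKU : K ⊆ U) (hSK : S ⊆ K) {f : D → E} (hf : ContDiffOn ℝ k f U) :
    ∃ C : ℝ, 0 ≤ C ∧ Bk k C S f := by
  have h1 : ∀ j ≤ k, ∃ C, ∀ u ∈ K, ‖iteratedFDeriv ℝ j f u‖ ≤ C := by
    intro j hj
    refine hK.exists_bound_of_continuousOn ?_
    have h2 : ContinuousOn (iteratedFDerivWithin ℝ j f U) U :=
      hf.continuousOn_iteratedFDerivWithin (by exact_mod_cast hj) hU.uniqueDiffOn
    refine (h2.congr fun u hu => (iteratedFDerivWithin_of_isOpen j hU hu).symm).mono hKU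
  choose! C hC using h1
  refine ⟨∑ j ∈ Finset.range (k + 1), |C j|, Finset.sum_nonneg fun _ _ => abs_nonneg _,
    hf.mono (hSK.trans hKU), fun j hj u hu => ?_⟩
  calc _ ≤ C j := hC j hj u (hSK hu)
    _ ≤ |C j| := le_abs_self _
    _ ≤ _ := Finset.single_le_sum (f := fun j => |C j|) (fun _ _ => abs_nonneg _)
        (Finset.mem_range.2 (by omega))

end Vale.Agent.P207.N3.H738
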