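import Vale.Agent.P207.N3.H738.Lim
import Vale.Agent.P207.N3.H738.Tools2

/-!
# (G2), abstract form, lower bounds only for large `m` (helper738, line N3 of P207, row P14)
-/

open Set Filter Topology Metric

noncomputable section

namespace Vale.Agent.P207.N3.H738

/-- **(G2), abstract form**, lower bounds for `m ≥ m₀`. -/
theorem abs_good' {E G : Type} [NormedAddCommGroup E] [NormedSpace ℝ E] [FiniteDimensional ℝ E]
    [NormedAddCommGroup G] [NormedSpace ℝ G] [FiniteDimensional ℝ G]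
    {κ χ l : ℝ} (hχ : 0 < χ) (hl : 0 < l)
    {N k k₀ : ℕ} (hN1 : 1 ≤ N) (hN : κ < N * χ) (hNk : N + 1 ≤ k) (hk₀ : k₀ + 1 ≤ k)
    {c c' r a θ s₀ : ℝ} (hc' : 0 < c') (hr : 0 < r)
    (hr1 : r ≤ 1) (ha : 0 ≤ a) (hθ : 0 ≤ θ) (haθ : a * θ ^ k ≤ 1 / 4)
    {e₀ : E} (he₀ : ‖e₀‖ ≤ 1) (lam : G →L[ℝ] ℝ)
    (τ : ℕ → E → E) (A : ℕ → E → G →L[ℝ] G) (Er Nn V W : ℕ → E → G) (F : ℕ → E → ℝ)
    {b : ℝ → ℝ} (hb : Continuous b)
    (hNV : ∀ m, ∀ u ∈ ball (0 : E) 2,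
      Nn m u = V m u + raw κ χ b s₀ (l * (m : ℝ)) (F m u) • W m u)
    (hNb : ∀ m, ∀ u ∈ ball (0 : E) 2, ‖Nn m u‖ ≤ c)
    (hVrel : ∀ m, ∀ u ∈ ball (0 : E) 2, V (m + 1) u = A m u (V m (τ m u)) + Er m u)
    (hFrel : ∀ m, ∀ u ∈ ball (0 : E) 2, F (m + 1) u = Real.exp (χ * l) * F m (τ m u))
    (hWrel : ∀ m, ∀ u ∈ ball (0 : E) 2, A m u (W m (τ m u)) = Real.exp (κ * l) • W (m + 1) u)
    (hVk : ∀ m, ∃ C, Bk k C (ball 0 2) (V m))
    (hFk : ∀ m, Bk k c (ball 0 2) (F m)) (hWk : ∀ m, Bk k c (ball 0 2) (W m))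
    (hτk : ∀ m, ContDiffOn ℝ k (τ m) (ball 0 2)) (hτm : ∀ m, MapsTo (τ m) (ball 0 2) (ball 0 1))
    (hτθ : ∀ m, ∀ u ∈ ball (0 : E) 2, ‖fderiv ℝ (τ m) u‖ ≤ θ)
    (hτi : ∀ m i, 1 ≤ i → i ≤ k → ∀ u ∈ ball (0 : E) 2, ‖iteratedFDeriv ℝ i (τ m) u‖ ≤ c)
    (hAa : ∀ m, ∀ u ∈ ball (0 : E) 2, ‖A m u‖ ≤ a) (hAk : ∀ m, Bk k c (ball 0 2) (A m))
    (hEk : ∀ m, Bk k c (ball 0 2) (Er m)) (hF0 : ∀ m, F m 0 = 0) (m₀ : ℕ)
    (hFl : ∀ m ≥ m₀, ∀ t ∈ Ioo (-r) r, c' ≤ deriv (fun t : ℝ => F m (t • e₀)) t)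
    (hWl : ∀ m ≥ m₀, ∀ t ∈ Ioo (-r) r, c' ≤ lam (W m (t • e₀)))
    (hnw : Nowhere k₀ univ b)
    (hlim : ∀ ψ : ℕ → ℕ, StrictMono ψ → ∃ ψ' : ℕ → ℕ, StrictMono ψ' ∧
      ∃ (Ni Vi Wi : E → G) (Fi : E → ℝ) (c₁ c₂ : ℝ), c₁ ≠ 0 ∧ c₂ ≠ 0 ∧
        ContDiffOn ℝ k₀ Vi (ball 0 2) ∧ ContinuousOn Ni (closedBall 0 1) ∧
        TendstoUniformlyOn (fun n => Nn (ψ (ψ' n))) Ni atTop (closedBall 0 1) ∧
        (∀ u ∈ ball (0 : E) 2, Tendsto (fun n => F (ψ (ψ' n)) u) atTop (𝓝 (Fi u))) ∧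
        (∀ u ∈ ball (0 : E) 2, Tendsto (fun n => W (ψ (ψ' n)) u) atTop (𝓝 (Wi u))) ∧
        ∀ u ∈ closedBall (0 : E) 1, Ni u = Vi u + (c₂ * b (c₁ * Fi u)) • Wi u) :
    Good κ χ k₀ b s₀ := by
  obtain ⟨CV, hCV⟩ := hVk m₀
  have hc0 : 0 ≤ c := (norm_nonneg _).trans (hNb 0 0 (mem_ball_self (by norm_num)))
  set p : ℝ := Real.exp (-χ * (l * m₀)) with hp
  set q : ℝ := Real.exp (κ * (l * m₀)) with hq
  have hp0 : 0 < p := Real.exp_pos _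
  have hq0 : 0 < q := Real.exp_pos _
  set C : ℝ := max (max c CV) (max (p * c) (q * c)) with hC
  have hcC : c ≤ C := (le_max_left _ _).trans (le_max_left _ _)
  have hCVC : CV ≤ C := (le_max_right _ _).trans (le_max_left _ _)
  have hpC : p * c ≤ C := (le_max_left _ _).trans (le_max_right _ _)
  have hqC : q * c ≤ C := (le_max_right _ _).trans (le_max_right _ _)
  set d : ℝ := min (p * c') (q * c') with hd
  have hd0 : 0 < d := lt_min (mul_pos hp0 hc') (mul_pos hq0 hc')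
  have hdp : d ≤ p * c' := min_le_left _ _
  have hdq : d ≤ q * c' := min_le_right _ _
  have hk1 : 1 ≤ k := by omega
  have hline : ∀ t ∈ Ioo (-r) r, t • e₀ ∈ ball (0 : E) 2 := by
    intro t ht
    rw [mem_ball_zero_iff, norm_smul, Real.norm_eq_abs]
    calc |t| * ‖e₀‖ ≤ |t| * 1 := mul_le_mul_of_nonneg_left he₀ (abs_nonneg _)
      _ < 2 := by rw [mul_one]; exact lt_of_lt_of_le (abs_lt.2 ht) (by linarith)
  refine abs_good (c := C) (c' := d) (r := r) (a := a) (θ := θ) hχ hl hN1 hN hNk hk₀ hd0 hr hr1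
    ha hθ haθ he₀ lam (fun m => τ (m + m₀)) (fun m => A (m + m₀)) (fun m => Er (m + m₀))
    (fun m => Nn (m + m₀)) (fun m => V (m + m₀)) (fun m u => q • W (m + m₀) u)
    (fun m u => p * F (m + m₀) u) hb ?_ ?_ ?_ ?_ ?_ ?_ ?_ ?_ ?_ ?_ ?_ ?_ ?_ ?_ ?_ ?_ ?_ ?_ ?_
    hnw ?_
  · intro m u hu
    rw [hNV (m + m₀) u hu]
    have h1 : l * ((m + m₀ : ℕ) : ℝ) = l * m + l * m₀ := by push_cast; ring
    rw [h1, raw_add, smul_smul]
    congr 2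
    rw [hp, hq]
    ring
  · exact fun m u hu => (hNb _ u hu).trans hcC
  · intro m u hu
    have h1 : m + 1 + m₀ = m + m₀ + 1 := by ring
    rw [h1]
    exact hVrel _ u hu
  · intro m u hu
    have h1 : m + 1 + m₀ = m + m₀ + 1 := by ring
    rw [h1, hFrel _ u hu]
    ring
  · intro m u hu
    have h1 : m + 1 + m₀ = m + m₀ + 1 := by ring
    rw [h1, map_smul, hWrel _ u hu, smul_comm]
  · exact fun m => (hVk (m + m₀)).choose_spec.1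
  · have h1 := hCV.mono (l := k) le_rfl hCVC subset_rfl
    simpa using h1
  · intro m
    have h1 := (hFk (m + m₀)).const_smul isOpen_ball p
    rw [abs_of_pos hp0] at h1
    exact h1.mono le_rfl hpC subset_rfl
  · intro m
    have h1 := (hWk (m + m₀)).const_smul isOpen_ball q
    rw [abs_of_pos hq0] at h1
    exact h1.mono le_rfl hqC subset_rfl
  · exact fun m => hτk _
  · exact fun m => hτm _
  · exact fun m => hτθ _
  · exact fun m i h1 h2 u hu => (hτi _ i h1 h2 u hu).trans hcC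
  · exact fun m => hAa _
  · exact fun m => (hAk _).mono le_rfl hcC subset_rfl
  · exact fun m => (hEk _).mono le_rfl hcC subset_rfl
  · intro m
    rw [hF0, mul_zero]
  · intro m t ht
    have h1 : DifferentiableAt ℝ (fun t : ℝ => F (m + m₀) (t • e₀)) t := by
      have h2 : DifferentiableAt ℝ (F (m + m₀)) (t • e₀) :=
        ((hFk (m + m₀)).contDiffAt isOpen_ball (hline t ht)).differentiableAt
          (by exact_mod_cast (by omega : k ≠ 0))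
      exact h2.comp t (by fun_prop)
    rw [deriv_const_mul _ h1]
    calc d ≤ p * c' := hdp
      _ ≤ _ := mul_le_mul_of_nonneg_left (hFl _ (Nat.le_add_left _ _) t ht) hp0.le
  · intro m t ht
    rw [map_smul, smul_eq_mul]
    calc d ≤ q * c' := hdq
      _ ≤ _ := mul_le_mul_of_nonneg_left (hWl _ (Nat.le_add_left _ _) t ht) hq0.le
  · intro ψ hψ
    obtain ⟨ψ', hψ', Ni, Vi, Wi, Fi, c₁, c₂, hc₁, hc₂, h1, h2, h3, h4, h5, h6⟩ :=
      hlim (fun n => ψ n + m₀) (hψ.add_const m₀)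
    refine ⟨ψ', hψ', Ni, Vi, fun u => q • Wi u, fun u => p * Fi u, c₁ * p⁻¹, c₂ * q⁻¹,
      mul_ne_zero hc₁ (inv_ne_zero hp0.ne'), mul_ne_zero hc₂ (inv_ne_zero hq0.ne'), h1, h2, h3,
      fun u hu => (h4 u hu).const_mul p, fun u hu => (h5 u hu).const_smul q, fun u hu => ?_⟩
    rw [h6 u hu, smul_smul]
    congr 2
    have e1 : c₁ * p⁻¹ * (p * Fi u) = c₁ * Fi u := by field_simp
    rw [e1]
    field_simp

end Vale.Agent.P207.N3.H738
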