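import Vale.Agent.P207.N3.H738.LeafC
import Vale.Agent.P207.N3.H738.Lim2
import Vale.Agent.P207.N3.H738.Conv

/-!
# (G2): the values of a level function at regular homoclinic points are good levels
(helper738, line N3 of P207, row P14)
-/

set_option maxSynthPendingDepth 3

open Set Filter Topology Metric
open scoped ContDiff

noncomputable section

namespace Vale.Agent.P207.N3.H738

open Vale.Agent.P207.N3 Vale.Agent.P207.N3.H545

/-- Lemma R for an exact recursion, forward indexing. -/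
theorem seq_R {E G : Type} [NormedAddCommGroup E] [NormedSpace ℝ E]
    [NormedAddCommGroup G] [NormedSpace ℝ G] {k : ℕ} {c a θ M : ℝ} (ha : 0 ≤ a) (hθ : 0 ≤ θ)
    (haθ : a * θ ^ k ≤ 1 / 4) (τ : ℕ → E → E) (A : ℕ → E → G →L[ℝ] G) (Z : ℕ → E → G)
    (hZ : ∀ m, ∀ u ∈ ball (0 : E) 2, Z (m + 1) u = A m u (Z m (τ m u)))
    (hZk : ∀ m, ContDiffOn ℝ k (Z m) (ball 0 2)) (hZ0 : ∃ C, Bk k C (ball 0 2) (Z 0))
    (hM : ∀ m, ∀ u ∈ ball (0 : E) 2, ‖Z m u‖ ≤ M)
    (hτk : ∀ m, ContDiffOn ℝ k (τ m) (ball 0 2)) (hτm : ∀ m, MapsTo (τ m) (ball 0 2) (ball 0 1))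
    (hτθ : ∀ m, ∀ u ∈ ball (0 : E) 2, ‖fderiv ℝ (τ m) u‖ ≤ θ)
    (hτi : ∀ m i, 1 ≤ i → i ≤ k → ∀ u ∈ ball (0 : E) 2, ‖iteratedFDeriv ℝ i (τ m) u‖ ≤ c)
    (hAa : ∀ m, ∀ u ∈ ball (0 : E) 2, ‖A m u‖ ≤ a) (hAk : ∀ m, Bk k c (ball 0 2) (A m)) :
    ∃ C, 0 ≤ C ∧ ∀ m, Bk k C (ball 0 2) (Z m) := by
  obtain ⟨CR, hCR1, hLR⟩ := H545.exists_lemma_R.{0} k E (show (1 : ℝ) < 2 by norm_num) c 0
  obtain ⟨C₀, hC₀⟩ := hZ0
  have hM0 : 0 ≤ M := (norm_nonneg _).trans (hM 0 0 (mem_ball_self (by norm_num)))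
  set C₁ : ℝ := max M C₀ with hC₁
  have hC₁M : M ≤ C₁ := le_max_left _ _
  have hC₁0 : C₀ ≤ C₁ := le_max_right _ _
  have hC₁n : 0 ≤ C₁ := hM0.trans hC₁M
  refine ⟨CR * C₁, by positivity, fun m => ?_⟩
  have h1 := hLR G m C₁ a θ (fun s => Z (m - s)) (fun s _ => 0)
      (fun s => A (m - s - 1)) (fun s => τ (m - s - 1)) (by positivity) ha hθ
      (by rw [Real.exp_zero, mul_one]; exact haθ)
      (fun s _ => hZk _) (fun s _ => hτk _) (fun s _ => hτm _)
      (fun s _ u hu => ⟨hAa _ u hu, hτθ _ u hu⟩) (fun s _ => hAk _)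
      (fun s _ i hi1 hik u hu => hτi _ i hi1 hik u hu)
      (fun s hs u hu => by
        have e1 : m - s = (m - s - 1) + 1 := by omega
        have e2 : m - (s + 1) = m - s - 1 := by omega
        rw [e2, add_zero]
        conv_lhs => rw [e1]
        exact hZ _ u hu)
      (fun s hs u hu => by
        rw [zero_mul, Real.exp_zero, mul_one]
        exact (hM _ u hu).trans hC₁M)
      (fun s hs => by
        rw [zero_mul, Real.exp_zero, mul_one]
        exact (Bk.const (k := k) (S := ball (0 : E) 2) (c := (0 : G)) (C := C₁)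
          (by rw [norm_zero]; exact hC₁n)))
      (by
        rw [zero_mul, Real.exp_zero, mul_one]
        simp only [Nat.sub_self]
        exact hC₀.mono le_rfl hC₁0 subset_rfl) 0 (Nat.zero_le _)
  rw [Nat.cast_zero, mul_zero, Real.exp_zero, mul_one] at h1
  exact h1

theorem norm_Q_le (w : E2) : ‖Q w‖ ≤ ‖w‖ ^ 2 := by
  refine ContinuousLinearMap.opNorm_le_bound _ (by positivity) fun v => ?_
  rw [Q_apply, norm_smul]
  calc ‖inner ℝ w v‖ * ‖w‖ ≤ (‖w‖ * ‖v‖) * ‖w‖ :=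
        mul_le_mul_of_nonneg_right (norm_inner_le_norm w v) (norm_nonneg _)
    _ = ‖w‖ ^ 2 * ‖v‖ := by ring

theorem inner_J_J (v w : E2) : inner ℝ (J v) (J w) = inner ℝ v w := by
  rw [inner_J_left, inner_E2]
  simp [J]

theorem norm_J (v : E2) : ‖J v‖ = ‖v‖ := by
  have h1 : ‖J v‖ ^ 2 = ‖v‖ ^ 2 := by
    rw [← real_inner_self_eq_norm_sq, ← real_inner_self_eq_norm_sq, inner_J_J]
  exact (sq_eq_sq₀ (norm_nonneg _) (norm_nonneg _)).1 h1

theorem gradient_const_mul {g : E2 → ℝ} {u : E2} (hg : DifferentiableAt ℝ g u) (c s : ℝ) :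
    gradient (fun v => c * (g v - s)) u = c • gradient g u := by
  rw [gradient_eq_riesz, gradient_eq_riesz, Function.comp_apply, Function.comp_apply,
    fderiv_const_mul (hg.sub_const s), fderiv_sub_const, map_smul]

theorem norm_gradient (g : E2 → ℝ) (u : E2) : ‖gradient g u‖ = ‖fderiv ℝ g u‖ := by
  rw [gradient_eq_riesz, Function.comp_apply, LinearIsometryEquiv.norm_map]

variable {Γ X B : Type} [Group Γ] [MetricSpace X] [ProperSpace X] [MulAction Γ X]
  [IsIsometricSMul Γ X] [TopologicalSpace B] [CompactSpace B] [T2Space B] [MulAction Γ B]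
  [ContinuousConstSMul Γ B] {L : Leaf Γ X B} [MeasurableSpace B] [BorelSpace B]
  {A : Area L} {T : Tens L} {k₀ : ℕ} {o : Orb L}

/-- The homoclinic point `k β⁺` is regular for the level form `t`: the leading part of
`f - f(κ)` at `κ` is `c f`, i.e. `(ε e^{χ l})^m (f - f(κ))`, seen at the frame `zf o k m`,
converges to `c f` seen at the axis frame. -/
def Reg (t : LevForm A T k₀ o) (k : Γ) : Prop := ∃ c : ℝ, c ≠ 0 ∧
  TendstoUniformlyOn (fun (m : ℕ) u => (t.ε * Real.exp (t.χ * o.l)) ^ m *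
    (t.f (L.e (zf o k m) u) - t.f (k • o.pos)))
    (fun u => c * t.f (L.e o.x u)) atTop (closedBall (0 : E2) 2)

theorem f_smooth (t : LevForm A T k₀ o) {y : X} (hy : L.em y = o.neg) :
    ContDiffOn ℝ ∞ (fun u => t.f (L.e y u)) (ball (0 : E2) 3) := by
  have h1 := t.n.smooth y hy
  exact (contDiffOn_euclidean.1 h1) t.i

theorem grad_f_ne (t : LevForm A T k₀ o) {y : X} (hy : L.em y = o.neg) {u : E2}
    (hu : u ∈ ball (0 : E2) 3) : gradient (fun u => t.f (L.e y u)) u ≠ 0 := by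
  intro h0
  have hdet := t.n.deriv y hy u hu
  set D := fderiv ℝ (fun u => t.n.x (L.e y u)) u with hD
  have hdiff : DifferentiableAt ℝ (fun u => t.n.x (L.e y u)) u :=
    ((t.n.smooth y hy u hu).contDiffAt (isOpen_ball.mem_nhds hu)).differentiableAt (by simp)
  have h1 : fderiv ℝ (fun u => t.f (L.e y u)) u =
      (EuclideanSpace.proj t.i : E2 →L[ℝ] ℝ).comp D :=
    ((EuclideanSpace.proj t.i : E2 →L[ℝ] ℝ).hasFDerivAt.comp u hdiff.hasFDerivAt).fderiv
  have h2 : fderiv ℝ (fun u => t.f (L.e y u)) u = 0 := by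
    rw [gradient_eq_riesz, Function.comp_apply] at h0
    exact (LinearIsometryEquiv.map_eq_zero_iff _).1 h0
  have hu' : IsUnit (D : E2 →ₗ[ℝ] E2) := by
    rw [LinearMap.isUnit_iff_isUnit_det]
    exact (isUnit_iff_ne_zero.2 hdet)
  obtain ⟨v, hv⟩ := ((Module.End.isUnit_iff _).1 hu').2 (EuclideanSpace.single t.i 1)
  have h3 : (EuclideanSpace.proj t.i : E2 →L[ℝ] ℝ) (D v) = 0 := by
    have h4 := congrArg (fun g : E2 →L[ℝ] ℝ => g v) (h1.symm.trans h2)
    exact h4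
  have h5 : D v = EuclideanSpace.single t.i 1 := hv
  rw [h5] at h3
  simp at h3

/-- **(G2)** -/
theorem good2 (t : LevForm A T k₀ o) (hχ : 0 < t.χ) {k : Γ} (hk : k • o.pos ≠ o.neg)
    (hreg : Reg t k) : Good (2 * A.h - 2 * t.χ) t.χ k₀ t.b (t.f (k • o.pos)) := by
  classical
  obtain ⟨cr, hcr, hreg⟩ := hreg
  set κ : ℝ := 2 * A.h - 2 * t.χ with hκ
  set χ : ℝ := t.χ with hχdef
  set s₀ : ℝ := t.f (k • o.pos) with hs₀
  have hl0 := o.ax.pos
  -- the number of periods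
  obtain ⟨n', hn'⟩ : ∃ n' : ℕ, ts L ≤ (2 * (n' + 1) : ℕ) * o.l := by
    obtain ⟨n', hn'⟩ := exists_nat_ge (ts L / o.l)
    refine ⟨n', ?_⟩
    rw [div_le_iff₀ hl0] at hn'
    push_cast
    nlinarith
  set n : ℕ := 2 * (n' + 1) with hn
  have hn0 : 0 < n := by omega
  set l : ℝ := n * o.l with hl
  have hlpos : 0 < l := by positivity
  have htsl : ts L ≤ l := hn'
  have ht1l : L.t1 ≤ l := (t1_le_ts L).trans htsl
  set a' : O2 := o.a ^ n with ha'
  set y : ℕ → X := fun m => zf o k (n * m) with hy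
  have hyem : ∀ m, L.em (y m) = o.neg := fun m => em_zf hk _
  have hystep : ∀ m, y (m + 1) = nx L a' l (y m) := fun m => zf_step hk n m
  have hylv : ∀ m : ℕ, L.lv (y m) = L.lv (zf o k 0) + l * m := by
    intro m
    rw [hy]
    simp only
    rw [lv_zf hk, hl]
    push_cast
    ring
  have h23 : ball (0 : E2) 2 ⊆ ball 0 3 := ball_subset_ball (by norm_num)
  have h23' : ball (0 : E2) 2 ⊆ closedBall 0 3 := h23.trans ball_subset_closedBall
  have h23'' : closedBall (0 : E2) 2 ⊆ ball 0 3 := closedBall_subset_ball (by norm_num)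
  have hfs : ∀ m, ContDiffOn ℝ ∞ (fun u => t.f (L.e (y m) u)) (ball (0 : E2) 3) := fun m =>
    f_smooth t (hyem m)
  have hfd : ∀ m, ∀ u ∈ ball (0 : E2) 3, DifferentiableAt ℝ (fun u => t.f (L.e (y m) u)) u :=
    fun m u hu => ((hfs m u hu).contDiffAt (isOpen_ball.mem_nhds hu)).differentiableAt (by simp)
  -- the data
  set F : ℕ → E2 → ℝ := fun m u => Real.exp (χ * (l * m)) * (t.f (L.e (y m) u) - s₀) with hF
  set W : ℕ → E2 → (E2 →L[ℝ] E2) := fun m u =>
    Real.exp (-κ * (l * m)) • Q (perp A (y m) t.f u) with hW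
  have hform : ∀ m, ∀ u ∈ ball (0 : E2) 3, T.N (y m) u =
      t.V (y m) u + t.b (t.f (L.e (y m) u)) • Q (perp A (y m) t.f u) := by
    intro m u hu
    ext v : 1
    rw [t.form (y m) (hyem m) u hu v, add_apply, smul_apply, Q_apply,
      smul_smul]
    rfl
  have hPstep : ∀ m, ∀ u ∈ ball (0 : E2) 2, sA L a' l (y m) u
      (t.b (t.f (L.e (y m) (sτ L a' l (y m) u))) • Q (perp A (y m) t.f (sτ L a' l (y m) u))) =
      t.b (t.f (L.e (y (m + 1)) u)) • Q (perp A (y (m + 1)) t.f u) := by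
    intro m u hu
    rw [map_smul, Q_sstep A a' ht1l (y m) (h23 hu) (hfd m), ← hystep,
      e_sτ L a' ht1l (y m) (h23' hu), ← hystep]
  have hsτm : ∀ m, ∀ u ∈ ball (0 : E2) 2, sτ L a' l (y m) u ∈ ball (0 : E2) 1 := fun m u hu =>
    sτ_mem L a' ht1l (y m) (h23' hu)
  have h12 : ball (0 : E2) 1 ⊆ ball 0 2 := ball_subset_ball (by norm_num)
  -- the relations
  have hVrel : ∀ m, ∀ u ∈ ball (0 : E2) 2, t.V (y (m + 1)) u =
      sA L a' l (y m) u (t.V (y m) (sτ L a' l (y m) u)) + sE T a' l (y m) u := by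
    intro m u hu
    have e1 := N_sstep T a' ht1l (y m) (h23 hu)
    rw [← hystep, hform (m + 1) u (h23 hu), hform m _ (h23 (h12 (hsτm m u hu))), map_add,
      hPstep m u hu] at e1
    have e2 : t.V (y (m + 1)) u = (t.V (y (m + 1)) u +
        t.b (t.f (L.e (y (m + 1)) u)) • Q (perp A (y (m + 1)) t.f u)) -
        t.b (t.f (L.e (y (m + 1)) u)) • Q (perp A (y (m + 1)) t.f u) := by abel
    rw [e2, e1]
    abel
  have hFrel : ∀ m, ∀ u ∈ ball (0 : E2) 2,
      F (m + 1) u = Real.exp (χ * l) * F m (sτ L a' l (y m) u) := by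
    intro m u hu
    simp only [hF]
    rw [e_sτ L a' ht1l (y m) (h23' hu), ← hystep]
    have e1 : Real.exp (χ * (l * ((m + 1 : ℕ) : ℝ))) =
        Real.exp (χ * l) * Real.exp (χ * (l * m)) := by
      rw [← Real.exp_add]
      push_cast
      ring_nf
    rw [e1]
    ring
  have hWrel : ∀ m, ∀ u ∈ ball (0 : E2) 2,
      sA L a' l (y m) u (W m (sτ L a' l (y m) u)) = Real.exp (κ * l) • W (m + 1) u := by
    intro m u hu
    simp only [hW]
    rw [map_smul, Q_sstep A a' ht1l (y m) (h23 hu) (hfd m), ← hystep, smul_smul]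
    congr 1
    rw [← Real.exp_add]
    push_cast
    ring_nf
  -- the parameters
  obtain ⟨bA, hbA0, hbA⟩ := exists_sA_bound L l
  have hlI : l ∈ Icc L.t1 l := ⟨ht1l, le_rfl⟩
  set aa : ℝ := (bA + 1) * Real.exp ((χ + |κ|) * l) with haa
  have haa0 : 0 < aa := by positivity
  obtain ⟨N, hN⟩ := exists_nat_gt (κ / χ)
  have hN' : κ < ((N + 1 : ℕ) : ℝ) * χ := by
    rw [div_lt_iff₀ hχ] at hN
    push_cast
    linarith
  obtain ⟨k₁, hk₁⟩ : ∃ k₁ : ℕ, aa * (1 / 2 : ℝ) ^ k₁ ≤ 1 / 4 := by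
    have h1 : Tendsto (fun j : ℕ => aa * (1 / 2 : ℝ) ^ j) atTop (𝓝 (aa * 0)) :=
      (tendsto_pow_atTop_nhds_zero_of_lt_one (by norm_num) (by norm_num)).const_mul aa
    rw [mul_zero] at h1
    obtain ⟨j, hj⟩ := (h1.eventually (gt_mem_nhds (by norm_num : (0 : ℝ) < 1 / 4))).exists
    exact ⟨j, hj.le⟩
  set kk : ℕ := max (max (N + 2) (k₀ + 1)) k₁ with hkk
  have hkN : N + 1 + 1 ≤ kk := (le_max_left _ _).trans (le_max_left _ _)
  have hkk₀ : k₀ + 1 ≤ kk := (le_max_right _ _).trans (le_max_left _ _)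
  have hkk₁ : k₁ ≤ kk := le_max_right _ _
  have haθ : aa * (1 / 2 : ℝ) ^ kk ≤ 1 / 4 := by
    refine le_trans ?_ hk₁
    exact mul_le_mul_of_nonneg_left
      (pow_le_pow_of_le_one (by norm_num) (by norm_num) hkk₁) haa0.le
  have hexp1 : 1 ≤ Real.exp ((χ + |κ|) * l) :=
    Real.one_le_exp (by positivity)
  have hbAaa : bA ≤ aa := by
    rw [haa]
    calc bA ≤ (bA + 1) * 1 := by linarith
      _ ≤ (bA + 1) * Real.exp ((χ + |κ|) * l) :=
          mul_le_mul_of_nonneg_left hexp1 (by linarith)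
  obtain ⟨cA, hcA0, hcA⟩ := exists_sA_Bk L kk l
  obtain ⟨cE, hcE0, hcE⟩ := exists_sE_Bk T kk l
  obtain ⟨cN, hcN0, hcN⟩ := N_bound T
  -- bounds of the transition maps
  have hτk : ∀ m, ContDiffOn ℝ kk (sτ L a' l (y m)) (ball (0 : E2) 2) := fun m =>
    ((sτ_smooth L a' ht1l (y m)).mono h23).of_le (by exact_mod_cast le_top)
  have hτθ : ∀ m, ∀ u ∈ ball (0 : E2) 2, ‖fderiv ℝ (sτ L a' l (y m)) u‖ ≤ 1 / 2 := fun m u hu =>
    norm_fderiv_sτ_le L a' htsl (y m) (h23 hu)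
  have hτi : ∀ m i, 1 ≤ i → i ≤ kk → ∀ u ∈ ball (0 : E2) 2,
      ‖iteratedFDeriv ℝ i (sτ L a' l (y m)) u‖ ≤ cs L kk := fun m i h1 h2 u hu =>
    (norm_sτ_le L a' h1 ht1l (y m) (h23 hu)).trans (cc_le_cs L h2)
  -- bound of `F`
  have hε2 : (t.ε) ^ 2 = 1 := by
    have := t.ε_abs
    rw [← sq_abs, this, one_pow]
  have hpow : ∀ m : ℕ, (t.ε * Real.exp (t.χ * o.l)) ^ (n * m) = Real.exp (χ * (l * m)) := by
    intro m
    rw [mul_pow, hn, mul_assoc, pow_mul, hε2, one_pow, one_mul, ← Real.exp_nat_mul]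
    congr 1
    rw [hl, hn]
    push_cast
    ring
  have hnm : Tendsto (fun m : ℕ => n * m) atTop atTop :=
    Filter.tendsto_id.const_mul_atTop' hn0
  have hFu : TendstoUniformlyOn F (fun u => cr * t.f (L.e o.x u)) atTop (closedBall 0 2) := by
    rw [Metric.tendstoUniformlyOn_iff] at hreg ⊢
    intro ε hε
    filter_upwards [hnm.eventually (hreg ε hε)] with m hm u hu
    have h1 := hm u hu
    rw [hpow] at h1
    exact h1
  have hFc : ∀ m, ContinuousOn (F m) (closedBall 0 2) := fun m =>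
    continuousOn_const.mul (((hfs m).continuousOn.mono h23'').sub continuousOn_const)
  have hxem : L.em o.x = o.neg := rfl
  have hxs : ContDiffOn ℝ ∞ (fun u => t.f (L.e o.x u)) (ball (0 : E2) 3) := f_smooth t hxem
  obtain ⟨CF, hCF⟩ : ∃ CF, ∀ m, ∀ u ∈ ball (0 : E2) 2, ‖F m u‖ ≤ CF := by
    obtain ⟨C₁, hC₁⟩ := (isCompact_closedBall (0 : E2) 2).exists_bound_of_continuousOn
      (continuousOn_const.mul (hxs.continuousOn.mono h23'') :
        ContinuousOn (fun u => cr * t.f (L.e o.x u)) (closedBall 0 2))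
    rw [Metric.tendstoUniformlyOn_iff] at hFu
    obtain ⟨m₁, hm₁⟩ := eventually_atTop.1 (hFu 1 one_pos)
    choose Cm hCm using fun m => (isCompact_closedBall (0 : E2) 2).exists_bound_of_continuousOn
      (hFc m)
    refine ⟨max (C₁ + 1) (∑ m ∈ Finset.range m₁, |Cm m|), fun m u hu => ?_⟩
    have hu' := ball_subset_closedBall hu
    rcases Nat.lt_or_ge m m₁ with h | h
    · refine (hCm m u hu').trans ((le_abs_self _).trans ((Finset.single_le_sum
        (f := fun m => |Cm m|) (fun _ _ => abs_nonneg _) (Finset.mem_range.2 h)).trans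
        (le_max_right _ _)))
    · refine le_trans ?_ (le_max_left _ _)
      have h1 := hm₁ m h u hu'
      have h2 := hC₁ u hu'
      rw [Real.dist_eq] at h1
      rw [Real.norm_eq_abs] at h2 ⊢
      have h3 : F m u = cr * t.f (L.e o.x u) - (cr * t.f (L.e o.x u) - F m u) := by ring
      rw [h3]
      exact (abs_sub _ _).trans (add_le_add h2 h1.le)
  have hFk : ∃ C, 0 ≤ C ∧ ∀ m, Bk kk C (ball 0 2) (F m) := by
    refine seq_R (k := kk) (c := max (cs L kk) (Real.exp (χ * l))) (a := aa) (θ := 1 / 2)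
      (M := CF) haa0.le (by norm_num) haθ (fun m => sτ L a' l (y m))
      (fun _ _ => Real.exp (χ * l) • ContinuousLinearMap.id ℝ ℝ) F ?_ ?_ ?_ hCF hτk hsτm hτθ
      ?_ ?_ ?_
    · intro m u hu
      rw [hFrel m u hu]
      simp
    · intro m
      exact (contDiffOn_const.mul ((((hfs m).mono h23).sub contDiffOn_const).of_le
        (by exact_mod_cast le_top)))
    · obtain ⟨C, -, hC⟩ := exists_bk_of_contDiffOn (k := kk) (S := ball (0 : E2) 2) isOpen_ball
        (isCompact_closedBall (0 : E2) 2) h23'' ball_subset_closedBall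
        (f := F 0) (contDiffOn_const.mul (((hfs 0).sub contDiffOn_const).of_le
        (by exact_mod_cast le_top)))
      exact ⟨C, hC⟩
    · exact fun m i h1 h2 u hu => (hτi m i h1 h2 u hu).trans (le_max_left _ _)
    · intro m u _
      rw [norm_smul, Real.norm_eq_abs, abs_of_pos (Real.exp_pos _)]
      calc Real.exp (χ * l) * ‖ContinuousLinearMap.id ℝ ℝ‖ ≤ Real.exp (χ * l) * 1 :=
            mul_le_mul_of_nonneg_left ContinuousLinearMap.norm_id_le (Real.exp_pos _).le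
        _ ≤ Real.exp ((χ + |κ|) * l) := by
            rw [mul_one]
            refine Real.exp_le_exp.2 ?_
            have : 0 ≤ |κ| * l := by positivity
            linarith
        _ ≤ aa := by
            rw [haa]
            exact le_mul_of_one_le_left (Real.exp_pos _).le (by linarith)
    · intro m
      refine Bk.const ?_
      rw [norm_smul, Real.norm_eq_abs, abs_of_pos (Real.exp_pos _)]
      calc Real.exp (χ * l) * ‖ContinuousLinearMap.id ℝ ℝ‖ ≤ Real.exp (χ * l) * 1 :=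
            mul_le_mul_of_nonneg_left ContinuousLinearMap.norm_id_le (Real.exp_pos _).le
        _ ≤ _ := by rw [mul_one]; exact le_max_right _ _
  obtain ⟨CFk, hCFk0, hFk⟩ := hFk
  -- formula for `W`
  set z₀ : ℝ := Real.exp (2 * A.h * L.lv (zf o k 0)) with hz₀
  have hWf : ∀ m, ∀ u ∈ ball (0 : E2) 3, W m u =
      (z₀ * ((A.s (y m) u)⁻¹) ^ 2) • Q (J (gradient (F m) u)) := by
    intro m u hu
    have e1 : gradient (F m) u = Real.exp (χ * (l * m)) •
        gradient (fun u => t.f (L.e (y m) u)) u := gradient_const_mul (hfd m u hu) _ _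
    simp only [hW]
    unfold perp
    rw [e1, J_smul, Q_smul, Q_smul, smul_smul, smul_smul]
    congr 1
    have hs : A.s (y m) u ≠ 0 := (A.s_pos (y m) u hu).ne'
    rw [hylv m, hz₀]
    have e2 : Real.exp (-κ * (l * m)) * (Real.exp (A.h * (L.lv (zf o k 0) + l * m)) /
        A.s (y m) u) ^ 2 = (Real.exp (-κ * (l * m)) *
        Real.exp (A.h * (L.lv (zf o k 0) + l * m)) ^ 2) * ((A.s (y m) u)⁻¹) ^ 2 := by
      rw [div_eq_mul_inv]
      ring
    rw [e2]
    have e3 : Real.exp (-κ * (l * m)) * Real.exp (A.h * (L.lv (zf o k 0) + l * m)) ^ 2 =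
        Real.exp (2 * A.h * L.lv (zf o k 0)) * Real.exp (χ * (l * m)) ^ 2 := by
      rw [← Real.exp_nat_mul, ← Real.exp_nat_mul, ← Real.exp_add, ← Real.exp_add, hκ]
      congr 1
      push_cast
      ring
    rw [e3]
    ring
  obtain ⟨cs₁, hcs₁, hslow⟩ := exists_s_lower A
  have hgradF : ∀ m, ∀ u ∈ ball (0 : E2) 2, ‖gradient (F m) u‖ ≤ CFk := by
    intro m u hu
    rw [norm_gradient, ← norm_iteratedFDeriv_one]
    exact (hFk m).2 1 (by omega) u hu
  have hWsup : ∀ m, ∀ u ∈ ball (0 : E2) 2, ‖W m u‖ ≤ z₀ * (cs₁⁻¹) ^ 2 * CFk ^ 2 := by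
    intro m u hu
    rw [hWf m u (h23 hu), norm_smul, Real.norm_eq_abs, abs_of_nonneg (by positivity)]
    have h1 : (A.s (y m) u)⁻¹ ≤ cs₁⁻¹ :=
      inv_anti₀ hcs₁ (hslow _ _ (ball_subset_closedBall hu))
    have h2 : 0 ≤ (A.s (y m) u)⁻¹ := (inv_pos.2 (A.s_pos _ _ (h23 hu))).le
    have h3 : ‖Q (J (gradient (F m) u))‖ ≤ CFk ^ 2 := by
      refine (norm_Q_le _).trans ?_
      rw [norm_J]
      exact pow_le_pow_left₀ (norm_nonneg _) (hgradF m u hu) 2
    have h4 : 0 ≤ z₀ := (Real.exp_pos _).le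
    gcongr
  have hWsm : ∀ m, ContDiffOn ℝ kk (W m) (ball (0 : E2) 3) := by
    intro m
    have h1 : ContDiffOn ℝ kk (fun u => Q (perp A (y m) t.f u)) (ball (0 : E2) 3) :=
      (Q_perp_smooth A (hfs m)).of_le (by exact_mod_cast le_top)
    have h2 : ContDiffOn ℝ kk (fun _ : E2 => Real.exp (-κ * (l * (m : ℝ)))) (ball (0 : E2) 3) :=
      contDiffOn_const
    exact h2.smul h1
  have hWk : ∃ C, 0 ≤ C ∧ ∀ m, Bk kk C (ball 0 2) (W m) := by
    refine seq_R (k := kk) (c := max (cs L kk) (|Real.exp (-κ * l)| * cA)) (a := aa)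
      (θ := 1 / 2) (M := z₀ * (cs₁⁻¹) ^ 2 * CFk ^ 2) haa0.le (by norm_num) haθ
      (fun m => sτ L a' l (y m))
      (fun m u => Real.exp (-κ * l) • sA L a' l (y m) u) W ?_ ?_ ?_ hWsup hτk hsτm hτθ
      ?_ ?_ ?_
    · intro m u hu
      rw [smul_apply, hWrel m u hu, smul_smul, ← Real.exp_add]
      simp
    · exact fun m => (hWsm m).mono h23
    · obtain ⟨C, -, hC⟩ := exists_bk_of_contDiffOn (k := kk) (S := ball (0 : E2) 2) isOpen_ball
        (isCompact_closedBall (0 : E2) 2) h23'' ball_subset_closedBall (hWsm 0)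
      exact ⟨C, hC⟩
    · exact fun m i h1 h2 u hu => (hτi m i h1 h2 u hu).trans (le_max_left _ _)
    · intro m u hu
      rw [norm_smul, Real.norm_eq_abs, abs_of_pos (Real.exp_pos _)]
      have h1 : Real.exp (-κ * l) ≤ Real.exp ((χ + |κ|) * l) := by
        refine Real.exp_le_exp.2 ?_
        have h2 : -κ * l ≤ |κ| * l := mul_le_mul_of_nonneg_right (neg_le_abs κ) hlpos.le
        have h3 : 0 ≤ χ * l := by positivity
        linarith
      calc Real.exp (-κ * l) * ‖sA L a' l (y m) u‖ ≤ Real.exp ((χ + |κ|) * l) * (bA + 1) :=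
            mul_le_mul h1 ((hbA a' (y m) l hlI u hu).trans (by linarith)) (norm_nonneg _)
              (Real.exp_pos _).le
        _ = aa := by rw [haa]; ring
    · exact fun m => ((hcA a' (y m) l hlI).const_smul isOpen_ball _).mono le_rfl
        (le_max_right _ _) subset_rfl
  obtain ⟨CWk, hCWk0, hWk⟩ := hWk
  -- the limit of `F`
  set Fi : E2 → ℝ := fun u => cr * t.f (L.e o.x u) with hFi
  have hFis : ContDiffOn ℝ ∞ Fi (ball (0 : E2) 3) := contDiffOn_const.mul hxs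
  have hFp : ∀ u ∈ ball (0 : E2) 2, Tendsto (fun m => F m u) atTop (𝓝 (Fi u)) := fun u hu =>
    hFu.tendsto_at (ball_subset_closedBall hu)
  obtain ⟨k₂, hk₂⟩ : ∃ k₂, kk = k₂ + 1 := ⟨kk - 1, by omega⟩
  have hk₂1 : 1 ≤ k₂ := by omega
  have hFCk : ∀ m, CkB (k₂ + 1) 2 CFk (F m) := fun m => by rw [← hk₂]; exact hFk m
  have hFd := H828.tendstoUniformlyOn_fderiv ((ck_pointwise hFCk hFp).2 1 hk₂1)
  have hgradlim : ∀ u ∈ ball (0 : E2) 2, ∀ φ : ℕ → ℕ, Tendsto φ atTop atTop →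
      Tendsto (fun m => gradient (F (φ m)) u) atTop (𝓝 (gradient Fi u)) := by
    intro u hu φ hφ
    exact (tendsto_gradient hk₂1 hFCk hFp hu).comp hφ
  -- the direction
  set g₀ : E2 := gradient Fi 0 with hg₀
  have hg₀ne : g₀ ≠ 0 := by
    have h1 : gradient Fi 0 = cr • gradient (fun u => t.f (L.e o.x u)) 0 := by
      have h0 : DifferentiableAt ℝ (fun u => t.f (L.e o.x u)) (0 : E2) :=
        ((hxs 0 (by simp)).contDiffAt (isOpen_ball.mem_nhds (by simp))).differentiableAt (by simp)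
      have := gradient_const_mul h0 cr 0
      simpa using this
    rw [hg₀, h1]
    exact smul_ne_zero hcr (grad_f_ne t hxem (by simp))
  have hg₀pos : 0 < ‖g₀‖ := norm_pos_iff.2 hg₀ne
  set e₀ : E2 := (‖g₀‖⁻¹) • g₀ with he₀
  have he₀n : ‖e₀‖ = 1 := by
    rw [he₀, norm_smul, norm_inv, norm_norm, inv_mul_cancel₀ hg₀pos.ne']
  set lam : (E2 →L[ℝ] E2) →L[ℝ] ℝ :=
    (innerSL ℝ (J e₀)).comp (ContinuousLinearMap.apply ℝ E2 (J e₀)) with hlam
  have hlamQ : ∀ w : E2, lam (Q (J w)) = (inner ℝ w e₀) ^ 2 := by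
    intro w
    have h1 : lam (Q (J w)) = inner ℝ (J e₀) (Q (J w) (J e₀)) := rfl
    rw [h1, Q_apply, real_inner_smul_right, inner_J_J, inner_J_J, real_inner_comm e₀ w]
    ring
  -- derivative along the line
  have hlinemem : ∀ t : ℝ, t ∈ Ioo (-1 : ℝ) 1 → t • e₀ ∈ ball (0 : E2) 1 := by
    intro t ht
    rw [mem_ball_zero_iff, norm_smul, he₀n, mul_one]
    exact abs_lt.2 ht
  have hderiv : ∀ m, ∀ s ∈ Ioo (-1 : ℝ) 1,
      deriv (fun s : ℝ => F m (s • e₀)) s = inner ℝ (gradient (F m) (s • e₀)) e₀ ∧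
      deriv (fun s : ℝ => F m (s • e₀)) s = fderiv ℝ (F m) (s • e₀) e₀ := by
    intro m s hs
    have h1 : DifferentiableAt ℝ (F m) (s • e₀) :=
      ((hFk m).contDiffAt isOpen_ball (h12 (hlinemem s hs))).differentiableAt
        (by exact_mod_cast (by omega : kk ≠ 0))
    have h2 : HasDerivAt (fun s : ℝ => s • e₀) e₀ s := by
      simpa using (hasDerivAt_id s).smul_const e₀
    have h3 : HasDerivAt (fun s : ℝ => F m (s • e₀)) (fderiv ℝ (F m) (s • e₀) e₀) s := by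
      have h4 := HasFDerivAt.comp_hasDerivAt (l := F m) (f := fun s : ℝ => s • e₀) s
        h1.hasFDerivAt h2
      exact h4
    rw [inner_gradient]
    exact ⟨h3.deriv, h3.deriv⟩
  obtain ⟨r, hr0, hr1, hr⟩ : ∃ r : ℝ, 0 < r ∧ r ≤ 1 ∧ ∀ s ∈ Ioo (-r) r,
      ‖g₀‖ / 2 ≤ fderiv ℝ Fi (s • e₀) e₀ := by
    have hc : ContinuousAt (fun s : ℝ => fderiv ℝ Fi (s • e₀) e₀) 0 := by
      have h1 : ContinuousOn (fderiv ℝ Fi) (ball (0 : E2) 3) :=
        hFis.continuousOn_fderiv_of_isOpen isOpen_ball (by simp)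
      have h2 : ContinuousAt (fderiv ℝ Fi) ((0 : ℝ) • e₀) := by
        rw [zero_smul]
        exact h1.continuousAt (isOpen_ball.mem_nhds (by simp))
      have h3 : ContinuousAt (fun s : ℝ => fderiv ℝ Fi (s • e₀)) 0 :=
        ContinuousAt.comp (f := fun s : ℝ => s • e₀) h2 (by fun_prop)
      exact h3.clm_apply continuousAt_const
    have h0 : fderiv ℝ Fi ((0 : ℝ) • e₀) e₀ = ‖g₀‖ := by
      rw [zero_smul, ← inner_gradient, ← hg₀]
      rw [he₀, real_inner_smul_right, real_inner_self_eq_norm_sq]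
      field_simp
    have h4 : ‖g₀‖ / 2 < fderiv ℝ Fi ((0 : ℝ) • e₀) e₀ := by rw [h0]; linarith
    obtain ⟨r, hr, hrr⟩ := Metric.eventually_nhds_iff.1 (hc.eventually (lt_mem_nhds h4))
    refine ⟨min r 1, lt_min hr one_pos, min_le_right _ _, fun s hs => (hrr ?_).le⟩
    rw [Real.dist_eq, sub_zero]
    exact lt_of_lt_of_le (abs_lt.2 hs) (min_le_left _ _)
  obtain ⟨m₀, hm₀⟩ : ∃ m₀, ∀ m ≥ m₀, ∀ s ∈ Ioo (-r) r,
      ‖g₀‖ / 4 ≤ deriv (fun s : ℝ => F m (s • e₀)) s := by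
    rw [Metric.tendstoUniformlyOn_iff] at hFd
    obtain ⟨m₀, hm₀⟩ := eventually_atTop.1 (hFd (‖g₀‖ / 4) (by positivity))
    refine ⟨m₀, fun m hm s hs => ?_⟩
    have hs1 : s ∈ Ioo (-1 : ℝ) 1 := ⟨by linarith [hs.1], by linarith [hs.2]⟩
    have h1 := hm₀ m hm (s • e₀) (h12 (hlinemem s hs1))
    rw [(hderiv m s hs1).2]
    have h2 : |fderiv ℝ Fi (s • e₀) e₀ - fderiv ℝ (F m) (s • e₀) e₀| ≤ ‖g₀‖ / 4 := by
      have h3 : fderiv ℝ Fi (s • e₀) e₀ - fderiv ℝ (F m) (s • e₀) e₀ =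
          (fderiv ℝ Fi (s • e₀) - fderiv ℝ (F m) (s • e₀)) e₀ := rfl
      rw [h3, ← Real.norm_eq_abs]
      refine (ContinuousLinearMap.le_opNorm _ _).trans ?_
      rw [he₀n, mul_one, ← dist_eq_norm]
      exact h1.le
    have h4 := hr s hs
    have h5 := le_abs_self (fderiv ℝ Fi (s • e₀) e₀ - fderiv ℝ (F m) (s • e₀) e₀)
    linarith
  obtain ⟨cs₂, hcs₂, hsup⟩ := exists_s_upper A
  -- the constants
  set d : ℝ := min (‖g₀‖ / 4) (z₀ * (cs₂⁻¹) ^ 2 * (‖g₀‖ / 4) ^ 2) with hd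
  have hz₀pos : 0 < z₀ := Real.exp_pos _
  have hd0 : 0 < d := lt_min (by positivity) (by positivity)
  set c : ℝ := max (max (max (cs L kk) cA) (max cE cN)) (max CFk CWk) with hc
  have c1 : cs L kk ≤ c := ((le_max_left _ _).trans (le_max_left _ _)).trans (le_max_left _ _)
  have c2 : cA ≤ c := ((le_max_right _ _).trans (le_max_left _ _)).trans (le_max_left _ _)
  have c3 : cE ≤ c := ((le_max_left _ _).trans (le_max_right _ _)).trans (le_max_left _ _)
  have c4 : cN ≤ c := ((le_max_right _ _).trans (le_max_right _ _)).trans (le_max_left _ _)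
  have c5 : CFk ≤ c := (le_max_left _ _).trans (le_max_right _ _)
  have c6 : CWk ≤ c := (le_max_right _ _).trans (le_max_right _ _)
  refine abs_good' (N := N + 1) (k := kk) (c := c) (c' := d) (r := r) (a := aa) (θ := 1 / 2)
    hχ hlpos (Nat.succ_le_succ (Nat.zero_le _)) hN' hkN hkk₀ hd0 hr0 hr1 haa0.le (by norm_num)
    haθ he₀n.le lam (fun m => sτ L a' l (y m)) (fun m => sA L a' l (y m))
    (fun m => sE T a' l (y m)) (fun m => T.N (y m)) (fun m => t.V (y m)) W F t.b_cont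
    ?_ ?_ hVrel hFrel hWrel ?_ ?_ ?_ hτk hsτm hτθ ?_ ?_ ?_ ?_ ?_ m₀ ?_ ?_ ?_ ?_
  · intro m u hu
    rw [hform m u (h23 hu)]
    simp only [hW, smul_smul]
    congr 2
    unfold raw
    have e1 : Real.exp (-χ * (l * m)) * F m u = t.f (L.e (y m) u) - s₀ := by
      simp only [hF]
      rw [← mul_assoc, ← Real.exp_add]
      simp
    rw [e1, mul_right_comm, ← Real.exp_add]
    have e2 : κ * (l * m) + -κ * (l * m) = 0 := by ring
    rw [e2, Real.exp_zero, one_mul]
    congr 1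
    ring
  · exact fun m u hu => (hcN _ u (ball_subset_closedBall hu)).trans c4
  · intro m
    obtain ⟨C, -, hC⟩ := exists_bk_of_contDiffOn (k := kk) (S := ball (0 : E2) 2) isOpen_ball
      (isCompact_closedBall (0 : E2) 2) h23'' ball_subset_closedBall
      ((t.V_smooth (y m) (hyem m)).of_le (by exact_mod_cast le_top))
    exact ⟨C, hC⟩
  · exact fun m => (hFk m).mono le_rfl c5 subset_rfl
  · exact fun m => (hWk m).mono le_rfl c6 subset_rfl
  · exact fun m i h1 h2 u hu => (hτi m i h1 h2 u hu).trans c1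
  · exact fun m u hu => (hbA a' (y m) l hlI u hu).trans hbAaa
  · exact fun m => (hcA a' (y m) l hlI).mono le_rfl c2 subset_rfl
  · exact fun m => (hcE a' (y m) l hlI).mono le_rfl c3 subset_rfl
  · intro m
    simp only [hF]
    rw [L.e_zero, hy]
    simp only
    rw [ep_zf hk, ← hs₀, sub_self, mul_zero]
  · exact fun m hm s hs => (min_le_left _ _).trans (hm₀ m hm s hs)
  · intro m hm s hs
    have hs1 : s ∈ Ioo (-1 : ℝ) 1 := ⟨by linarith [hs.1], by linarith [hs.2]⟩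
    have hmem := hlinemem s hs1
    rw [hWf m _ (h23 (h12 hmem)), map_smul, smul_eq_mul, hlamQ, ← (hderiv m s hs1).1]
    refine (min_le_right _ _).trans ?_
    have h1 : cs₂⁻¹ ≤ (A.s (y m) (s • e₀))⁻¹ :=
      inv_anti₀ (A.s_pos _ _ (h23 (h12 hmem)))
        (hsup _ _ (ball_subset_closedBall (h12 hmem)))
    have h2 := hm₀ m hm s hs
    have h3 : 0 ≤ cs₂⁻¹ := (inv_pos.2 hcs₂).le
    gcongr
  · intro I hI _ hne
    exact t.b_rough I hI hne
  · intro ψ hψ
    refine ⟨id, strictMono_id, T.N o.x, t.V o.x,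
      fun u => (z₀ * ((A.s o.x u)⁻¹) ^ 2) • Q (J (gradient Fi u)), Fi, cr⁻¹,
      Real.exp (2 * A.h * (L.lv o.x - L.lv (zf o k 0))) * (cr⁻¹) ^ 2, inv_ne_zero hcr,
      mul_ne_zero (Real.exp_ne_zero _) (pow_ne_zero _ (inv_ne_zero hcr)), ?_, ?_, ?_, ?_, ?_, ?_⟩
    · exact ((t.V_smooth o.x hxem).mono h23).of_le (by exact_mod_cast le_top)
    · exact (N_contOn T o.x).mono (closedBall_subset_ball (by norm_num))
    · exact tendstoUniformlyOn_N T hk (hnm.comp hψ.tendsto_atTop)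
    · exact fun u hu => (hFp u hu).comp hψ.tendsto_atTop
    · intro u hu
      have h1 := hgradlim u hu ψ hψ.tendsto_atTop
      have h2 : Tendsto (fun m => Q (J (gradient (F (ψ m)) u))) atTop
          (𝓝 (Q (J (gradient Fi u)))) :=
        ((Q_cont.comp JL.continuous).tendsto _).comp h1
      have h3 : Tendsto (fun m => A.s (y (ψ m)) u) atTop (𝓝 (A.s o.x u)) :=
        tendsto_s A hk (hnm.comp hψ.tendsto_atTop) (h23 hu)
      have h4 := (((h3.inv₀ (A.s_pos _ _ (h23 hu)).ne').pow 2).const_mul z₀).smul h2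
      refine h4.congr fun m => ?_
      exact (hWf _ u (h23 hu)).symm
    · intro u hu
      have hu3 : u ∈ ball (0 : E2) 3 := closedBall_subset_ball (by norm_num) hu
      have e0 : gradient Fi u = cr • gradient (fun u => t.f (L.e o.x u)) u := by
        have h0 : DifferentiableAt ℝ (fun u => t.f (L.e o.x u)) u :=
          ((hxs u hu3).contDiffAt (isOpen_ball.mem_nhds hu3)).differentiableAt (by simp)
        have := gradient_const_mul h0 cr 0
        simpa using this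
      have e1 : T.N o.x u = t.V o.x u + t.b (t.f (L.e o.x u)) • Q (perp A o.x t.f u) := by
        ext v : 1
        rw [t.form o.x hxem u hu3 v, add_apply, smul_apply, Q_apply,
          smul_smul]
        rfl
      have e2 : cr⁻¹ * Fi u = t.f (L.e o.x u) := by
        simp only [hFi]
        rw [← mul_assoc, inv_mul_cancel₀ hcr, one_mul]
      rw [e1, e2]
      unfold perp
      beta_reduce
      rw [e0, J_smul, Q_smul, Q_smul, smul_smul, smul_smul, smul_smul]
      congr 2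
      have hs : A.s o.x u ≠ 0 := (A.s_pos o.x u hu3).ne'
      have e3 : Real.exp (A.h * L.lv o.x) ^ 2 =
          Real.exp (2 * A.h * (L.lv o.x - L.lv (zf o k 0))) * z₀ := by
        rw [hz₀, ← Real.exp_nat_mul, ← Real.exp_add]
        congr 1
        push_cast
        ring
      rw [div_pow, e3]
      field_simp

/-- **(G2)** in the form of helper476 -/
theorem good2' (t : LevForm A T k₀ o) (hχ : 0 < t.χ) {k : Γ} (hk : k • o.pos ≠ o.neg)
    (hreg : Reg t k) : ∃ N, H476.Good t.b (t.f (k • o.pos)) ((2 * A.h - 2 * t.χ) / t.χ) N k₀ :=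
  (good2 t hχ hk hreg).conv hχ

/-- **(G1)** in the form of helper476 -/
theorem good1' (t : LevForm A T k₀ o) (hχ : 0 < t.χ) :
    ∃ N, H476.Good t.b 0 ((2 * A.h - 2 * t.χ) / t.χ) N k₀ := by
  obtain ⟨P, hP⟩ := t.b_equiv
  refine (good_zero (l := o.l) (lam := t.ε * Real.exp (t.χ * o.l)) hχ o.ax.pos t.b_cont
    (fun I hI _ hne => t.b_rough I hI hne) ?_ P hP).conv hχ
  rw [abs_mul, t.ε_abs, one_mul, abs_of_pos (Real.exp_pos _)]

end Vale.Agent.P207.N3.H738
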