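import Mathlib

/-!
# P207, line N3, row P14 (G1, G2): good levels (helper738)

`Good κ χ k₀ b s₀`: the level `s₀` of the one variable function `b` is good, with rate `χ`
(`κ = 2h - 2χ`).
-/

open Set Filter Topology Metric

noncomputable section

namespace Vale.Agent.P207.N3.H738

/-- `b` is not `C^k` on any nonempty open subset of `S` -/
def Nowhere (k : ℕ) (S : Set ℝ) (b : ℝ → ℝ) : Prop :=
  ∀ I : Set ℝ, IsOpen I → I ⊆ S → I.Nonempty → ¬ ContDiffOn ℝ k b I

/-- the rescaled function -/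
def raw (κ χ : ℝ) (b : ℝ → ℝ) (s₀ T s : ℝ) : ℝ :=
  Real.exp (κ * T) * b (s₀ + Real.exp (-χ * T) * s)

/-- good levels -/
def Good (κ χ : ℝ) (k₀ : ℕ) (b : ℝ → ℝ) (s₀ : ℝ) : Prop :=
  ∃ (N : ℕ) (P : ℝ → Polynomial ℝ) (M : ℝ),
    (∀ T, 0 ≤ T → (P T).natDegree < N ∧
      ∀ s ∈ Icc (-1 : ℝ) 1, |raw κ χ b s₀ T s - (P T).eval s| ≤ M) ∧
    ∀ T : ℕ → ℝ, Tendsto T atTop atTop → ∃ ψ : ℕ → ℕ, StrictMono ψ ∧ ∃ b' : ℝ → ℝ,
      TendstoUniformlyOn (fun n s => raw κ χ b s₀ (T (ψ n)) s - (P (T (ψ n))).eval s) b' atTop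
        (Icc (-1) 1) ∧ Nowhere k₀ (Ioo (-1) 1) b'

theorem raw_add (κ χ : ℝ) (b : ℝ → ℝ) (s₀ T t s : ℝ) :
    raw κ χ b s₀ (T + t) s = Real.exp (κ * t) * raw κ χ b s₀ T (Real.exp (-χ * t) * s) := by
  unfold raw
  rw [mul_add, Real.exp_add, mul_add, Real.exp_add]
  ring_nf

theorem raw_continuous {κ χ : ℝ} {b : ℝ → ℝ} (hb : Continuous b) (s₀ : ℝ) :
    Continuous fun p : ℝ × ℝ => raw κ χ b s₀ p.1 p.2 := by
  unfold raw
  fun_prop

theorem raw_cont {κ χ : ℝ} {b : ℝ → ℝ} (hb : Continuous b) (s₀ T : ℝ) :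
    Continuous (raw κ χ b s₀ T) := by
  unfold raw
  fun_prop

theorem Nowhere.mono {k : ℕ} {S S' : Set ℝ} {b : ℝ → ℝ} (h : Nowhere k S b) (hS : S' ⊆ S) :
    Nowhere k S' b := fun I hI hIS hne => h I hI (hIS.trans hS) hne

/-- rescaling a nowhere smooth function -/
theorem Nowhere.rescale {k : ℕ} {S S' : Set ℝ} {b : ℝ → ℝ} (h : Nowhere k S b) {a ρ : ℝ}
    (ha : a ≠ 0) (hρ : ρ ≠ 0) (hS : ∀ s ∈ S', ρ * s ∈ S) :
    Nowhere k S' fun s => a * b (ρ * s) := by
  intro I hI hIS hne hc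
  have hopen : IsOpen ((fun s => ρ⁻¹ * s) ⁻¹' I) := hI.preimage (by fun_prop)
  refine h ((fun s => ρ⁻¹ * s) ⁻¹' I) hopen ?_ ?_ ?_
  · intro s hs
    have := hS _ (hIS hs)
    rwa [mul_inv_cancel_left₀ hρ] at this
  · obtain ⟨x, hx⟩ := hne
    refine ⟨ρ * x, ?_⟩
    rw [mem_preimage, inv_mul_cancel_left₀ hρ]
    exact hx
  · have h1 : ContDiffOn ℝ k (fun s => a⁻¹ * (a * b (ρ * (ρ⁻¹ * s))))
        ((fun s => ρ⁻¹ * s) ⁻¹' I) :=
      contDiffOn_const.mul (hc.comp (by fun_prop : ContDiff ℝ k fun s : ℝ => ρ⁻¹ * s).contDiffOn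
        (fun s hs => hs))
    refine h1.congr fun s _ => ?_
    rw [mul_inv_cancel_left₀ hρ, inv_mul_cancel_left₀ ha]

/-- passage to the limit in `c n * f n (x n s)` -/
theorem tendstoUniformlyOn_comp {f : ℕ → ℝ → ℝ} {g : ℝ → ℝ} {K S : Set ℝ} (hK : IsCompact K)
    (hf : TendstoUniformlyOn f g atTop K) (hg : ContinuousOn g K) {c : ℕ → ℝ} {c' : ℝ}
    (hc : Tendsto c atTop (𝓝 c')) {x : ℕ → ℝ → ℝ} {y : ℝ → ℝ}
    (hx : TendstoUniformlyOn x y atTop S) (hxK : ∀ n, ∀ s ∈ S, x n s ∈ K)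
    (hyK : ∀ s ∈ S, y s ∈ K) :
    TendstoUniformlyOn (fun n s => c n * f n (x n s)) (fun s => c' * g (y s)) atTop S := by
  have huc : UniformContinuousOn g K := hK.uniformContinuousOn_of_continuous hg
  obtain ⟨B, hB⟩ := hK.exists_bound_of_continuousOn hg
  have hB' : ∀ s ∈ K, |g s| ≤ |B| := fun s hs => (hB s hs).trans (le_abs_self B)
  rw [Metric.tendstoUniformlyOn_iff] at hf hx ⊢
  intro ε hε
  set D : ℝ := |c'| + |B| + 2 with hD
  have hD0 : 0 < D := by positivity
  obtain ⟨δ, hδ, hδ'⟩ := Metric.uniformContinuousOn_iff.1 huc (ε / (3 * D)) (by positivity)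
  have h1 : ∀ᶠ n in atTop, |c n - c'| < min 1 (ε / (3 * D)) := by
    have := Metric.tendsto_nhds.1 hc (min 1 (ε / (3 * D))) (by positivity)
    simpa [Real.dist_eq] using this
  filter_upwards [h1, hf (ε / (3 * D)) (by positivity), hx δ hδ] with n h1 h2 h3 s hs
  have e1 : |c n - c'| < ε / (3 * D) := lt_of_lt_of_le h1 (min_le_right _ _)
  have e1' : |c n - c'| < 1 := lt_of_lt_of_le h1 (min_le_left _ _)
  have e2 := h2 (x n s) (hxK n s hs)
  have e3 := hδ' (y s) (hyK s hs) (x n s) (hxK n s hs) (h3 s hs)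
  rw [Real.dist_eq] at e2 e3 ⊢
  have hcn : |c n| ≤ |c'| + 1 := by
    have : |c n| ≤ |c'| + |c n - c'| := by
      have := abs_add_le c' (c n - c')
      simpa using this
    linarith
  have key : c' * g (y s) - c n * f n (x n s) =
      -((c n - c') * g (y s)) + c n * (g (y s) - g (x n s)) +
        c n * (g (x n s) - f n (x n s)) := by ring
  rw [key]
  have t1 : |-((c n - c') * g (y s))| ≤ ε / (3 * D) * |B| := by
    rw [abs_neg, abs_mul]
    exact mul_le_mul e1.le (hB' _ (hyK s hs)) (abs_nonneg _) (by positivity)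
  have t2 : |c n * (g (y s) - g (x n s))| ≤ (|c'| + 1) * (ε / (3 * D)) := by
    rw [abs_mul]
    exact mul_le_mul hcn e3.le (abs_nonneg _) (by positivity)
  have t3 : |c n * (g (x n s) - f n (x n s))| ≤ (|c'| + 1) * (ε / (3 * D)) := by
    rw [abs_mul]
    exact mul_le_mul hcn e2.le (abs_nonneg _) (by positivity)
  have hsum : ε / (3 * D) * |B| + (|c'| + 1) * (ε / (3 * D)) + (|c'| + 1) * (ε / (3 * D)) < ε := by
    have h4 : ε / (3 * D) * |B| + (|c'| + 1) * (ε / (3 * D)) + (|c'| + 1) * (ε / (3 * D))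
        = ε * ((|B| + 2 * (|c'| + 1)) / (3 * D)) := by
      field_simp
      ring
    rw [h4]
    have h5 : (|B| + 2 * (|c'| + 1)) / (3 * D) < 1 := by
      rw [div_lt_one (by positivity), hD]
      have := abs_nonneg B
      have := abs_nonneg c'
      linarith
    calc ε * ((|B| + 2 * (|c'| + 1)) / (3 * D)) < ε * 1 := by
          exact mul_lt_mul_of_pos_left h5 hε
      _ = ε := mul_one ε
  calc _ ≤ |-((c n - c') * g (y s)) + c n * (g (y s) - g (x n s))| +
        |c n * (g (x n s) - f n (x n s))| := abs_add_le _ _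
    _ ≤ |-((c n - c') * g (y s))| + |c n * (g (y s) - g (x n s))| +
        |c n * (g (x n s) - f n (x n s))| := by
        gcongr
        exact abs_add_le _ _
    _ < ε := by linarith

/-- the rescaled polynomial `a * p (ρ s)` -/
def scale (a ρ : ℝ) (p : Polynomial ℝ) : Polynomial ℝ :=
  Polynomial.C a * p.comp (Polynomial.C ρ * Polynomial.X)

theorem scale_eval (a ρ : ℝ) (p : Polynomial ℝ) (s : ℝ) :
    (scale a ρ p).eval s = a * p.eval (ρ * s) := by
  simp [scale]

theorem natDegree_scale_le (a ρ : ℝ) (p : Polynomial ℝ) :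
    (scale a ρ p).natDegree ≤ p.natDegree := by
  unfold scale
  refine (Polynomial.natDegree_C_mul_le _ _).trans ?_
  refine Polynomial.natDegree_comp_le.trans ?_
  have h : (Polynomial.C ρ * Polynomial.X : Polynomial ℝ).natDegree ≤ 1 :=
    (Polynomial.natDegree_C_mul_le _ _).trans Polynomial.natDegree_X_le
  calc p.natDegree * (Polynomial.C ρ * Polynomial.X : Polynomial ℝ).natDegree
      ≤ p.natDegree * 1 := Nat.mul_le_mul_left _ h
    _ = p.natDegree := mul_one _

/-- From a sequence of times to all times. -/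
theorem good_of_seq {κ χ l ε s₀ M : ℝ} {k₀ N : ℕ} {b : ℝ → ℝ} (hχ : 0 < χ) (hl : 0 < l)
    (hε : 0 < ε) (hb : Continuous b) (P : ℕ → Polynomial ℝ) (hP : ∀ m, (P m).natDegree < N)
    (hM : ∀ (m : ℕ), ∀ s ∈ Icc (-ε) ε, |raw κ χ b s₀ (l * m) s - (P m).eval s| ≤ M)
    (hlim : ∀ ψ : ℕ → ℕ, StrictMono ψ → ∃ ψ' : ℕ → ℕ, StrictMono ψ' ∧ ∃ b' : ℝ → ℝ,
      TendstoUniformlyOn (fun n s => raw κ χ b s₀ (l * (ψ (ψ' n) : ℕ)) s -
        (P (ψ (ψ' n))).eval s) b' atTop (Icc (-ε) ε) ∧ Nowhere k₀ (Ioo (-ε) ε) b') :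
    Good κ χ k₀ b s₀ := by
  classical
  -- choose `q` with `exp (-χ l q) ≤ ε / 2`
  obtain ⟨q, hq⟩ : ∃ q : ℕ, Real.exp (-χ * (l * q)) < ε := by
    have h1 : Tendsto (fun q : ℕ => Real.exp (-χ * (l * q))) atTop (𝓝 0) := by
      refine Real.tendsto_exp_atBot.comp ?_
      have : Tendsto (fun q : ℕ => (χ * l) * (q : ℝ)) atTop atTop :=
        tendsto_natCast_atTop_atTop.const_mul_atTop (by positivity)
      refine (tendsto_neg_atTop_atBot.comp this).congr fun q => ?_
      simp only [Function.comp_apply]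
      ring
    exact ((Metric.tendsto_nhds.1 h1 ε hε).exists).imp fun q hq => by
      simpa [Real.dist_eq, abs_of_pos (Real.exp_pos _)] using hq
  have hN : 0 < N := lt_of_le_of_lt (Nat.zero_le _) (hP 0)
  -- index and remaining time
  set mI : ℝ → ℕ := fun T => ⌊T / l⌋₊ - q with hmI
  set tt : ℝ → ℝ := fun T => T - l * (mI T : ℝ) with htt
  have hfl : ∀ T, 0 ≤ T → l * (⌊T / l⌋₊ : ℝ) ≤ T ∧ T < l * (⌊T / l⌋₊ + 1) := by
    intro T hT
    have h1 := Nat.floor_le (div_nonneg hT hl.le)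
    have h2 := Nat.lt_floor_add_one (T / l)
    rw [le_div_iff₀ hl] at h1
    rw [div_lt_iff₀ hl] at h2
    constructor <;> linarith
  have hqT : ∀ T, l * q ≤ T → q ≤ ⌊T / l⌋₊ := by
    intro T hT
    apply Nat.le_floor
    rw [le_div_iff₀ hl]
    linarith
  have htt1 : ∀ T, l * q ≤ T → tt T ∈ Icc (l * q) (l * (q + 1)) := by
    intro T hT
    have hT0 : 0 ≤ T := le_trans (by positivity) hT
    have h1 := hfl T hT0
    have h2 := hqT T hT
    have h3 : (mI T : ℝ) = (⌊T / l⌋₊ : ℝ) - q := by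
      rw [hmI]; push_cast [Nat.cast_sub h2]; ring
    simp only [htt, h3]
    constructor <;> nlinarith
  set PP : ℝ → Polynomial ℝ := fun T =>
    if l * q ≤ T then scale (Real.exp (κ * tt T)) (Real.exp (-χ * tt T)) (P (mI T)) else 0
    with hPP
  have hraw : ∀ T, l * q ≤ T → ∀ s, raw κ χ b s₀ T s - (PP T).eval s =
      Real.exp (κ * tt T) * (raw κ χ b s₀ (l * (mI T : ℕ)) (Real.exp (-χ * tt T) * s) -
        (P (mI T)).eval (Real.exp (-χ * tt T) * s)) := by
    intro T hT s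
    have h1 : T = l * (mI T : ℝ) + tt T := by simp only [htt]; ring
    have h2 : raw κ χ b s₀ T s = raw κ χ b s₀ (l * (mI T : ℝ) + tt T) s := by rw [← h1]
    rw [h2, raw_add]
    simp only [hPP, if_pos hT, scale_eval]
    ring
  have hsc : ∀ T, l * q ≤ T → ∀ s ∈ Icc (-1 : ℝ) 1, Real.exp (-χ * tt T) * s ∈ Icc (-ε) ε ∧
      Real.exp (-χ * tt T) < ε := by
    intro T hT s hs
    have h1 : Real.exp (-χ * tt T) < ε := by
      refine lt_of_le_of_lt (Real.exp_le_exp.2 ?_) hq
      have := (htt1 T hT).1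
      nlinarith
    have h2 : 0 < Real.exp (-χ * tt T) := Real.exp_pos _
    refine ⟨abs_le.1 ?_, h1⟩
    rw [abs_mul, abs_of_pos h2]
    calc Real.exp (-χ * tt T) * |s| ≤ ε * 1 :=
          mul_le_mul h1.le (abs_le.2 hs) (abs_nonneg _) hε.le
      _ = ε := mul_one ε
  -- the bound for small times
  obtain ⟨M₁, hM₁⟩ := (isCompact_Icc.prod isCompact_Icc :
    IsCompact (Icc (0 : ℝ) (l * q) ×ˢ Icc (-1 : ℝ) 1)).exists_bound_of_continuousOn
      (raw_continuous (κ := κ) (χ := χ) hb s₀).continuousOn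
  refine ⟨N, PP, max M₁ (Real.exp (|κ| * (l * (q + 1))) * M), ?_, ?_⟩
  · intro T hT
    by_cases hTq : l * q ≤ T
    · refine ⟨?_, fun s hs => ?_⟩
      · simp only [hPP, if_pos hTq]
        exact lt_of_le_of_lt (natDegree_scale_le _ _ _) (hP _)
      · rw [hraw T hTq s, abs_mul, abs_of_pos (Real.exp_pos _)]
        refine le_trans ?_ (le_max_right _ _)
        have h3 := hM (mI T) _ (hsc T hTq s hs).1
        refine mul_le_mul (Real.exp_le_exp.2 ?_) h3 (abs_nonneg _) (Real.exp_pos _).le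
        have h4 := htt1 T hTq
        have h5 : 0 ≤ tt T := le_trans (by positivity) h4.1
        calc κ * tt T ≤ |κ| * tt T := mul_le_mul_of_nonneg_right (le_abs_self κ) h5
          _ ≤ |κ| * (l * (q + 1)) := mul_le_mul_of_nonneg_left h4.2 (abs_nonneg _)
    · refine ⟨?_, fun s hs => ?_⟩
      · simp only [hPP, if_neg hTq]
        simpa using hN
      · simp only [hPP, if_neg hTq, Polynomial.eval_zero, sub_zero]
        exact (hM₁ (T, s) ⟨⟨hT, (not_le.1 hTq).le⟩, hs⟩).trans (le_max_left _ _)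
  · intro T hT
    -- first a subsequence along which `mI (T n)` is strictly increasing, all times `≥ l q`
    have hmT : Tendsto (fun n => mI (T n)) atTop atTop := by
      have h1 : Tendsto (fun n => ⌊T n / l⌋₊) atTop atTop :=
        tendsto_nat_floor_atTop.comp (hT.atTop_div_const hl)
      exact tendsto_atTop_atTop.2 fun B => by
        obtain ⟨n0, hn0⟩ := (tendsto_atTop_atTop.1 h1) (B + q)
        exact ⟨n0, fun n hn => Nat.le_sub_of_add_le (hn0 n hn)⟩
    obtain ⟨n0, hn0⟩ := (eventually_atTop.1 (hT.eventually_ge_atTop (l * q)))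
    obtain ⟨ψ₁, hψ₁, hmono⟩ := strictMono_subseq_of_tendsto_atTop
      (u := fun n => mI (T (n + n0))) (hmT.comp (tendsto_add_atTop_nat n0))
    -- convergence of the remaining times
    have htK : ∀ n, tt (T (ψ₁ n + n0)) ∈ Icc (l * q) (l * (q + 1)) := fun n =>
      htt1 _ (hn0 _ (Nat.le_add_left _ _))
    obtain ⟨t', ht', ψ₂, hψ₂, hlim₂⟩ := isCompact_Icc.tendsto_subseq htK
    obtain ⟨ψ₃, hψ₃, b', hb', hnw⟩ := hlim (fun n => mI (T (ψ₁ (ψ₂ n) + n0)))
      (hmono.comp hψ₂)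
    refine ⟨fun n => ψ₁ (ψ₂ (ψ₃ n)) + n0, ?_, fun s => Real.exp (κ * t') *
      b' (Real.exp (-χ * t') * s), ?_, ?_⟩
    · exact ((hψ₁.comp hψ₂).comp hψ₃).add_const n0
    · have hbc : ContinuousOn b' (Icc (-ε) ε) := by
        refine hb'.continuousOn (Eventually.frequently (Eventually.of_forall fun n => ?_))
        exact ((raw_cont hb s₀ _).sub (Polynomial.continuous _)).continuousOn
      have htn : Tendsto (fun n => tt (T (ψ₁ (ψ₂ (ψ₃ n)) + n0))) atTop (𝓝 t') :=
        hlim₂.comp hψ₃.tendsto_atTop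
      have hc : Tendsto (fun n => Real.exp (κ * tt (T (ψ₁ (ψ₂ (ψ₃ n)) + n0)))) atTop
          (𝓝 (Real.exp (κ * t'))) :=
        (Real.continuous_exp.tendsto _).comp (htn.const_mul κ)
      have hρ : Tendsto (fun n => Real.exp (-χ * tt (T (ψ₁ (ψ₂ (ψ₃ n)) + n0)))) atTop
          (𝓝 (Real.exp (-χ * t'))) :=
        (Real.continuous_exp.tendsto _).comp (htn.const_mul (-χ))
      have hx : TendstoUniformlyOn
          (fun n s => Real.exp (-χ * tt (T (ψ₁ (ψ₂ (ψ₃ n)) + n0))) * s)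
          (fun s => Real.exp (-χ * t') * s) atTop (Icc (-1 : ℝ) 1) := by
        rw [Metric.tendstoUniformlyOn_iff]
        intro δ hδ
        filter_upwards [Metric.tendsto_nhds.1 hρ δ hδ] with n hn s hs
        rw [Real.dist_eq] at hn ⊢
        rw [← sub_mul, abs_mul, abs_sub_comm]
        calc _ ≤ |Real.exp (-χ * tt (T (ψ₁ (ψ₂ (ψ₃ n)) + n0))) - Real.exp (-χ * t')| * 1 :=
              mul_le_mul_of_nonneg_left (abs_le.2 hs) (abs_nonneg _)
          _ < δ := by rw [mul_one]; exact hn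
      have h6 := tendstoUniformlyOn_comp isCompact_Icc hb' hbc hc hx
        (fun n s hs => (hsc _ (hn0 _ (Nat.le_add_left _ _)) s hs).1) (fun s hs => by
          have h7 : Real.exp (-χ * t') ≤ ε := by
            refine le_trans (Real.exp_le_exp.2 ?_) hq.le
            have := ht'.1
            nlinarith
          refine abs_le.1 ?_
          rw [abs_mul, abs_of_pos (Real.exp_pos _)]
          calc Real.exp (-χ * t') * |s| ≤ ε * 1 :=
                mul_le_mul h7 (abs_le.2 hs) (abs_nonneg _) hε.le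
            _ = ε := mul_one ε)
      refine h6.congr (Eventually.of_forall fun n s _ => ?_)
      exact (hraw _ (hn0 _ (Nat.le_add_left _ _)) s).symm
    · refine Nowhere.rescale hnw (Real.exp_ne_zero _) (Real.exp_ne_zero _) fun s hs => ?_
      have h7 : Real.exp (-χ * t') < ε := by
        refine lt_of_le_of_lt (Real.exp_le_exp.2 ?_) hq
        have := ht'.1
        nlinarith
      have hs' : |s| < 1 := abs_lt.2 hs
      have : |Real.exp (-χ * t') * s| < ε := by
        rw [abs_mul, abs_of_pos (Real.exp_pos _)]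
        calc Real.exp (-χ * t') * |s| ≤ Real.exp (-χ * t') * 1 :=
              mul_le_mul_of_nonneg_left hs'.le (Real.exp_pos _).le
          _ < ε := by rw [mul_one]; exact h7
      exact abs_lt.1 this

/-- **(G1)**: the level `0` is good. -/
theorem good_zero {κ χ l lam : ℝ} {k₀ : ℕ} {b : ℝ → ℝ} (hχ : 0 < χ) (hl : 0 < l)
    (hb : Continuous b) (hnw : Nowhere k₀ univ b) (hlam : |lam| = Real.exp (χ * l))
    (p : Polynomial ℝ) (heq : ∀ s, b (lam * s) = Real.exp (κ * l) * b s + p.eval s) :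
    Good κ χ k₀ b 0 := by
  -- replace `lam` by its square
  have hlam2 : lam * lam = Real.exp (χ * (2 * l)) := by
    have h1 : lam * lam = |lam| * |lam| := (abs_mul_abs_self lam).symm
    rw [h1, hlam, ← Real.exp_add]
    ring_nf
  set ν : ℝ := Real.exp (κ * l) with hν
  set p₂ : Polynomial ℝ := Polynomial.C ν * p + scale 1 lam p with hp₂
  have heq2 : ∀ s, b (Real.exp (χ * (2 * l)) * s) = Real.exp (κ * (2 * l)) * b s + p₂.eval s := by
    intro s
    rw [← hlam2, mul_assoc, heq, heq]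
    simp only [hp₂, Polynomial.eval_add, Polynomial.eval_mul, Polynomial.eval_C, scale_eval]
    have : Real.exp (κ * (2 * l)) = ν * ν := by
      rw [hν, ← Real.exp_add]
      ring_nf
    rw [this]
    ring
  have hdeg : p₂.natDegree ≤ p.natDegree := by
    refine (Polynomial.natDegree_add_le _ _).trans (max_le ?_ (natDegree_scale_le _ _ _))
    exact Polynomial.natDegree_C_mul_le _ _
  set L : ℝ := 2 * l with hL
  have hL0 : 0 < L := by positivity
  -- iterate
  have hiter : ∀ m : ℕ, ∃ P : Polynomial ℝ, P.natDegree < p.natDegree + 1 ∧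
      ∀ s, raw κ χ b 0 (L * m) s - P.eval s = b s := by
    intro m
    induction m with
    | zero =>
      refine ⟨0, by simp, fun s => ?_⟩
      simp [raw]
    | succ m ih =>
      obtain ⟨P, hP, hPs⟩ := ih
      refine ⟨scale (Real.exp (κ * L)) (Real.exp (-χ * L)) P - scale 1 (Real.exp (-χ * L)) p₂,
        ?_, fun s => ?_⟩
      · refine lt_of_le_of_lt (Polynomial.natDegree_sub_le _ _) (max_lt ?_ ?_)
        · exact lt_of_le_of_lt (natDegree_scale_le _ _ _) hP
        · exact lt_of_le_of_lt (natDegree_scale_le _ _ _) (by omega)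
      · have h1 : L * ((m + 1 : ℕ) : ℝ) = L * m + L := by push_cast; ring
        rw [h1, raw_add]
        have h2 := hPs (Real.exp (-χ * L) * s)
        have h3 := heq2 (Real.exp (-χ * L) * s)
        have h4 : Real.exp (χ * L) * (Real.exp (-χ * L) * s) = s := by
          rw [← mul_assoc, ← Real.exp_add]
          simp
        rw [h4] at h3
        simp only [Polynomial.eval_sub, scale_eval]
        rw [h3]
        have h5 : raw κ χ b 0 (L * m) (Real.exp (-χ * L) * s) =
          b (Real.exp (-χ * L) * s) + P.eval (Real.exp (-χ * L) * s) := by linarith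
        rw [h5]
        ring
  choose P hP hPs using hiter
  obtain ⟨M, hM⟩ := (isCompact_Icc : IsCompact (Icc (-1 : ℝ) 1)).exists_bound_of_continuousOn
    hb.continuousOn
  refine good_of_seq (l := L) (ε := 1) (M := M) (N := p.natDegree + 1) hχ hL0 one_pos hb P hP
    (fun m s hs => by rw [hPs]; exact hM s hs) fun ψ _ => ⟨id, strictMono_id, b, ?_,
      hnw.mono (subset_univ _)⟩
  rw [Metric.tendstoUniformlyOn_iff]
  intro δ hδ
  refine Eventually.of_forall fun n s _ => ?_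
  rw [hPs, dist_self]
  exact hδ

end Vale.Agent.P207.N3.H738
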