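import Vale.Agent.P207.N3.Top.Defs
import Vale.Agent.P207.N3.H545.TensR

/-!
# `(∇^⊥ f)²` as a tensor on the leaves (helper738, line N3 of P207, row P14 (G2))

`Q w = ⟨w, ·⟩ w`. `Q_perp_step`: `Q (perp A x f u)` is an invariant tensor.
-/

open Set Filter Topology Metric
open scoped ContDiff

noncomputable section

namespace Vale.Agent.P207.N3.H738

open Vale.Agent.P207.N3 Vale.Agent.P207.N3.H545

/-- the rank one tensor `⟨w, ·⟩ w` -/
def Q (w : E2) : E2 →L[ℝ] E2 := (innerSL ℝ w).smulRight w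

theorem Q_apply (w v : E2) : Q w v = inner ℝ w v • w := by
  simp [Q]

theorem Q_smul (c : ℝ) (w : E2) : Q (c • w) = (c ^ 2) • Q w := by
  ext v : 1
  rw [Q_apply, smul_apply, Q_apply, real_inner_smul_left, smul_smul, smul_smul]
  congr 1
  ring

theorem Q_neg (w : E2) : Q (-w) = Q w := by
  have := Q_smul (-1) w
  simpa using this

theorem conjT_Q (S : E2 →L[ℝ] E2) (w : E2) : conjT S (Q w) = Q (S w) := by
  ext v : 1
  rw [conjT_apply, Q_apply]
  show S (Q w (star S v)) = _
  rw [Q_apply, map_smul, ContinuousLinearMap.star_eq_adjoint,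
    ContinuousLinearMap.adjoint_inner_right]

/-- the bilinear map whose diagonal is `Q` -/
def Qb : E2 →L[ℝ] E2 →L[ℝ] (E2 →L[ℝ] E2) :=
  (ContinuousLinearMap.smulRightL ℝ E2 E2).comp
    (innerSL ℝ : E2 →L[ℝ] E2 →L[ℝ] ℝ)

theorem Qb_apply (w : E2) : Qb w w = Q w := rfl

theorem Q_cont : Continuous Q := by
  have : Continuous fun w : E2 => Qb w w := by fun_prop
  exact this

/-- rotation as a linear map -/
theorem J_smul (c : ℝ) (v : E2) : J (c • v) = c • J v := by
  ext i
  fin_cases i <;> simp [J]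

theorem J_add (v w : E2) : J (v + w) = J v + J w := by
  ext i
  fin_cases i
  · simp [J]; ring
  · simp [J]

/-- rotation as a continuous linear map -/
def JL : E2 →L[ℝ] E2 := LinearMap.toContinuousLinearMap
  { toFun := J
    map_add' := J_add
    map_smul' := J_smul }

theorem JL_apply (v : E2) : JL v = J v := rfl

theorem inner_E2 (v w : E2) : inner ℝ v w = v 0 * w 0 + v 1 * w 1 := by
  rw [PiLp.inner_apply, Fin.sum_univ_two]
  simp only [RCLike.inner_apply, conj_trivial]
  ring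

theorem inner_J_left (v w : E2) : inner ℝ (J v) w = v 0 * w 1 - v 1 * w 0 := by
  rw [inner_E2]
  simp [J]
  ring

theorem inner_J_self (v : E2) : inner ℝ (J v) v = 0 := by
  rw [inner_J_left]
  ring

theorem E2_eq (v : E2) : v = v 0 • EuclideanSpace.single 0 1 + v 1 • EuclideanSpace.single 1 1 := by
  ext i
  fin_cases i <;> simp

theorem det_E2 (M : E2 →L[ℝ] E2) : M.det =
    M (EuclideanSpace.single 0 1) 0 * M (EuclideanSpace.single 1 1) 1 -
      M (EuclideanSpace.single 1 1) 0 * M (EuclideanSpace.single 0 1) 1 := by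
  have h1 : M.det = LinearMap.det (M : E2 →ₗ[ℝ] E2) := rfl
  rw [h1, ← LinearMap.det_toMatrix (EuclideanSpace.basisFun (Fin 2) ℝ).toBasis,
    Matrix.det_fin_two]
  simp [LinearMap.toMatrix_apply]

/-- `M J Mᵀ = (det M) J` -/
theorem J_adjoint (M : E2 →L[ℝ] E2) (g : E2) : M (J (star M g)) = M.det • J g := by
  have h0 : ∀ v : E2, inner ℝ (star M g) v = inner ℝ g (M v) := by
    intro v
    rw [ContinuousLinearMap.star_eq_adjoint, ContinuousLinearMap.adjoint_inner_left]
  have e0 : (star M g) 0 = g 0 * M (EuclideanSpace.single 0 1) 0 +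
      g 1 * M (EuclideanSpace.single 0 1) 1 := by
    have := h0 (EuclideanSpace.single 0 1)
    rw [inner_E2, inner_E2] at this
    simpa using this
  have e1 : (star M g) 1 = g 0 * M (EuclideanSpace.single 1 1) 0 +
      g 1 * M (EuclideanSpace.single 1 1) 1 := by
    have := h0 (EuclideanSpace.single 1 1)
    rw [inner_E2, inner_E2] at this
    simpa using this
  have e2 : M (J (star M g)) = (-((star M g) 1)) • M (EuclideanSpace.single 0 1) +
      ((star M g) 0) • M (EuclideanSpace.single 1 1) := by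
    conv_lhs => rw [E2_eq (J (star M g))]
    rw [map_add, map_smul, map_smul]
    simp [J]
  rw [e2, e0, e1, det_E2]
  ext i
  fin_cases i
  · simp [J]; ring
  · simp [J]; ring

variable {Γ X B : Type} [Group Γ] [MetricSpace X] [ProperSpace X] [MulAction Γ X]
  [IsIsometricSMul Γ X] [TopologicalSpace B] [CompactSpace B] [T2Space B] [MulAction Γ B]
  [ContinuousConstSMul Γ B] [MeasurableSpace B] [BorelSpace B]

/-- **`(∇^⊥ f)²` is an invariant tensor.** -/
theorem Q_perp_tau {L : Leaf Γ X B} (A : Area L) {f : B → ℝ} {x y : X} (h : L.em x = L.em y)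
    {u : E2} (hu : u ∈ L.dm x y)
    (hf : DifferentiableAt ℝ (fun v => f (L.e y v)) (L.τ x y u)) :
    conjT (fderiv ℝ (L.τ x y) u) (Q (perp A x f u)) = Q (perp A y f (L.τ x y u)) := by
  set M := fderiv ℝ (L.τ x y) u with hM
  have hτ : DifferentiableAt ℝ (L.τ x y) u :=
    (tau_contDiffAt L h hu).differentiableAt (by simp)
  have hev : (fun v => f (L.e x v)) =ᶠ[𝓝 u] fun v => (fun w => f (L.e y w)) (L.τ x y v) := by
    filter_upwards [(isOpen_dm L x y).mem_nhds hu] with v hv
    show f (L.e x v) = f (L.e y (L.τ x y v))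
    rw [e_tau_dm L hv]
  have hg : gradient (fun v => f (L.e x v)) u =
      star M (gradient (fun w => f (L.e y w)) (L.τ x y u)) := by
    rw [gradient_congr hev, gradient_comp hf hτ, ContinuousLinearMap.star_eq_adjoint]
  have hs := A.s_trans x y h u hu
  have hunit : IsUnit M := isUnit_fderiv_tau L h hu
  have hdet : M.det ≠ 0 := by
    obtain ⟨v, hv⟩ := hunit
    have h1 : M.det = LinearMap.det (M : E2 →ₗ[ℝ] E2) := rfl
    rw [h1, ← hv]
    have h2 : IsUnit (LinearMap.det ((v : E2 →L[ℝ] E2) : E2 →ₗ[ℝ] E2)) := by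
      have h3 : IsUnit ((v : E2 →L[ℝ] E2) : E2 →ₗ[ℝ] E2) := by
        refine ⟨⟨((v : E2 →L[ℝ] E2) : E2 →ₗ[ℝ] E2), ((v⁻¹ : (E2 →L[ℝ] E2)ˣ) : E2 →L[ℝ] E2),
          ?_, ?_⟩, rfl⟩
        · ext w : 1
          have := congrArg (fun T : E2 →L[ℝ] E2 => T w) v.mul_inv
          exact this
        · ext w : 1
          have := congrArg (fun T : E2 →L[ℝ] E2 => T w) v.inv_mul
          exact this
      exact h3.map LinearMap.det
    exact h2.ne_zero
  have hsy : 0 < A.s y (L.τ x y u) := A.s_pos y _ (tau_mem_dm L hu).1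
  have key : M (perp A x f u) = (M.det / |M.det|) • perp A y f (L.τ x y u) := by
    unfold perp
    rw [hg, map_smul, J_adjoint, hs, smul_smul, smul_smul]
    congr 1
    have h1 : |M.det| ≠ 0 := abs_ne_zero.2 hdet
    have h2 : Real.exp (A.h * (L.lv x - L.lv y)) =
        Real.exp (A.h * L.lv x) / Real.exp (A.h * L.lv y) := by
      rw [← Real.exp_sub]
      ring_nf
    rw [← hM, h2]
    have h3 := (Real.exp_pos (A.h * L.lv x)).ne'
    have h4 := (Real.exp_pos (A.h * L.lv y)).ne'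
    field_simp
  rw [conjT_Q, key, Q_smul]
  have h1 : (M.det / |M.det|) ^ 2 = 1 := by
    rw [div_pow, sq_abs, div_self (pow_ne_zero 2 hdet)]
  rw [h1, one_smul]

/-- the tensor at the higher frame of a step -/
theorem Q_perp_step {L : Leaf Γ X B} (A : Area L) {f : B → ℝ} {t : ℝ} (ht : L.t1 ≤ t) (y : X)
    {u : E2} (hu : u ∈ ball (0 : E2) 3)
    (hf : DifferentiableAt ℝ (fun v => f (L.e y v)) (L.τ (L.φ t y) y u)) :
    conjT (Sx L y t u) (Q (perp A y f (L.τ (L.φ t y) y u))) = Q (perp A (L.φ t y) f u) := by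
  have hdm : u ∈ L.dm (L.φ t y) y := by rw [dm_step L ht y]; exact hu
  rw [← Q_perp_tau A (L.em_φ t y) hdm hf, conjT_Q, conjT_Q]
  have h1 := congrArg (fun T : E2 →L[ℝ] E2 => T (perp A (L.φ t y) f u)) (Sx_mul ht y hu)
  have h2 : Sx L y t u ((fderiv ℝ (L.τ (L.φ t y) y) u) (perp A (L.φ t y) f u)) =
      perp A (L.φ t y) f u := h1
  rw [h2]

/-! ### Rotation of the frame -/

/-- an element of `O2` as a continuous linear map -/
def aL (a : O2) : E2 →L[ℝ] E2 := ((a : E2 ≃L[ℝ] E2) : E2 →L[ℝ] E2)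

theorem aL_apply (a : O2) (v : E2) : aL a v = a v := rfl

theorem norm_aL_le (a : O2) : ‖aL a‖ ≤ 1 :=
  ContinuousLinearMap.opNorm_le_bound _ zero_le_one fun v => by
    rw [aL_apply, a.norm_map, one_mul]

theorem aL_mul_inv (a : O2) : aL a * aL a⁻¹ = 1 := by
  ext v : 1
  show a (a⁻¹ v) = v
  exact a.apply_symm_apply v

theorem aL_inv_mul (a : O2) : aL a⁻¹ * aL a = 1 := by
  ext v : 1
  show a⁻¹ (a v) = v
  exact a.symm_apply_apply v

theorem star_aL (a : O2) : star (aL a) = aL a⁻¹ := by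
  ext v : 1
  refine ext_inner_right ℝ fun w => ?_
  rw [ContinuousLinearMap.star_eq_adjoint, ContinuousLinearMap.adjoint_inner_left, aL_apply,
    aL_apply]
  have h1 : inner ℝ (a (a⁻¹ v)) (a w) = inner ℝ (a⁻¹ v) w := a.inner_map_map _ _
  rw [← h1]
  congr 1
  exact (a.apply_symm_apply v).symm

theorem ball_a {a : O2} {u : E2} {r : ℝ} (hu : u ∈ ball (0 : E2) r) : a u ∈ ball (0 : E2) r := by
  rw [mem_ball_zero_iff] at hu ⊢
  rwa [a.norm_map]

theorem closedBall_a {a : O2} {u : E2} {r : ℝ} (hu : u ∈ closedBall (0 : E2) r) :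
    a u ∈ closedBall (0 : E2) r := by
  rw [mem_closedBall_zero_iff] at hu ⊢
  rwa [a.norm_map]

omit [MeasurableSpace B] [BorelSpace B] in
theorem tau_rot (L : Leaf Γ X B) (a : O2) (y : X) {u : E2} (hu : u ∈ closedBall (0 : E2) 3) :
    L.τ (L.rot a y) y u = a u :=
  tau_eq_of L (closedBall_a hu) (L.e_rot a y u hu).symm

omit [MeasurableSpace B] [BorelSpace B] in
theorem dm_rot (L : Leaf Γ X B) (a : O2) (y : X) : L.dm (L.rot a y) y = ball (0 : E2) 3 := by
  ext u
  constructor
  · exact fun h => h.1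
  · intro hu
    exact ⟨hu, a u, ball_a hu, (L.e_rot a y u (ball_subset_closedBall hu)).symm⟩

omit [MeasurableSpace B] [BorelSpace B] in
theorem fderiv_tau_rot (L : Leaf Γ X B) (a : O2) (y : X) {u : E2} (hu : u ∈ ball (0 : E2) 3) :
    fderiv ℝ (L.τ (L.rot a y) y) u = aL a := by
  have h1 : L.τ (L.rot a y) y =ᶠ[𝓝 u] aL a := by
    filter_upwards [isOpen_ball.mem_nhds hu] with v hv
    exact tau_rot L a y (ball_subset_closedBall hv)
  rw [h1.fderiv_eq, (aL a).fderiv]

theorem conjT_mul (S S' : E2 →L[ℝ] E2) (V : E2 →L[ℝ] E2) :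
    conjT S (conjT S' V) = conjT (S * S') V := by
  rw [conjT_apply, conjT_apply, conjT_apply, star_mul]
  simp only [mul_assoc]

theorem conjT_one (V : E2 →L[ℝ] E2) : conjT 1 V = V := by
  rw [conjT_apply, star_one, one_mul, mul_one]

/-- `(∇^⊥ f)²` in the rotated frame -/
theorem Q_perp_rot {L : Leaf Γ X B} (A : Area L) {f : B → ℝ} (a : O2) (y : X) {u : E2}
    (hu : u ∈ ball (0 : E2) 3) (hf : DifferentiableAt ℝ (fun v => f (L.e y v)) (a u)) :
    conjT (aL a⁻¹) (Q (perp A y f (a u))) = Q (perp A (L.rot a y) f u) := by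
  have hdm : u ∈ L.dm (L.rot a y) y := by rw [dm_rot]; exact hu
  have hτ := tau_rot L a y (ball_subset_closedBall hu)
  have h1 := Q_perp_tau A (f := f) (L.em_rot a y) hdm (by rw [hτ]; exact hf)
  rw [hτ, fderiv_tau_rot L a y hu] at h1
  rw [← h1, conjT_mul, aL_inv_mul, conjT_one]

omit [MeasurableSpace B] [BorelSpace B] in
/-- `E^s` in the rotated frame -/
theorem N_rot' {L : Leaf Γ X B} (T : Tens L) (a : O2) (y : X) {u : E2}
    (hu : u ∈ ball (0 : E2) 3) : T.N (L.rot a y) u = conjT (aL a⁻¹) (T.N y (a u)) := by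
  ext v : 1
  rw [T.N_rot a y u hu v, conjT_apply]
  have h1 : star (aL a⁻¹) = aL a := by
    rw [star_aL, inv_inv]
  rw [h1]
  rfl

end Vale.Agent.P207.N3.H738
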