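import Vale.Agent.P207.N3.H738.LeafA
import Vale.Agent.P207.N3.H738.Tools2

/-!
# One step with rotation: `w' = φ_t (rot a w)` (helper738, line N3 of P207, row P14 (G2))
-/

set_option maxSynthPendingDepth 3

open Set Filter Topology Metric
open scoped ContDiff

noncomputable section

namespace Vale.Agent.P207.N3.H738

open Vale.Agent.P207.N3 Vale.Agent.P207.N3.H545

variable {Γ X B : Type} [Group Γ] [MetricSpace X] [ProperSpace X] [MulAction Γ X]
  [IsIsometricSMul Γ X] [TopologicalSpace B] [CompactSpace B] [T2Space B] [MulAction Γ B]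
  [ContinuousConstSMul Γ B]

/-- the frame after the step -/
def nx (L : Leaf Γ X B) (a : O2) (t : ℝ) (w : X) : X := L.φ t (L.rot a w)

/-- the transition map from the disc of `nx w` to the disc of `w` -/
def sτ (L : Leaf Γ X B) (a : O2) (t : ℝ) (w : X) (u : E2) : E2 :=
  a (L.τ (nx L a t w) (L.rot a w) u)

/-- the action on tensors -/
def sA (L : Leaf Γ X B) (a : O2) (t : ℝ) (w : X) (u : E2) :
    (E2 →L[ℝ] E2) →L[ℝ] (E2 →L[ℝ] E2) :=
  (conjT (Sx L (L.rot a w) t u)).comp (conjT (aL a⁻¹))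

/-- the smooth error -/
def sE {L : Leaf Γ X B} (T : Tens L) (a : O2) (t : ℝ) (w : X) (u : E2) : E2 →L[ℝ] E2 :=
  -conjT (Sx L (L.rot a w) t u) (T.R (nx L a t w) (L.rot a w) u)

section basic

variable (L : Leaf Γ X B) (a : O2) {t : ℝ}

theorem em_nx (t : ℝ) (w : X) : L.em (nx L a t w) = L.em w := by
  rw [nx, L.em_φ, L.em_rot]

theorem lv_nx (t : ℝ) (w : X) : L.lv (nx L a t w) = L.lv w + t := by
  rw [nx, L.lv_φ, L.lv_rot]

theorem sτ_mem (ht : L.t1 ≤ t) (w : X) {u : E2} (hu : u ∈ closedBall (0 : E2) 3) :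
    sτ L a t w u ∈ ball (0 : E2) 1 :=
  ball_a (tau_step_mem L ht (L.rot a w) hu)

theorem e_sτ (ht : L.t1 ≤ t) (w : X) {u : E2} (hu : u ∈ closedBall (0 : E2) 3) :
    L.e w (sτ L a t w u) = L.e (nx L a t w) u := by
  have h1 := tau_step_mem L ht (L.rot a w) hu
  have h2 := e_tau_step L ht (L.rot a w) hu
  have h3 : L.τ (nx L a t w) (L.rot a w) u ∈ closedBall (0 : E2) 3 :=
    ball_subset_closedBall (ball_subset_ball (by norm_num) h1)
  unfold sτ
  rw [← L.e_rot a w _ h3]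
  exact h2

theorem sτ_zero (ht : L.t1 ≤ t) (w : X) : sτ L a t w 0 = 0 := by
  have h1 := e_sτ L a ht w (u := 0) (by simp)
  have h2 : L.e (nx L a t w) 0 = L.e w 0 := by
    rw [L.e_zero, L.e_zero, L.ep_flip, L.ep_flip, nx, L.flip_φ, L.flip_rot, L.em_φ, L.em_rot]
  rw [h2] at h1
  refine L.e_inj w ?_ (by simp) h1
  exact ball_subset_closedBall (ball_subset_ball (by norm_num)
    (sτ_mem L a ht w (u := 0) (by simp)))

theorem sτ_smooth (ht : L.t1 ≤ t) (w : X) : ContDiffOn ℝ ∞ (sτ L a t w) (ball (0 : E2) 3) := by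
  have h1 := tau_step_smooth L ht (L.rot a w)
  exact (aL a).contDiff.comp_contDiffOn h1

theorem norm_sτ_le {k : ℕ} (hk : 1 ≤ k) (ht : L.t1 ≤ t) (w : X) {u : E2}
    (hu : u ∈ ball (0 : E2) 3) : ‖iteratedFDeriv ℝ k (sτ L a t w) u‖ ≤ cc L k := by
  have h1 : ContDiffAt ℝ k (L.τ (nx L a t w) (L.rot a w)) u :=
    (((tau_step_smooth L ht (L.rot a w)) u hu).contDiffAt (isOpen_ball.mem_nhds hu)).of_le
      (by exact_mod_cast le_top)
  have h2 := (aL a).norm_iteratedFDeriv_comp_left h1 (n := k) le_rfl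
  have h3 : (aL a) ∘ (L.τ (nx L a t w) (L.rot a w)) = sτ L a t w := rfl
  rw [h3] at h2
  refine h2.trans ?_
  calc ‖aL a‖ * ‖iteratedFDeriv ℝ k (L.τ (nx L a t w) (L.rot a w)) u‖
      ≤ 1 * cc L k := mul_le_mul (norm_aL_le a)
        (norm_iteratedFDeriv_tau_step_le L hk ht (L.rot a w) hu) (norm_nonneg _) zero_le_one
    _ = _ := one_mul _

theorem norm_fderiv_sτ_le (ht : ts L ≤ t) (w : X) {u : E2} (hu : u ∈ ball (0 : E2) 3) :
    ‖fderiv ℝ (sτ L a t w) u‖ ≤ 1 / 2 := by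
  have h1 : DifferentiableAt ℝ (L.τ (nx L a t w) (L.rot a w)) u :=
    (((tau_step_smooth L ((t1_le_ts L).trans ht) (L.rot a w)) u hu).contDiffAt
      (isOpen_ball.mem_nhds hu)).differentiableAt (by simp)
  have h2 : fderiv ℝ (sτ L a t w) u = (aL a).comp (fderiv ℝ (L.τ (nx L a t w) (L.rot a w)) u) :=
    ((aL a).hasFDerivAt.comp u h1.hasFDerivAt).fderiv
  rw [h2]
  calc _ ≤ ‖aL a‖ * ‖fderiv ℝ (L.τ (nx L a t w) (L.rot a w)) u‖ :=
        ContinuousLinearMap.opNorm_comp_le _ _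
    _ ≤ 1 * (1 / 2) := mul_le_mul (norm_aL_le a) (norm_fderiv_tau_step_le L ht (L.rot a w) hu)
        (norm_nonneg _) zero_le_one
    _ = _ := one_mul _

/-- the tensor `E^s` -/
theorem N_sstep {L : Leaf Γ X B} (T : Tens L) (a : O2) {t : ℝ} (ht : L.t1 ≤ t) (w : X) {u : E2}
    (hu : u ∈ ball (0 : E2) 3) :
    T.N (nx L a t w) u = sA L a t w u (T.N w (sτ L a t w u)) + sE T a t w u := by
  have h1 := N_step T ht (L.rot a w) hu
  have h2 := tau_step_mem L ht (L.rot a w) (ball_subset_closedBall hu)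
  have h3 : L.τ (L.φ t (L.rot a w)) (L.rot a w) u ∈ ball (0 : E2) 3 :=
    ball_subset_ball (by norm_num) h2
  rw [nx, h1, N_rot' T a w h3]
  rfl

/-- uniform bounds of the action -/
theorem exists_sA_bound (S : ℝ) : ∃ b : ℝ, 0 ≤ b ∧ ∀ (a : O2) (w : X), ∀ t ∈ Icc L.t1 S,
    ∀ u ∈ ball (0 : E2) 2, ‖sA L a t w u‖ ≤ b := by
  obtain ⟨b, hb, h⟩ := exists_norm_inverse_step_le L S
  refine ⟨b * b, by positivity, fun a w t ht u hu => ?_⟩
  have h1 : ‖Sx L (L.rot a w) t u‖ ≤ b := h _ t ht u (ball_subset_closedBall hu)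
  have h2 : ‖conjT (aL a⁻¹)‖ ≤ 1 :=
    (norm_conjT_le _).trans (mul_le_one₀ (norm_aL_le _) (norm_nonneg _) (norm_aL_le _))
  calc ‖sA L a t w u‖ ≤ ‖conjT (Sx L (L.rot a w) t u)‖ * ‖conjT (aL a⁻¹)‖ :=
        ContinuousLinearMap.opNorm_comp_le _ _
    _ ≤ (b * b) * 1 := by
        have h3 : ‖conjT (Sx L (L.rot a w) t u)‖ ≤ b * b :=
          (norm_conjT_le _).trans (by gcongr)
        gcongr
    _ = _ := mul_one _

theorem exists_sA_Bk (k : ℕ) (S : ℝ) : ∃ c : ℝ, 0 ≤ c ∧ ∀ (a : O2) (w : X), ∀ t ∈ Icc L.t1 S,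
    Bk k c (ball (0 : E2) 2) (sA L a t w) := by
  obtain ⟨c, hc, h⟩ := conjT_CkB L k S
  refine ⟨c, hc, fun a w t ht => ?_⟩
  have h1 : Bk k c (ball (0 : E2) 2) (fun u => conjT (Sx L (L.rot a w) t u)) := h _ t ht
  exact h1.comp_const isOpen_ball (conjT (aL a⁻¹))
    ((norm_conjT_le _).trans (mul_le_one₀ (norm_aL_le _) (norm_nonneg _) (norm_aL_le _))) hc

theorem exists_sE_Bk {L : Leaf Γ X B} (T : Tens L) (k : ℕ) (S : ℝ) : ∃ c : ℝ, 0 ≤ c ∧
    ∀ (a : O2) (w : X), ∀ t ∈ Icc L.t1 S, Bk k c (ball (0 : E2) 2) (sE T a t w) := by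
  obtain ⟨c, hc, h⟩ := conjT_CkB L k S
  obtain ⟨c', hc', h'⟩ := R_CkB T k S
  refine ⟨2 ^ k * (c * c'), by positivity, fun a w t ht => ?_⟩
  have h1 : Bk k c (ball (0 : E2) 2) (fun u => conjT (Sx L (L.rot a w) t u)) := h _ t ht
  have h2 : Bk k c' (ball (0 : E2) 2) (T.R (nx L a t w) (L.rot a w)) := h' _ t ht
  exact (h1.clm_apply isOpen_ball h2).neg

end basic

section area

variable [MeasurableSpace B] [BorelSpace B]

/-- the tensor `(∇^⊥ f)²` -/
theorem Q_sstep {L : Leaf Γ X B} (A : Area L) {f : B → ℝ} (a : O2) {t : ℝ} (ht : L.t1 ≤ t)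
    (w : X) {u : E2} (hu : u ∈ ball (0 : E2) 3)
    (hf : ∀ v ∈ ball (0 : E2) 3, DifferentiableAt ℝ (fun v => f (L.e w v)) v) :
    sA L a t w u (Q (perp A w f (sτ L a t w u))) = Q (perp A (nx L a t w) f u) := by
  have h2 := tau_step_mem L ht (L.rot a w) (ball_subset_closedBall hu)
  have h3 : L.τ (L.φ t (L.rot a w)) (L.rot a w) u ∈ ball (0 : E2) 3 :=
    ball_subset_ball (by norm_num) h2
  have h4 : DifferentiableAt ℝ (fun v => f (L.e (L.rot a w) v))
      (L.τ (L.φ t (L.rot a w)) (L.rot a w) u) := by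
    have h5 : (fun v => f (L.e (L.rot a w) v)) =ᶠ[𝓝 (L.τ (L.φ t (L.rot a w)) (L.rot a w) u)]
        fun v => (fun v => f (L.e w v)) (aL a v) := by
      filter_upwards [isOpen_ball.mem_nhds h3] with v hv
      rw [L.e_rot a w v (ball_subset_closedBall hv), aL_apply]
    refine DifferentiableAt.congr_of_eventuallyEq ?_ h5
    exact (hf _ (ball_a h3)).comp _ (aL a).differentiableAt
  have h6 := Q_perp_step A ht (L.rot a w) hu h4
  rw [← Q_perp_rot A a w h3 (hf _ (ball_a h3))] at h6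
  exact h6

end area

end Vale.Agent.P207.N3.H738
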