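import Vale.Agent.P207.N3.H738.Abs
import Vale.Agent.P207.N3.H738.Good

/-!
# (G2), abstract form: the level is good (helper738, line N3 of P207, row P14)
-/

open Set Filter Topology Metric

noncomputable section

namespace Vale.Agent.P207.N3.H738

/-- continuous convergence on a compact set is uniform -/
theorem tuo_of_cc {K : Set ℝ} (hK : IsCompact K) {f : ℕ → ℝ → ℝ} {g : ℝ → ℝ}
    (hg : ContinuousOn g K)
    (h : ∀ φ : ℕ → ℕ, StrictMono φ → ∀ x : ℕ → ℝ, (∀ n, x n ∈ K) → ∀ x₀ ∈ K,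
      Tendsto x atTop (𝓝 x₀) → Tendsto (fun n => f (φ n) (x n)) atTop (𝓝 (g x₀))) :
    TendstoUniformlyOn f g atTop K := by
  rw [Metric.tendstoUniformlyOn_iff]
  by_contra hcon
  push Not at hcon
  obtain ⟨ε, hε, hf⟩ := hcon
  have hf' : ∃ᶠ n in atTop, ∃ x ∈ K, ε ≤ dist (g x) (f n x) := by
    exact hf
  obtain ⟨φ, hφ, hφ2⟩ := Filter.extraction_of_frequently_atTop hf'
  choose x hxK hx using hφ2
  obtain ⟨x₀, hx₀, ψ, hψ, hlim⟩ := hK.tendsto_subseq hxK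
  have h1 := h (φ ∘ ψ) (hφ.comp hψ) (x ∘ ψ) (fun n => hxK _) x₀ hx₀ hlim
  have h2 : Tendsto (fun n => g (x (ψ n))) atTop (𝓝 (g x₀)) :=
    (hg x₀ hx₀).tendsto.comp (tendsto_nhdsWithin_iff.2
      ⟨hlim, Eventually.of_forall fun n => hxK _⟩)
  have h3 : Tendsto (fun n => dist (g (x (ψ n))) (f (φ (ψ n)) (x (ψ n)))) atTop (𝓝 0) := by
    have := h2.dist h1
    simpa using this
  have h4 := h3.eventually (gt_mem_nhds hε)
  obtain ⟨n, hn⟩ := h4.exists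
  exact absurd (hx (ψ n)) (not_le.2 hn)

/-- uniform convergence to a continuous function is continuous convergence -/
theorem cc_of_unif {E G : Type*} [MetricSpace E] [MetricSpace G] {S : Set E} {f : ℕ → E → G}
    {g : E → G} (h : TendstoUniformlyOn f g atTop S) (hg : ContinuousOn g S) {x : ℕ → E}
    (hx : ∀ n, x n ∈ S) {x₀ : E} (hx₀ : x₀ ∈ S) (hlim : Tendsto x atTop (𝓝 x₀)) :
    Tendsto (fun n => f n (x n)) atTop (𝓝 (g x₀)) := by
  rw [Metric.tendstoUniformlyOn_iff] at h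
  have h2 : Tendsto (fun n => g (x n)) atTop (𝓝 (g x₀)) :=
    (hg x₀ hx₀).tendsto.comp (tendsto_nhdsWithin_iff.2
      ⟨hlim, Eventually.of_forall fun n => hx _⟩)
  rw [Metric.tendsto_nhds] at h2 ⊢
  intro ε hε
  filter_upwards [h (ε / 2) (half_pos hε), h2 (ε / 2) (half_pos hε)] with n h3 h4
  calc dist (f n (x n)) (g x₀) ≤ dist (f n (x n)) (g (x n)) + dist (g (x n)) (g x₀) :=
        dist_triangle _ _ _
    _ < ε / 2 + ε / 2 := add_lt_add (by rw [dist_comm]; exact h3 _ (hx n)) h4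
    _ = ε := by ring

theorem growth_abs {c r : ℝ} {F : ℝ → ℝ} (hd : ∀ t ∈ Ioo (-r) r, DifferentiableAt ℝ F t)
    (hFc : ∀ t ∈ Ioo (-r) r, c ≤ deriv F t) :
    (∀ x ∈ Ioo (-r) r, ∀ y ∈ Ioo (-r) r, x ≤ y → c * (y - x) ≤ F y - F x) ∧
      ∀ x ∈ Ioo (-r) r, ∀ y ∈ Ioo (-r) r, c * |y - x| ≤ |F y - F x| := by
  have hgrow : ∀ x ∈ Ioo (-r) r, ∀ y ∈ Ioo (-r) r, x ≤ y → c * (y - x) ≤ F y - F x := by
    refine (convex_Ioo _ _).mul_sub_le_image_sub_of_le_deriv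
      (fun t ht => (hd t ht).continuousAt.continuousWithinAt) ?_ ?_
    · rw [interior_Ioo]
      exact fun t ht => (hd t ht).differentiableWithinAt
    · rw [interior_Ioo]
      exact hFc
  refine ⟨hgrow, fun x hx y hy => ?_⟩
  rcases le_total x y with h | h
  · have h1 := hgrow x hx y hy h
    rw [abs_of_nonneg (by linarith : 0 ≤ y - x)]
    exact h1.trans (le_abs_self _)
  · have h1 := hgrow y hy x hx h
    rw [abs_sub_comm, abs_sub_comm (F y), abs_of_nonneg (by linarith : 0 ≤ x - y)]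
    exact h1.trans (le_abs_self _)

theorem deriv_ge_of_growth {c r : ℝ} {F : ℝ → ℝ} (hd : ∀ t ∈ Ioo (-r) r, DifferentiableAt ℝ F t)
    (hgrow : ∀ x ∈ Ioo (-r) r, ∀ y ∈ Ioo (-r) r, x ≤ y → c * (y - x) ≤ F y - F x) :
    ∀ t ∈ Ioo (-r) r, c ≤ deriv F t := by
  intro t ht
  have h1 := hasDerivAt_iff_tendsto_slope.1 (hd t ht).hasDerivAt
  refine ge_of_tendsto h1 ?_
  have h2 : ∀ᶠ y in 𝓝[≠] t, y ∈ Ioo (-r) r :=
    eventually_nhdsWithin_of_eventually_nhds (isOpen_Ioo.mem_nhds ht)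
  filter_upwards [h2, self_mem_nhdsWithin] with y hy hne
  rw [slope_def_field]
  rcases lt_or_gt_of_ne (show y ≠ t from hne) with h | h
  · have h3 := hgrow y hy t ht h.le
    rw [← neg_div_neg_eq, le_div_iff₀ (by linarith)]
    linarith
  · have h3 := hgrow t ht y hy h.le
    rw [le_div_iff₀ (by linarith)]
    exact h3

/-- **(G2), abstract form.** -/
theorem abs_good {E G : Type} [NormedAddCommGroup E] [NormedSpace ℝ E] [FiniteDimensional ℝ E]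
    [NormedAddCommGroup G] [NormedSpace ℝ G] [FiniteDimensional ℝ G]
    {κ χ l : ℝ} (hχ : 0 < χ) (hl : 0 < l)
    {N k k₀ : ℕ} (hN1 : 1 ≤ N) (hN : κ < N * χ) (hNk : N + 1 ≤ k) (hk₀ : k₀ + 1 ≤ k)
    {c c' r a θ s₀ : ℝ} (hc' : 0 < c') (hr : 0 < r)
    (hr1 : r ≤ 1) (ha : 0 ≤ a) (hθ : 0 ≤ θ) (haθ : a * θ ^ k ≤ 1 / 4)
    {e₀ : E} (he₀ : ‖e₀‖ ≤ 1) (lam : G →L[ℝ] ℝ)
    (τ : ℕ → E → E) (A : ℕ → E → G →L[ℝ] G) (Er Nn V W : ℕ → E → G) (F : ℕ → E → ℝ)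
    {b : ℝ → ℝ} (hb : Continuous b)
    (hNV : ∀ m, ∀ u ∈ ball (0 : E) 2,
      Nn m u = V m u + raw κ χ b s₀ (l * (m : ℝ)) (F m u) • W m u)
    (hNb : ∀ m, ∀ u ∈ ball (0 : E) 2, ‖Nn m u‖ ≤ c)
    (hVrel : ∀ m, ∀ u ∈ ball (0 : E) 2, V (m + 1) u = A m u (V m (τ m u)) + Er m u)
    (hFrel : ∀ m, ∀ u ∈ ball (0 : E) 2, F (m + 1) u = Real.exp (χ * l) * F m (τ m u))
    (hWrel : ∀ m, ∀ u ∈ ball (0 : E) 2, A m u (W m (τ m u)) = Real.exp (κ * l) • W (m + 1) u)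
    (hVk : ∀ m, ContDiffOn ℝ k (V m) (ball 0 2)) (hV0 : Bk k c (ball 0 2) (V 0))
    (hFk : ∀ m, Bk k c (ball 0 2) (F m)) (hWk : ∀ m, Bk k c (ball 0 2) (W m))
    (hτk : ∀ m, ContDiffOn ℝ k (τ m) (ball 0 2)) (hτm : ∀ m, MapsTo (τ m) (ball 0 2) (ball 0 1))
    (hτθ : ∀ m, ∀ u ∈ ball (0 : E) 2, ‖fderiv ℝ (τ m) u‖ ≤ θ)
    (hτi : ∀ m i, 1 ≤ i → i ≤ k → ∀ u ∈ ball (0 : E) 2, ‖iteratedFDeriv ℝ i (τ m) u‖ ≤ c)
    (hAa : ∀ m, ∀ u ∈ ball (0 : E) 2, ‖A m u‖ ≤ a) (hAk : ∀ m, Bk k c (ball 0 2) (A m))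
    (hEk : ∀ m, Bk k c (ball 0 2) (Er m)) (hF0 : ∀ m, F m 0 = 0)
    (hFl : ∀ m, ∀ t ∈ Ioo (-r) r, c' ≤ deriv (fun t : ℝ => F m (t • e₀)) t)
    (hWl : ∀ m, ∀ t ∈ Ioo (-r) r, c' ≤ lam (W m (t • e₀)))
    (hnw : Nowhere k₀ univ b)
    (hlim : ∀ ψ : ℕ → ℕ, StrictMono ψ → ∃ ψ' : ℕ → ℕ, StrictMono ψ' ∧
      ∃ (Ni Vi Wi : E → G) (Fi : E → ℝ) (c₁ c₂ : ℝ), c₁ ≠ 0 ∧ c₂ ≠ 0 ∧
        ContDiffOn ℝ k₀ Vi (ball 0 2) ∧ ContinuousOn Ni (closedBall 0 1) ∧
        TendstoUniformlyOn (fun n => Nn (ψ (ψ' n))) Ni atTop (closedBall 0 1) ∧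
        (∀ u ∈ ball (0 : E) 2, Tendsto (fun n => F (ψ (ψ' n)) u) atTop (𝓝 (Fi u))) ∧
        (∀ u ∈ ball (0 : E) 2, Tendsto (fun n => W (ψ (ψ' n)) u) atTop (𝓝 (Wi u))) ∧
        ∀ u ∈ closedBall (0 : E) 1, Ni u = Vi u + (c₂ * b (c₁ * Fi u)) • Wi u) :
    Good κ χ k₀ b s₀ := by
  classical
  have hr2 : r ≤ 2 := by linarith
  set R : ℝ := max 1 c with hRdef
  obtain ⟨M, hM1, hM2⟩ := abs_bound hχ hl hN hNk hc' hr hr2 ha hθ haθ (le_max_left 1 c)
    (le_max_right 1 c) he₀ lam τ A Er Nn V W F (fun m => raw κ χ b s₀ (l * m))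
    (fun m => raw_cont hb s₀ _) (fun m q s => by
      have h1 : l * ((m + q : ℕ) : ℝ) = l * m + l * q := by push_cast; ring
      rw [h1, raw_add]) hNV hNb hVrel hFrel hWrel hVk hV0 hFk hWk hτk hτm hτθ hτi hAa hAk hEk
      hF0 hFl hWl
  set Vh : ℕ → E → G := fun m u => V m u +
    (Pi N (raw κ χ b s₀ (l * m))).eval (F m u) • W m u with hVh
  set ε : ℝ := min (c' * r / 2) 1 with hεdef
  have hcr : 0 < c' * r := mul_pos hc' hr
  have hε : 0 < ε := lt_min (by positivity) one_pos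
  have hε1 : ε ≤ 1 := min_le_right _ _
  have hε2 : ε ≤ c' * r / 2 := min_le_left _ _
  have hε3 : ε < c' * r := by linarith
  have hline : ∀ t ∈ Ioo (-r) r, t • e₀ ∈ ball (0 : E) 2 ∧ t • e₀ ∈ closedBall (0 : E) 1 := by
    intro t ht
    have h1 : ‖t • e₀‖ < 1 := by
      rw [norm_smul, Real.norm_eq_abs]
      calc |t| * ‖e₀‖ ≤ |t| * 1 := mul_le_mul_of_nonneg_left he₀ (abs_nonneg _)
        _ < 1 := by rw [mul_one]; exact lt_of_lt_of_le (abs_lt.2 ht) hr1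
    exact ⟨mem_ball_zero_iff.2 (by linarith), mem_closedBall_zero_iff.2 h1.le⟩
  -- the inverse functions
  obtain ⟨k', rfl⟩ : ∃ k', k = k' + 1 := ⟨k - 1, by omega⟩
  have hk'1 : 1 ≤ k' := by omega
  obtain ⟨K, hK1, hinv⟩ := exists_inverse k' (C := c) hc' hr
  have hFline : ∀ m, Bk (k' + 1) c (Ioo (-r) r) fun t : ℝ => F m (t • e₀) := fun m =>
    (hFk m).line he₀ hr2
  choose T hT hTm hTi using fun m => hinv (fun t : ℝ => F m (t • e₀)) (hFline m)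
    (by simp only [zero_smul]; exact hF0 m) (hFl m)
  have hremeq : ∀ m : ℕ, ∀ s ∈ Ioo (-(c' * r)) (c' * r),
      rem N (raw κ χ b s₀ (l * (m : ℝ))) s =
      lam (Nn m (T m s • e₀) - Vh m (T m s • e₀)) * (lam (W m (T m s • e₀)))⁻¹ := by
    intro m s hs
    obtain ⟨h1, h2, -⟩ := hTm m s hs
    have h3 := hNV m _ (hline _ h1).1
    have h4 : 0 < lam (W m (T m s • e₀)) := lt_of_lt_of_le hc' (hWl m _ h1)
    have h5 : Nn m (T m s • e₀) - Vh m (T m s • e₀) =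
        rem N (raw κ χ b s₀ (l * m)) s • W m (T m s • e₀) := by
      rw [h3, hVh]
      simp only [h2, rem, sub_smul]
      abel
    rw [h5, map_smul, smul_eq_mul, mul_assoc, mul_inv_cancel₀ h4.ne', mul_one]
  have hgrowF : ∀ m, _ := fun m => growth_abs (r := r) (c := c')
    (F := fun t : ℝ => F m (t • e₀)) (fun t ht =>
      ((hFline m).contDiffAt isOpen_Ioo ht).differentiableAt (by norm_cast)) (hFl m)
  refine good_of_seq (l := l) (ε := ε) (M := M) (N := N) hχ hl hε hb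
    (fun m => Pi N (raw κ χ b s₀ (l * m))) (fun m => ?_) (fun m s hs => ?_) fun ψ hψ => ?_
  · have h1 := Pi_degree N (raw κ χ b s₀ (l * m))
    by_cases h0 : Pi N (raw κ χ b s₀ (l * m)) = 0
    · rw [h0, Polynomial.natDegree_zero]
      omega
    · exact (Polynomial.natDegree_lt_iff_degree_lt h0).2 h1
  · exact hM1 m s ⟨by linarith [hs.1, le_max_left 1 c], by linarith [hs.2, le_max_left 1 c]⟩
  obtain ⟨ψ', hψ', Ni, Vi, Wi, Fi, c₁, c₂, hc₁, hc₂, hVi, hNic, hNu, hFp, hWp, hNi⟩ := hlim ψ hψ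
  -- `C^k'` limits
  obtain ⟨φ₁, hφ₁, V', hV', hV'lim, -⟩ := H828.ck_subseq (k := k') (M := fun _ => M)
    (S := ball (0 : E) 2) isOpen_ball (convex_ball _ _) isBounded_ball
    (F := fun n => Vh (ψ (ψ' n))) (fun n => (hM2 _).toCkB)
  obtain ⟨φ₂, hφ₂, F', hF', hF'lim, -⟩ := H828.ck_subseq (k := k') (M := fun _ => c)
    (S := ball (0 : E) 2) isOpen_ball (convex_ball _ _) isBounded_ball
    (F := fun n => F (ψ (ψ' (φ₁ n)))) (fun n => (hFk _).toCkB)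
  obtain ⟨φ₃, hφ₃, W', hW', hW'lim, -⟩ := H828.ck_subseq (k := k') (M := fun _ => c)
    (S := ball (0 : E) 2) isOpen_ball (convex_ball _ _) isBounded_ball
    (F := fun n => W (ψ (ψ' (φ₁ (φ₂ n))))) (fun n => (hWk _).toCkB)
  have uV := H828.tendstoUniformlyOn_of_zero (hV'lim 0 (Nat.zero_le _))
  have uF := H828.tendstoUniformlyOn_of_zero (hF'lim 0 (Nat.zero_le _))
  have uW := H828.tendstoUniformlyOn_of_zero (hW'lim 0 (Nat.zero_le _))
  set φ : ℕ → ℕ := fun n => φ₁ (φ₂ (φ₃ n)) with hφdef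
  have hφ : StrictMono φ := hφ₁.comp (hφ₂.comp hφ₃)
  have uV' : TendstoUniformlyOn (fun n => Vh (ψ (ψ' (φ n)))) V' atTop (ball 0 2) :=
    H828.tendstoUniformlyOn_sub uV (hφ₂.comp hφ₃)
  have uF' : TendstoUniformlyOn (fun n => F (ψ (ψ' (φ n)))) F' atTop (ball 0 2) :=
    H828.tendstoUniformlyOn_sub uF hφ₃
  have uN' : TendstoUniformlyOn (fun n => Nn (ψ (ψ' (φ n)))) Ni atTop (closedBall 0 1) :=
    H828.tendstoUniformlyOn_sub hNu hφ
  have hFeq : ∀ u ∈ ball (0 : E) 2, F' u = Fi u := fun u hu =>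
    tendsto_nhds_unique (uF'.tendsto_at hu) ((hFp u hu).comp hφ.tendsto_atTop)
  have hWeq : ∀ u ∈ ball (0 : E) 2, W' u = Wi u := fun u hu =>
    tendsto_nhds_unique (uW.tendsto_at hu) ((hWp u hu).comp hφ.tendsto_atTop)
  -- the limit function along the line and its inverse
  have hF'b : Bk k' c (ball (0 : E) 2) F' := hF'
  have hF'line : Bk k' c (Ioo (-r) r) fun t : ℝ => F' (t • e₀) := hF'b.line he₀ hr2
  have hF'd : ∀ t ∈ Ioo (-r) r, DifferentiableAt ℝ (fun t : ℝ => F' (t • e₀)) t := fun t ht =>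
    (hF'line.contDiffAt isOpen_Ioo ht).differentiableAt (by
      exact_mod_cast (by omega : k' ≠ 0))
  have hF'g : ∀ x ∈ Ioo (-r) r, ∀ y ∈ Ioo (-r) r, x ≤ y →
      c' * (y - x) ≤ F' (y • e₀) - F' (x • e₀) := by
    intro x hx y hy hxy
    refine ge_of_tendsto ((uF'.tendsto_at (hline y hy).1).sub (uF'.tendsto_at (hline x hx).1))
      (Eventually.of_forall fun n => ?_)
    exact (hgrowF _).1 x hx y hy hxy
  have hF'c := deriv_ge_of_growth hF'd hF'g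
  have hF'0 : F' 0 = 0 := by
    refine tendsto_nhds_unique (uF'.tendsto_at (mem_ball_self (by norm_num))) ?_
    simp only [hF0]
    exact tendsto_const_nhds
  obtain ⟨K', hK'1, hinv'⟩ := exists_inverse (k' - 1) (C := c) hc' hr
  have hk'' : k' - 1 + 1 = k' := by omega
  obtain ⟨T', hT', hT'm, -⟩ := hinv' (fun t : ℝ => F' (t • e₀)) (by rw [hk'']; exact hF'line)
    (by simp only [zero_smul]; exact hF'0) hF'c
  rw [hk''] at hT'
  have hWi : ∀ t ∈ Ioo (-r) r, c' ≤ lam (W' (t • e₀)) := by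
    intro t ht
    refine ge_of_tendsto ((lam.continuous.tendsto _).comp (uW.tendsto_at (hline t ht).1))
      (Eventually.of_forall fun n => ?_)
    exact hWl _ t ht
  set b' : ℝ → ℝ := fun s => lam (Ni (T' s • e₀) - V' (T' s • e₀)) *
    (lam (W' (T' s • e₀)))⁻¹ with hb'
  have hTmem : ∀ s ∈ Icc (-ε) ε, s ∈ Ioo (-(c' * r)) (c' * r) := fun s hs =>
    ⟨by linarith [hs.1], by linarith [hs.2]⟩
  have hV'c : ContinuousOn V' (ball 0 2) := hV'.1.continuousOn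
  have hW'c : ContinuousOn W' (ball 0 2) := hW'.1.continuousOn
  have hF'cont : ContinuousOn F' (ball 0 2) := hF'.1.continuousOn
  have hT'c : ContinuousOn T' (Ioo (-(c' * r)) (c' * r)) := hT'.1.continuousOn
  have hb'c : ContinuousOn b' (Icc (-ε) ε) := by
    have h1 : ContinuousOn (fun s => T' s • e₀) (Icc (-ε) ε) :=
      (hT'c.mono hTmem).smul continuousOn_const
    refine ContinuousOn.mul (lam.continuous.comp_continuousOn (ContinuousOn.sub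
      (hNic.comp h1 fun s hs => (hline _ (hT'm s (hTmem s hs)).1).2)
      (hV'c.comp h1 fun s hs => (hline _ (hT'm s (hTmem s hs)).1).1)))
      (ContinuousOn.inv₀ (lam.continuous.comp_continuousOn
      (hW'c.comp h1 fun s hs => (hline _ (hT'm s (hTmem s hs)).1).1)) fun s hs => ?_)
    exact (lt_of_lt_of_le hc' (hWi _ (hT'm s (hTmem s hs)).1)).ne'
  refine ⟨fun n => ψ' (φ n), hψ'.comp hφ, b', ?_, ?_⟩
  · -- uniform convergence
    refine tuo_of_cc isCompact_Icc hb'c fun φ' hφ' x hx x₀ hx₀ hlimx => ?_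
    have hx' : ∀ n, x n ∈ Ioo (-(c' * r)) (c' * r) := fun n => hTmem _ (hx n)
    have hx₀' := hTmem _ hx₀
    have hT₀ := hT'm x₀ hx₀'
    -- convergence of the parameters
    have htn : Tendsto (fun n => T (ψ (ψ' (φ (φ' n)))) (x n)) atTop (𝓝 (T' x₀)) := by
      rw [tendsto_iff_dist_tendsto_zero]
      have h1 : Tendsto (fun n => |F (ψ (ψ' (φ (φ' n)))) (T' x₀ • e₀) - x n| / c') atTop
          (𝓝 (|F' (T' x₀ • e₀) - x₀| / c')) :=
        ((((uF'.tendsto_at (hline _ hT₀.1).1).comp hφ'.tendsto_atTop).sub hlimx).abs).div_const _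
      have h2 : F' (T' x₀ • e₀) = x₀ := hT₀.2.1
      rw [h2, sub_self, abs_zero, zero_div] at h1
      refine squeeze_zero (fun _ => dist_nonneg) (fun n => ?_) h1
      obtain ⟨h3, h4, -⟩ := hTm (ψ (ψ' (φ (φ' n)))) (x n) (hx' n)
      have h5 := (hgrowF (ψ (ψ' (φ (φ' n))))).2 _ h3 _ hT₀.1
      rw [h4] at h5
      rw [Real.dist_eq, le_div_iff₀ hc', abs_sub_comm, mul_comm]
      exact h5
    have hpt : Tendsto (fun n => T (ψ (ψ' (φ (φ' n)))) (x n) • e₀) atTop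
        (𝓝 (T' x₀ • e₀)) := htn.smul_const e₀
    have hmem : ∀ n, T (ψ (ψ' (φ (φ' n)))) (x n) • e₀ ∈ ball (0 : E) 2 ∧
        T (ψ (ψ' (φ (φ' n)))) (x n) • e₀ ∈ closedBall (0 : E) 1 := fun n =>
      hline _ (hTm _ _ (hx' n)).1
    have cN := cc_of_unif (H828.tendstoUniformlyOn_sub uN' hφ') hNic
      (fun n => (hmem n).2) (hline _ hT₀.1).2 hpt
    have cV := cc_of_unif (H828.tendstoUniformlyOn_sub uV' hφ') hV'c
      (fun n => (hmem n).1) (hline _ hT₀.1).1 hpt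
    have cW := cc_of_unif (H828.tendstoUniformlyOn_sub uW hφ') hW'c
      (fun n => (hmem n).1) (hline _ hT₀.1).1 hpt
    have hW0 : lam (W' (T' x₀ • e₀)) ≠ 0 := (lt_of_lt_of_le hc' (hWi _ hT₀.1)).ne'
    have hfin := ((lam.continuous.tendsto _).comp (cN.sub cV)).mul
      (((lam.continuous.tendsto _).comp cW).inv₀ hW0)
    refine hfin.congr fun n => ?_
    exact (hremeq _ _ (hx' n)).symm
  · -- nowhere smooth
    intro I hI hIS hIne hcd
    have hIr : ∀ s ∈ I, s ∈ Ioo (-(c' * r)) (c' * r) := fun s hs =>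
      hTmem s (Ioo_subset_Icc_self (hIS hs))
    have hk₀' : (k₀ : WithTop ℕ∞) ≤ (k' : WithTop ℕ∞) := by exact_mod_cast (by omega : k₀ ≤ k')
    have hTI : ContDiffOn ℝ k₀ (fun s => T' s • e₀) I :=
      ((hT'.1.of_le hk₀').mono hIr).smul contDiffOn_const
    have hmI : ∀ s ∈ I, T' s • e₀ ∈ ball (0 : E) 2 := fun s hs =>
      (hline _ (hT'm s (hIr s hs)).1).1
    have cV : ContDiffOn ℝ k₀ (fun s => lam (V' (T' s • e₀))) I :=
      lam.contDiff.comp_contDiffOn ((hV'.1.of_le hk₀').comp hTI hmI)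
    have cVi : ContDiffOn ℝ k₀ (fun s => lam (Vi (T' s • e₀))) I :=
      lam.contDiff.comp_contDiffOn (hVi.comp hTI hmI)
    have cW : ContDiffOn ℝ k₀ (fun s => lam (W' (T' s • e₀))) I :=
      lam.contDiff.comp_contDiffOn ((hW'.1.of_le hk₀').comp hTI hmI)
    have hWne : ∀ s ∈ I, lam (W' (T' s • e₀)) ≠ 0 := fun s hs =>
      (lt_of_lt_of_le hc' (hWi _ (hT'm s (hIr s hs)).1)).ne'
    -- `b (c₁ s)` is smooth on `I`
    have hbs : ContDiffOn ℝ k₀ (fun s => b (c₁ * s)) I := by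
      have h1 : ContDiffOn ℝ k₀ (fun s => c₂⁻¹ * (b' s + (lam (V' (T' s • e₀)) -
          lam (Vi (T' s • e₀))) * (lam (W' (T' s • e₀)))⁻¹)) I :=
        contDiffOn_const.mul (hcd.add ((cV.sub cVi).mul (cW.inv hWne)))
      refine h1.congr fun s hs => ?_
      obtain ⟨h2, h3, -⟩ := hT'm s (hIr s hs)
      have h4 := hNi _ (hline _ h2).2
      rw [← hFeq _ (hline _ h2).1, ← hWeq _ (hline _ h2).1, show F' (T' s • e₀) = s from h3] at h4
      have h5 := hWne s hs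
      simp only [hb', h4, map_sub, map_add, map_smul, smul_eq_mul]
      field_simp
      ring
    have hopen : IsOpen ((fun s => c₁⁻¹ * s) ⁻¹' I) := hI.preimage (by fun_prop)
    refine hnw ((fun s => c₁⁻¹ * s) ⁻¹' I) hopen (subset_univ _) ?_ ?_
    · obtain ⟨x, hx⟩ := hIne
      refine ⟨c₁ * x, ?_⟩
      rw [mem_preimage, inv_mul_cancel_left₀ hc₁]
      exact hx
    · have h1 := hbs.comp (by fun_prop : ContDiff ℝ k₀ fun s : ℝ => c₁⁻¹ * s).contDiffOn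
        (s := (fun s => c₁⁻¹ * s) ⁻¹' I) (fun s hs => hs)
      refine h1.congr fun s _ => ?_
      simp only [Function.comp_apply]
      rw [mul_inv_cancel_left₀ hc₁]

end Vale.Agent.P207.N3.H738
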