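import Vale.Agent.P207.N3.H828.CK2
import Vale.Agent.P207.N3.H545.Chain
import Vale.Agent.P207.N3.H545.Interp

/-!
# Calculus of `C^k` bounds (helper738, line N3 of P207)

`Bk k C S F`: `F` is `C^k` on `S` with all derivatives of order `≤ k` bounded by `C`
(`= H828.CkB` with a constant bound).
-/

open Set Filter Topology Metric

noncomputable section

namespace Vale.Agent.P207.N3.H738

variable {D E F G : Type*} [NormedAddCommGroup D] [NormedSpace ℝ D]
  [NormedAddCommGroup E] [NormedSpace ℝ E] [NormedAddCommGroup F] [NormedSpace ℝ F]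
  [NormedAddCommGroup G] [NormedSpace ℝ G]

/-- `C^k` bounds on `S` -/
def Bk (k : ℕ) (C : ℝ) (S : Set E) (f : E → F) : Prop :=
  ContDiffOn ℝ k f S ∧ ∀ i ≤ k, ∀ u ∈ S, ‖iteratedFDeriv ℝ i f u‖ ≤ C

theorem Bk.toCkB {k : ℕ} {C : ℝ} {S : Set E} {f : E → F} (h : Bk k C S f) :
    H828.CkB k (fun _ => C) S f := h

theorem Bk.mono {k l : ℕ} {C C' : ℝ} {S T : Set E} {f : E → F} (h : Bk k C S f) (hl : l ≤ k)
    (hC : C ≤ C') (hT : T ⊆ S) : Bk l C' T f :=
  ⟨(h.1.of_le (by exact_mod_cast hl)).mono hT, fun i hi u hu =>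
    (h.2 i (hi.trans hl) u (hT hu)).trans hC⟩

theorem Bk.norm_le {k : ℕ} {C : ℝ} {S : Set E} {f : E → F} (h : Bk k C S f) {u : E}
    (hu : u ∈ S) : ‖f u‖ ≤ C := by
  have := h.2 0 (Nat.zero_le _) u hu
  rwa [norm_iteratedFDeriv_zero] at this

theorem Bk.congr {k : ℕ} {C : ℝ} {S : Set E} (hS : IsOpen S) {f g : E → F} (h : Bk k C S f)
    (hfg : ∀ u ∈ S, g u = f u) : Bk k C S g := by
  refine ⟨h.1.congr hfg, fun i hi u hu => ?_⟩
  have h1 : g =ᶠ[𝓝 u] f := Filter.eventuallyEq_of_mem (hS.mem_nhds hu) hfg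
  rw [(h1.iteratedFDeriv ℝ i).eq_of_nhds]
  exact h.2 i hi u hu

theorem Bk.contDiffAt {k : ℕ} {C : ℝ} {S : Set E} (hS : IsOpen S) {f : E → F} (h : Bk k C S f)
    {u : E} (hu : u ∈ S) : ContDiffAt ℝ k f u :=
  h.1.contDiffAt (hS.mem_nhds hu)

theorem Bk.add {k : ℕ} {C C' : ℝ} {S : Set E} (hS : IsOpen S) {f g : E → F} (hf : Bk k C S f)
    (hg : Bk k C' S g) : Bk k (C + C') S fun u => f u + g u := by
  refine ⟨hf.1.add hg.1, fun i hi u hu => ?_⟩
  have h1 : iteratedFDeriv ℝ i (fun u => f u + g u) u =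
      iteratedFDeriv ℝ i f u + iteratedFDeriv ℝ i g u :=
    iteratedFDeriv_add_apply ((hf.contDiffAt hS hu).of_le (by exact_mod_cast hi))
      ((hg.contDiffAt hS hu).of_le (by exact_mod_cast hi))
  rw [h1]
  exact (norm_add_le _ _).trans (add_le_add (hf.2 i hi u hu) (hg.2 i hi u hu))

theorem Bk.neg {k : ℕ} {C : ℝ} {S : Set E} {f : E → F} (hf : Bk k C S f) :
    Bk k C S fun u => -f u := by
  refine ⟨hf.1.neg, fun i hi u hu => ?_⟩
  have h1 : iteratedFDeriv ℝ i (fun u => -f u) u = -iteratedFDeriv ℝ i f u :=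
    iteratedFDeriv_neg_apply
  rw [h1, norm_neg]
  exact hf.2 i hi u hu

theorem Bk.sub {k : ℕ} {C C' : ℝ} {S : Set E} (hS : IsOpen S) {f g : E → F} (hf : Bk k C S f)
    (hg : Bk k C' S g) : Bk k (C + C') S fun u => f u - g u := by
  simpa only [sub_eq_add_neg] using hf.add hS hg.neg

theorem Bk.const {k : ℕ} {C : ℝ} {S : Set E} {c : F} (hc : ‖c‖ ≤ C) :
    Bk k C S fun _ : E => c := by
  refine ⟨contDiffOn_const, fun i _ u _ => ?_⟩
  have hC : 0 ≤ C := (norm_nonneg _).trans hc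
  rcases Nat.eq_zero_or_pos i with h | h
  · subst h
    rw [norm_iteratedFDeriv_zero]
    exact hc
  · rw [iteratedFDeriv_const_of_ne (by omega)]
    simpa using hC

/-- bilinear operations -/
theorem Bk.bilin {k : ℕ} {C C' : ℝ} {S : Set D} (hS : IsOpen S) (B : E →L[ℝ] F →L[ℝ] G)
    {f : D → E} {g : D → F} (hf : Bk k C S f) (hg : Bk k C' S g) :
    Bk k (‖B‖ * (2 ^ k * (C * C'))) S fun u => B (f u) (g u) := by
  refine ⟨?_, fun i hi u hu => ?_⟩
  · exact B.isBoundedBilinearMap.contDiff.comp_contDiffOn (hf.1.prodMk hg.1)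
  · have h0 : 0 ≤ C := (norm_nonneg _).trans (hf.2 0 (Nat.zero_le _) u hu)
    have h0' : 0 ≤ C' := (norm_nonneg _).trans (hg.2 0 (Nat.zero_le _) u hu)
    refine (H545.norm_iteratedFDeriv_bilin_le B
      ((hf.contDiffAt hS hu).of_le (by exact_mod_cast hi))
      ((hg.contDiffAt hS hu).of_le (by exact_mod_cast hi))
      (fun j hj => hf.2 j (hj.trans hi) u hu) (fun j hj => hg.2 j (hj.trans hi) u hu)).trans ?_
    have h2 : (2 : ℝ) ^ i ≤ 2 ^ k := pow_le_pow_right₀ (by norm_num) hi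
    gcongr

theorem Bk.smul {k : ℕ} {C C' : ℝ} {S : Set D} (hS : IsOpen S) {f : D → ℝ} {g : D → F}
    (hf : Bk k C S f) (hg : Bk k C' S g) :
    Bk k (2 ^ k * (C * C')) S fun u => f u • g u := by
  by_cases hne : S.Nonempty
  · obtain ⟨u, hu⟩ := hne
    have h0 : 0 ≤ C := (norm_nonneg _).trans (hf.2 0 (Nat.zero_le _) u hu)
    have h0' : 0 ≤ C' := (norm_nonneg _).trans (hg.2 0 (Nat.zero_le _) u hu)
    have h := hf.bilin hS (ContinuousLinearMap.lsmul ℝ ℝ) hg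
    refine h.mono le_rfl ?_ subset_rfl
    have h1 : ‖(ContinuousLinearMap.lsmul ℝ ℝ : ℝ →L[ℝ] F →L[ℝ] F)‖ ≤ 1 :=
      ContinuousLinearMap.opNorm_lsmul_le
    calc _ ≤ 1 * (2 ^ k * (C * C')) := by gcongr
      _ = _ := one_mul _
  · rw [not_nonempty_iff_eq_empty] at hne
    subst hne
    exact ⟨contDiffOn_empty, fun i _ u hu => absurd hu (notMem_empty u)⟩

theorem Bk.mul {k : ℕ} {C C' : ℝ} {S : Set D} (hS : IsOpen S) {f : D → ℝ} {g : D → ℝ}
    (hf : Bk k C S f) (hg : Bk k C' S g) :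
    Bk k (2 ^ k * (C * C')) S fun u => f u * g u :=
  hf.smul hS hg

/-- postcomposition with a continuous linear map -/
theorem Bk.clm {k : ℕ} {C : ℝ} {S : Set D} (hS : IsOpen S) (L : E →L[ℝ] F) {f : D → E}
    (hf : Bk k C S f) : Bk k (‖L‖ * C) S fun u => L (f u) := by
  refine ⟨L.contDiff.comp_contDiffOn hf.1, fun i hi u hu => ?_⟩
  have h1 := L.norm_iteratedFDeriv_comp_left
    ((hf.contDiffAt hS hu).of_le (by exact_mod_cast hi : (i : WithTop ℕ∞) ≤ k)) (n := i) le_rfl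
  exact h1.trans (mul_le_mul_of_nonneg_left (hf.2 i hi u hu) (norm_nonneg _))

/-- composition -/
theorem Bk.comp {k : ℕ} {C C' : ℝ} {S : Set D} {T : Set E} (hS : IsOpen S) (hT : IsOpen T)
    {g : E → F} {f : D → E} (hg : Bk k C T g) (hf : ContDiffOn ℝ k f S)
    (hf' : ∀ i, 1 ≤ i → i ≤ k → ∀ u ∈ S, ‖iteratedFDeriv ℝ i f u‖ ≤ C') (hC' : 1 ≤ C')
    (hst : MapsTo f S T) :
    Bk k (k.factorial * C * C' ^ k) S fun u => g (f u) := by
  refine ⟨hg.1.comp hf hst, fun i hi u hu => ?_⟩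
  have hC0 : 0 ≤ C := (norm_nonneg _).trans (hg.2 0 (Nat.zero_le _) (f u) (hst hu))
  have h1 := norm_iteratedFDerivWithin_comp_le (𝕜 := ℝ) (g := g) (f := f) (n := i) (N := k)
    (s := S) (t := T) (x := u) hg.1 hf (by exact_mod_cast hi) hT.uniqueDiffOn hS.uniqueDiffOn
    hst hu (C := C) (D := C') (fun j hj => by
      rw [iteratedFDerivWithin_of_isOpen j hT (hst hu)]
      exact hg.2 j (hj.trans hi) _ (hst hu)) (fun j hj1 hj => by
      rw [iteratedFDerivWithin_of_isOpen j hS hu]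
      refine (hf' j hj1 (hj.trans hi) u hu).trans ?_
      calc C' = C' ^ 1 := (pow_one _).symm
        _ ≤ C' ^ j := pow_le_pow_right₀ hC' hj1)
  rw [iteratedFDerivWithin_of_isOpen i hS hu] at h1
  refine h1.trans ?_
  have h2 : (i.factorial : ℝ) ≤ k.factorial := by exact_mod_cast Nat.factorial_le hi
  have h3 : C' ^ i ≤ C' ^ k := pow_le_pow_right₀ hC' hi
  gcongr

/-- restriction to a line -/
theorem Bk.line {k : ℕ} {C r R : ℝ} {f : E → F} (hf : Bk k C (ball 0 R) f) {e : E}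
    (he : ‖e‖ ≤ 1) (hr : r ≤ R) : Bk k C (Ioo (-r) r) fun t : ℝ => f (t • e) := by
  have hmap : ∀ t ∈ Ioo (-r) r, t • e ∈ ball (0 : E) R := by
    intro t ht
    rw [mem_ball_zero_iff, norm_smul, Real.norm_eq_abs]
    have h1 : |t| < r := abs_lt.2 ht
    calc |t| * ‖e‖ ≤ |t| * 1 := mul_le_mul_of_nonneg_left he (abs_nonneg _)
      _ < R := by rw [mul_one]; exact lt_of_lt_of_le h1 hr
  refine ⟨hf.1.comp (by fun_prop : ContDiff ℝ k fun t : ℝ => t • e).contDiffOn hmap,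
    fun i hi t ht => ?_⟩
  have h1 : ContDiffAt ℝ i f ((0 : E) + t • e) := by
    rw [zero_add]
    exact (hf.contDiffAt isOpen_ball (hmap t ht)).of_le (by exact_mod_cast hi)
  have h2 := H545.norm_iteratedDeriv_line_le (Z := f) (x := (0 : E)) (u := e) (t := t) h1
  simp only [zero_add] at h2
  rw [norm_iteratedFDeriv_eq_norm_iteratedDeriv]
  refine h2.trans ?_
  have h3 := hf.2 i hi _ (hmap t ht)
  calc _ ≤ C * 1 := mul_le_mul h3 (pow_le_one₀ (norm_nonneg _) he) (by positivity)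
        ((norm_nonneg _).trans h3)
    _ = C := mul_one C

/-! ### One variable -/

theorem Bk.deriv {k : ℕ} {C : ℝ} {S : Set ℝ} (hS : IsOpen S) {f : ℝ → F}
    (hf : Bk (k + 1) C S f) : Bk k C S (_root_.deriv f) := by
  refine ⟨((contDiffOn_succ_iff_deriv_of_isOpen hS).1 (by exact_mod_cast hf.1)).2.2,
    fun i hi u hu => ?_⟩
  rw [norm_iteratedFDeriv_eq_norm_iteratedDeriv, ← iteratedDeriv_succ',
    ← norm_iteratedFDeriv_eq_norm_iteratedDeriv]
  exact hf.2 (i + 1) (by omega) u hu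

theorem Bk.of_deriv {k : ℕ} {C C' : ℝ} {S : Set ℝ} (hS : IsOpen S) {f : ℝ → F}
    (hd : DifferentiableOn ℝ f S) (hf : Bk k C S (_root_.deriv f)) (h0 : ∀ u ∈ S, ‖f u‖ ≤ C') :
    Bk (k + 1) (max C C') S f := by
  refine ⟨?_, fun i hi u hu => ?_⟩
  · have := (contDiffOn_succ_iff_deriv_of_isOpen (n := (k : WithTop ℕ∞)) hS).2
      ⟨hd, by simp, hf.1⟩
    exact_mod_cast this
  · rcases Nat.eq_zero_or_pos i with h | h
    · subst h
      rw [norm_iteratedFDeriv_zero]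
      exact (h0 u hu).trans (le_max_right _ _)
    · obtain ⟨j, rfl⟩ : ∃ j, i = j + 1 := ⟨i - 1, by omega⟩
      rw [norm_iteratedFDeriv_eq_norm_iteratedDeriv, iteratedDeriv_succ',
        ← norm_iteratedFDeriv_eq_norm_iteratedDeriv]
      exact (hf.2 j (by omega) u hu).trans (le_max_left _ _)

/-- bounds for the derivatives of `x ↦ 1/x` on `(c, ∞)` -/
theorem exists_bk_inv (k : ℕ) {c : ℝ} (hc : 0 < c) :
    ∃ C : ℝ, 0 ≤ C ∧ Bk k C (Ioi c) fun x : ℝ => x⁻¹ := by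
  induction k with
  | zero =>
    refine ⟨c⁻¹, (inv_pos.2 hc).le, ?_, fun i hi u hu => ?_⟩
    · exact contDiffOn_id.inv fun x hx => (hc.trans hx).ne'
    · obtain rfl : i = 0 := by omega
      rw [norm_iteratedFDeriv_zero, norm_inv, Real.norm_eq_abs, abs_of_pos (hc.trans hu)]
      exact inv_anti₀ hc (le_of_lt hu)
  | succ k ih =>
    obtain ⟨C, hC, h⟩ := ih
    have hS : IsOpen (Ioi c) := isOpen_Ioi
    have h1 : Bk k (2 ^ k * (C * C)) (Ioi c) (_root_.deriv fun x : ℝ => x⁻¹) := by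
      refine ((h.mul hS h).neg).congr hS fun u hu => ?_
      have hu0 : u ≠ 0 := (hc.trans hu).ne'
      rw [(hasDerivAt_inv hu0).deriv]
      field_simp
    refine ⟨max (2 ^ k * (C * C)) c⁻¹, le_max_of_le_right (inv_pos.2 hc).le,
      h1.of_deriv hS ?_ fun u hu => ?_⟩
    · intro x hx
      exact (differentiableAt_inv (hc.trans hx).ne').differentiableWithinAt
    · rw [norm_inv, Real.norm_eq_abs, abs_of_pos (hc.trans hu)]
      exact inv_anti₀ hc (le_of_lt hu)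

/-- bounds for `1/f` -/
theorem exists_bk_inv_comp (k : ℕ) {c : ℝ} (hc : 0 < c) (C : ℝ) :
    ∃ C' : ℝ, 0 ≤ C' ∧ ∀ {S : Set D}, IsOpen S → ∀ {f : D → ℝ}, Bk k C S f →
      (∀ u ∈ S, c ≤ f u) → Bk k C' S fun u => (f u)⁻¹ := by
  obtain ⟨C₁, hC₁, h⟩ := exists_bk_inv k (half_pos hc)
  refine ⟨k.factorial * C₁ * (max C 1) ^ k, by positivity, fun {S} hS {f} hf hfc => ?_⟩
  exact h.comp hS isOpen_Ioi hf.1 (fun i _ hi u hu => (hf.2 i hi u hu).trans (le_max_left _ _))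
    (le_max_right _ _) fun u hu => by
      have := hfc u hu
      simp only [mem_Ioi]
      linarith

end Vale.Agent.P207.N3.H738
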