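import Vale.Agent.P207.N3.Top.Defs
import Vale.Agent.P207.N3.H828.Homog

/-!
# P207, line N3 (regularity of homoclinic points): wrong leading parts, the algebraic half
-/

open Set Filter Topology Metric
open scoped ContDiff

set_option linter.unusedSectionVars false

noncomputable section

namespace Vale.Agent.P207.N3.H738

open Vale.Agent.P207.N3

variable {Γ X B : Type} [Group Γ] [MetricSpace X] [ProperSpace X] [MulAction Γ X]
  [IsIsometricSMul Γ X] [TopologicalSpace B] [CompactSpace B] [T2Space B] [MulAction Γ B]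
  [ContinuousConstSMul Γ B]

variable {L : Leaf Γ X B} {o : Orb L}

/-- the derivative of the normal coordinate is onto -/
theorem exists_dx (n : Nor L o) {y : X} (hy : L.em y = o.neg) {u : E2}
    (hu : u ∈ ball (0 : E2) 3) (v : E2) : ∃ a : E2, fderiv ℝ (fun u => n.x (L.e y u)) u a = v := by
  have hu' : IsUnit ((fderiv ℝ (fun u => n.x (L.e y u)) u : E2 →L[ℝ] E2) : E2 →ₗ[ℝ] E2) := by
    rw [LinearMap.isUnit_iff_isUnit_det]
    exact (isUnit_iff_ne_zero.2 (n.deriv y hy u hu))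
  exact ((Module.End.isUnit_iff _).1 hu').2 v

theorem diff_x (n : Nor L o) {y : X} (hy : L.em y = o.neg) {u : E2}
    (hu : u ∈ ball (0 : E2) 3) : DifferentiableAt ℝ (fun u => n.x (L.e y u)) u :=
  ((n.smooth y hy u hu).contDiffAt (isOpen_ball.mem_nhds hu)).differentiableAt (by simp)

/-- If `d(Q ∘ x) ∧ dx_i = 0` on a piece `O` of a disc of the leaf, then the derivative of `Q` in the
directions of `ker dx_i` vanishes on `x (e y O)`. -/
theorem wrong_dir (n : Nor L o) {y : X} (hy : L.em y = o.neg) (i : Fin 2) {Q : E2 → ℝ} {O : Set E2}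
    (hO : O ⊆ ball (0 : E2) 3) (hQ : ∀ u ∈ O, DifferentiableAt ℝ Q (n.x (L.e y u)))
    (hw : H828.WedgeZero O (fun u => Q (n.x (L.e y u))) (fun u => n.x (L.e y u) i)) :
    ∀ u ∈ O, ∀ v : E2, v i = 0 → fderiv ℝ Q (n.x (L.e y u)) v = 0 := by
  intro u hu v hv
  obtain ⟨a, ha⟩ := exists_dx n hy (hO hu) v
  obtain ⟨b, hb⟩ := exists_dx n hy (hO hu) (EuclideanSpace.single i 1)
  have hx := diff_x n hy (hO hu)
  have h1 : fderiv ℝ (fun u => Q (n.x (L.e y u))) u =
      (fderiv ℝ Q (n.x (L.e y u))).comp (fderiv ℝ (fun u => n.x (L.e y u)) u) :=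
    ((hQ u hu).hasFDerivAt.comp u hx.hasFDerivAt).fderiv
  have h2 : fderiv ℝ (fun u => n.x (L.e y u) i) u =
      (EuclideanSpace.proj i : E2 →L[ℝ] ℝ).comp (fderiv ℝ (fun u => n.x (L.e y u)) u) :=
    ((EuclideanSpace.proj i : E2 →L[ℝ] ℝ).hasFDerivAt.comp u hx.hasFDerivAt).fderiv
  have h3 := hw u hu a b
  rw [h1, h2] at h3
  simp only [ContinuousLinearMap.comp_apply, ha, hb] at h3
  have h4 : (EuclideanSpace.proj i : E2 →L[ℝ] ℝ) v = 0 := hv
  have h5 : (EuclideanSpace.proj i : E2 →L[ℝ] ℝ) (EuclideanSpace.single i 1) = 1 := by simp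
  rw [h4, h5, mul_zero, mul_one] at h3
  exact h3

/-- the image of an open piece under a coordinate is infinite -/
theorem infinite_coord (n : Nor L o) {y : X} (hy : L.em y = o.neg) (j : Fin 2) {O : Set E2}
    (hO : O ⊆ ball (0 : E2) 3) (hOo : IsOpen O) (hne : O.Nonempty) :
    ((fun u => n.x (L.e y u) j) '' O).Infinite := by
  obtain ⟨u, hu⟩ := hne
  obtain ⟨b, hb⟩ := exists_dx n hy (hO hu) (EuclideanSpace.single j 1)
  have hx := diff_x n hy (hO hu)
  intro hfin
  -- along the line `u + s b` the coordinate has derivative one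
  have h2 : HasFDerivAt (fun u => n.x (L.e y u) j)
      ((EuclideanSpace.proj j : E2 →L[ℝ] ℝ).comp (fderiv ℝ (fun u => n.x (L.e y u)) u)) u :=
    (EuclideanSpace.proj j : E2 →L[ℝ] ℝ).hasFDerivAt.comp u hx.hasFDerivAt
  have h3 : HasDerivAt (fun s : ℝ => u + s • b) b 0 := by
    simpa using ((hasDerivAt_id (0 : ℝ)).smul_const b).const_add u
  have h4 : HasDerivAt (fun s : ℝ => n.x (L.e y (u + s • b)) j) 1 0 := by
    have h2' : HasFDerivAt (fun u => n.x (L.e y u) j)
        ((EuclideanSpace.proj j : E2 →L[ℝ] ℝ).comp (fderiv ℝ (fun u => n.x (L.e y u)) u))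
        (u + (0 : ℝ) • b) := by simpa using h2
    have h5 := HasFDerivAt.comp_hasDerivAt (l := fun u => n.x (L.e y u) j)
      (f := fun s : ℝ => u + s • b) (0 : ℝ) h2' h3
    simp only [ContinuousLinearMap.comp_apply, hb] at h5
    have h9 : (EuclideanSpace.proj j : E2 →L[ℝ] ℝ) (EuclideanSpace.single j 1) = 1 := by simp
    rw [h9] at h5
    exact h5
  have h6 : ∀ᶠ s in 𝓝 (0 : ℝ), u + s • b ∈ O := by
    have : Tendsto (fun s : ℝ => u + s • b) (𝓝 0) (𝓝 u) := by
      have h7 := h3.continuousAt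
      simpa [ContinuousAt] using h7
    exact this (hOo.mem_nhds hu)
  -- the coordinate takes finitely many values near `0`, so it is locally constant
  have h7 : ∀ᶠ s in 𝓝 (0 : ℝ), n.x (L.e y (u + s • b)) j = n.x (L.e y u) j := by
    have hcl : IsClosed (((fun u => n.x (L.e y u) j) '' O) \ {n.x (L.e y u) j}) :=
      (hfin.subset sdiff_subset).isClosed
    have h8 : (((fun u => n.x (L.e y u) j) '' O) \ {n.x (L.e y u) j})ᶜ ∈
        𝓝 (n.x (L.e y (u + (0 : ℝ) • b)) j) := by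
      rw [zero_smul, add_zero]
      exact hcl.isOpen_compl.mem_nhds (by simp)
    have h9 := h4.continuousAt h8
    filter_upwards [h9, h6] with s hs hs'
    by_contra hcon
    exact hs ⟨⟨_, hs', rfl⟩, hcon⟩
  have h8 : HasDerivAt (fun s : ℝ => n.x (L.e y (u + s • b)) j) 0 0 :=
    (hasDerivAt_const (0 : ℝ) (n.x (L.e y u) j)).congr_of_eventuallyEq h7
  have := h4.unique h8
  norm_num at this

/-- a leading part `α x₀ + p(x₁)` which is proportional to `x₁` -/
theorem wrong_one (n : Nor L o) {y : X} (hy : L.em y = o.neg) {O : Set E2}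
    (hO : O ⊆ ball (0 : E2) 3) (hne : O.Nonempty) {α : ℝ} {p : ℝ → ℝ} (hp : Differentiable ℝ p)
    (hw : H828.WedgeZero O (fun u => α * n.x (L.e y u) 0 + p (n.x (L.e y u) 1))
      (fun u => n.x (L.e y u) 1)) : α = 0 := by
  obtain ⟨u, hu⟩ := hne
  have hQ : ∀ z : E2, HasFDerivAt (fun z : E2 => α * z 0 + p (z 1))
      (α • (EuclideanSpace.proj 0 : E2 →L[ℝ] ℝ) +
        (deriv p (z 1)) • (EuclideanSpace.proj 1 : E2 →L[ℝ] ℝ)) z := by
    intro z
    have h1 : HasFDerivAt (fun z : E2 => z 0) (EuclideanSpace.proj 0 : E2 →L[ℝ] ℝ) z :=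
      (EuclideanSpace.proj 0 : E2 →L[ℝ] ℝ).hasFDerivAt
    have h2 : HasFDerivAt (fun z : E2 => z 1) (EuclideanSpace.proj 1 : E2 →L[ℝ] ℝ) z :=
      (EuclideanSpace.proj 1 : E2 →L[ℝ] ℝ).hasFDerivAt
    exact (h1.const_mul α).add ((hp (z 1)).hasDerivAt.comp_hasFDerivAt z h2)
  have h := wrong_dir n hy 1 (Q := fun z : E2 => α * z 0 + p (z 1)) hO
    (fun u _ => (hQ _).differentiableAt) hw u hu (EuclideanSpace.single 0 1) (by simp)
  rw [(hQ _).fderiv] at h
  simpa using h

/-- a leading part `α x₀ + p(x₁)`, `p` a polynomial, which is proportional to `x₀` -/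
theorem wrong_zero (n : Nor L o) {y : X} (hy : L.em y = o.neg) {O : Set E2}
    (hO : O ⊆ ball (0 : E2) 3) (hOo : IsOpen O) (hne : O.Nonempty) {α : ℝ} {p : Polynomial ℝ}
    (hw : H828.WedgeZero O (fun u => α * n.x (L.e y u) 0 + p.eval (n.x (L.e y u) 1))
      (fun u => n.x (L.e y u) 0)) : Polynomial.derivative p = 0 := by
  have hQ : ∀ z : E2, HasFDerivAt (fun z : E2 => α * z 0 + p.eval (z 1))
      (α • (EuclideanSpace.proj 0 : E2 →L[ℝ] ℝ) +
        ((Polynomial.derivative p).eval (z 1)) • (EuclideanSpace.proj 1 : E2 →L[ℝ] ℝ)) z := by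
    intro z
    have h1 : HasFDerivAt (fun z : E2 => z 0) (EuclideanSpace.proj 0 : E2 →L[ℝ] ℝ) z :=
      (EuclideanSpace.proj 0 : E2 →L[ℝ] ℝ).hasFDerivAt
    have h2 : HasFDerivAt (fun z : E2 => z 1) (EuclideanSpace.proj 1 : E2 →L[ℝ] ℝ) z :=
      (EuclideanSpace.proj 1 : E2 →L[ℝ] ℝ).hasFDerivAt
    have h3 : HasFDerivAt (fun z : E2 => p.eval (z 1))
        (((Polynomial.derivative p).eval (z 1)) • (EuclideanSpace.proj 1 : E2 →L[ℝ] ℝ)) z := by
      have h4 := HasDerivAt.comp_hasFDerivAt (h₂ := fun s => p.eval s) (f := fun z : E2 => z 1) z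
        (p.hasDerivAt (z 1)) h2
      exact h4
    exact (h1.const_mul α).add h3
  refine Polynomial.eq_zero_of_infinite_isRoot _
    ((infinite_coord n hy 1 hO hOo hne).mono ?_)
  rintro s ⟨u, hu, rfl⟩
  have h := wrong_dir n hy 0 (Q := fun z : E2 => α * z 0 + p.eval (z 1)) hO
    (fun u _ => (hQ _).differentiableAt) hw u hu (EuclideanSpace.single 1 1) (by simp)
  rw [(hQ _).fderiv] at h
  simpa using h

end Vale.Agent.P207.N3.H738
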